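import Vale.Agent.P235.Defs

/-! A linear vortex together with non-crossing chords has bounded treewidth. -/

open SimpleGraph

namespace Vale.Agent.P235

section Tree

variable {ι : Type} (r : ι) (par : ι → ι)

/-- The graph of a parent function. -/
def vtwT : SimpleGraph ι := fromRel fun a b => a ≠ r ∧ b = par a

variable {r par} {rk : ι → ℕ}

theorem vtw_adj (h : ∀ a, a ≠ r → rk (par a) < rk a) {a : ι} (ha : a ≠ r) :
    (vtwT r par).Adj a (par a) :=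
  (fromRel_adj _ _ _).2 ⟨fun e => by have := h a ha; rw [← e] at this; omega, .inl ⟨ha, rfl⟩⟩

theorem vtw_conn (h : ∀ a, a ≠ r → rk (par a) < rk a) (S : Set ι) {t : ι} (ht : t ∈ S)
    (hS : ∀ a ∈ S, a ≠ t → a ≠ r ∧ par a ∈ S) : ((vtwT r par).induce S).Connected := by
  have key : ∀ N, ∀ a : S, rk a ≤ N → ((vtwT r par).induce S).Reachable a ⟨t, ht⟩ := by
    intro N
    induction N using Nat.strong_induction_on with
    | _ N ih =>
      intro a ha
      by_cases e : a.1 = t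
      · rw [show a = ⟨t, ht⟩ from Subtype.ext e]
      · obtain ⟨h1, h2⟩ := hS a a.2 e
        have h3 : ((vtwT r par).induce S).Adj a ⟨par a, h2⟩ := vtw_adj h h1
        exact h3.reachable.trans (ih _ ((h a h1).trans_le ha) ⟨par a, h2⟩ le_rfl)
  have : Nonempty S := ⟨⟨t, ht⟩⟩
  exact ⟨fun a b => (key _ a le_rfl).trans (key _ b le_rfl).symm⟩

theorem vtw_tree [Finite ι] (h : ∀ a, a ≠ r → rk (par a) < rk a) : (vtwT r par).IsTree := by
  have hc : (vtwT r par).Connected :=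
    (vtwT r par).induceUnivIso.connected_iff.1
      (vtw_conn h Set.univ (Set.mem_univ r) fun a _ ha => ⟨ha, trivial⟩)
  rw [isTree_iff_connected_and_card]
  refine ⟨hc, le_antisymm ?_ hc.card_vert_le_card_edgeSet_add_one⟩
  have h1 : (vtwT r par).edgeSet ⊆ (fun a => s(a, par a)) '' {r}ᶜ := by
    intro e he
    induction e using Sym2.ind with
    | _ a b =>
      rcases ((fromRel_adj _ a b).1 (show (vtwT r par).Adj a b from he)).2 with ⟨h1, h2⟩ | ⟨h1, h2⟩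
      · exact ⟨a, h1, by rw [h2]⟩
      · exact ⟨b, h1, by rw [h2, Sym2.eq_swap]⟩
  have h2 := (Set.ncard_le_ncard h1).trans (Set.ncard_image_le (Set.toFinite _))
  have h3 := Set.ncard_add_ncard_compl ({r} : Set ι)
  rw [Set.ncard_singleton] at h3
  rw [Nat.card_coe_set_eq]
  omega

end Tree

theorem vtw_lo (n : ℕ) (Q : ℕ → ℕ → Prop) (m : ℕ) : ∃ l, l ≤ m - 1 ∧
    (∀ a c, a < m → m < c → c ≤ n → Q a c → a ≤ l) ∧ (l = 0 ∨ ∃ c, m < c ∧ c ≤ n ∧ Q l c) := by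
  classical
  refine ⟨Nat.findGreatest (fun a => ∃ c, m < c ∧ c ≤ n ∧ Q a c) (m - 1), Nat.findGreatest_le _,
    fun a c h1 h2 h3 h4 => Nat.le_findGreatest (by omega) ⟨c, h2, h3, h4⟩, ?_⟩
  by_cases h : Nat.findGreatest (fun a => ∃ c, m < c ∧ c ≤ n ∧ Q a c) (m - 1) = 0
  · exact .inl h
  · exact .inr (Nat.findGreatest_of_ne_zero rfl h)

theorem vtw_hi (n : ℕ) (Q : ℕ → ℕ → Prop) (m : ℕ) : ∃ u, m < u ∧
    (∀ c, c ≤ n → Q m c → c ≤ u) ∧ (u = m + 1 ∨ u ≤ n ∧ Q m u) := by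
  classical
  by_cases h : Nat.findGreatest (Q m) n ≤ m
  · exact ⟨m + 1, by omega, fun c h1 h2 => by have := Nat.le_findGreatest h1 h2; omega, .inl rfl⟩
  · exact ⟨Nat.findGreatest (Q m) n, by omega, fun c h1 h2 => Nat.le_findGreatest h1 h2,
      .inr ⟨Nat.findGreatest_le _, Nat.findGreatest_of_ne_zero rfl (by omega)⟩⟩

theorem vtw_par {n : ℕ} {Q : ℕ → ℕ → Prop} {lo hi : ℕ → ℕ}
    (hR : ∀ a b c e, 1 ≤ a → a < b → b < c → c < e → Q a c → Q b e → False)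
    (l1 : ∀ m, lo m ≤ m - 1) (l2 : ∀ m a c, a < m → m < c → c ≤ n → Q a c → a ≤ lo m)
    (l3 : ∀ m, lo m = 0 ∨ ∃ c, m < c ∧ c ≤ n ∧ Q (lo m) c) (u1 : ∀ m, m < hi m)
    (u2 : ∀ m c, c ≤ n → Q m c → c ≤ hi m) (u3 : ∀ m, hi m = m + 1 ∨ hi m ≤ n ∧ Q m (hi m))
    (m : ℕ) (h1 : 1 ≤ m) : lo (hi m) = lo m ∨ 1 ≤ lo m ∧ hi (lo m) = hi m := by
  have a1 := l1 m
  have a2 := u1 m
  have k : lo (hi m) ≤ lo m := by
    rcases l3 (hi m) with e | ⟨c, c1, c2, c3⟩
    · omega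
    · rcases lt_trichotomy (lo (hi m)) m with g | g | g
      · exact l2 m _ c g (by omega) c2 c3
      · rw [g] at c3
        have := u2 m c c2 c3
        omega
      · have := l1 (hi m)
        rcases u3 m with e | e
        · omega
        · exact (hR m _ _ c h1 g (by omega) c1 e.2 c3).elim
  by_cases e : lo (hi m) = lo m
  · exact .inl e
  refine .inr ⟨by omega, ?_⟩
  rcases l3 m with e0 | ⟨c, c1, c2, c3⟩
  · omega
  have b1 : hi m ≤ c := by
    by_contra g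
    rcases u3 m with e1 | e1
    · omega
    · exact hR _ m c _ (by omega) (by omega) c1 (by omega) c3 e1.2
  have b2 := u2 _ c c2 c3
  by_contra g
  rcases u3 (lo m) with e1 | e1
  · omega
  · have := l2 (hi m) (lo m) _ (by omega) (by omega) e1.1 e1.2
    omega

theorem tw_vortex {V : Type} (H : SimpleGraph V) (n k : ℕ) (X : ℕ → Finset V)
    (R : ℕ → ℕ → Prop) (hc : ∀ i, (X i).card ≤ k + 1) (hv : ∀ v, ∃ i < n, v ∈ X i)
    (hi' : ∀ v i j l, i ≤ j → j ≤ l → l < n → v ∈ X i → v ∈ X l → v ∈ X j)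
    (hR : ∀ a b c e, a < b → b < c → c < e → R a c → R b e → False)
    (hE : ∀ x y, H.Adj x y → (∃ i < n, x ∈ X i ∧ y ∈ X i) ∨
      ∃ a c, a < c ∧ c < n ∧ R a c ∧ (x ∈ X a ∧ y ∈ X c ∨ y ∈ X a ∧ x ∈ X c)) :
    TreewidthLE H (3 * k + 2) := by
  classical
  rcases Nat.eq_zero_or_pos n with rfl | hn
  · refine ⟨Unit, inferInstance, ⊥, fun _ => ∅, ⟨⟨fun _ _ => .refl _⟩, isAcyclic_bot⟩,
      fun x _ _ => ?_, fun x => ?_, fun _ => by simp⟩ <;>
    · obtain ⟨i, h, -⟩ := hv x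
      omega
  obtain ⟨Q, hQ⟩ : ∃ Q : ℕ → ℕ → Prop, ∀ a c, Q a c ↔ R (a - 1) (c - 1) := ⟨_, fun _ _ => Iff.rfl⟩
  have hQR : ∀ a b c e, 1 ≤ a → a < b → b < c → c < e → Q a c → Q b e → False :=
    fun a b c e _ _ _ _ h1 h2 => hR _ _ _ _ (by omega) (by omega) (by omega) ((hQ _ _).1 h1)
      ((hQ _ _).1 h2)
  choose lo l1 l2 l3 using vtw_lo n Q
  choose hi u1 u2 u3 using vtw_hi n Q
  have hp := vtw_par hQR l1 l2 l3 u1 u2 u3
  obtain ⟨Y, hY, hYc⟩ : ∃ Y : ℕ → Finset V, (∀ v i, v ∈ Y i ↔ 1 ≤ i ∧ i ≤ n ∧ v ∈ X (i - 1)) ∧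
      ∀ i, (Y i).card ≤ k + 1 := by
    refine ⟨fun i => if 1 ≤ i ∧ i ≤ n then X (i - 1) else ∅, fun v i => ?_, fun i => ?_⟩
    · by_cases h : 1 ≤ i ∧ i ≤ n
      · simp [h]
      · simp only [if_neg h, Finset.notMem_empty, false_iff]
        exact fun g => h ⟨g.1, g.2.1⟩
    · by_cases h : 1 ≤ i ∧ i ≤ n
      · simpa only [if_pos h] using hc _
      · simp [h]
  have hI : ∀ v i j l, i ≤ j → j ≤ l → v ∈ Y i → v ∈ Y l → v ∈ Y j := fun v i j l h1 h2 h3 h4 => by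
    obtain ⟨a1, a2, a3⟩ := (hY _ _).1 h3
    obtain ⟨b1, b2, b3⟩ := (hY _ _).1 h4
    exact (hY _ _).2 ⟨by omega, by omega, hi' v _ _ _ (by omega) (by omega) (by omega) a3 b3⟩
  have hP : ∀ m : {m // 1 ≤ m ∧ m ≤ n}, ∃ p : {m // 1 ≤ m ∧ m ≤ n}, m.1 ≠ n →
      (p.1 = hi m ∧ lo p = lo m ∨ p.1 = lo m ∧ hi p = hi m) := by
    rintro ⟨m, h1, h2⟩
    by_cases e : m = n
    · exact ⟨⟨m, h1, h2⟩, fun g => absurd e g⟩
    have := u1 m
    have := l1 m
    rcases hp m h1 with g | g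
    · exact ⟨⟨hi m, by omega, by rcases u3 m with k | k <;> omega⟩, fun _ => .inl ⟨rfl, g⟩⟩
    · exact ⟨⟨lo m, g.1, by omega⟩, fun _ => .inr ⟨rfl, g.2⟩⟩
  choose par hpar using hP
  have hn' : ∀ m, m ≤ n → hi m ≤ n + 1 := fun m h => by rcases u3 m with k | k <;> omega
  have hrk : ∀ a : {m // 1 ≤ m ∧ m ≤ n}, a ≠ ⟨n, hn, le_rfl⟩ →
      n + 1 + lo (par a) - hi (par a) < n + 1 + lo a - hi a := fun a ha => by
    have a1 := hn' _ a.2.2
    have a2 := hn' _ (par a).2.2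
    have a3 := u1 (par a)
    have a4 := l1 (par a)
    have a5 := (par a).2.1
    rcases hpar a fun e => ha (Subtype.ext e) with g | g <;> omega
  refine ⟨{m // 1 ≤ m ∧ m ≤ n}, (Set.finite_Icc 1 n).to_subtype, vtwT ⟨n, hn, le_rfl⟩ par,
    fun m => Y (lo m) ∪ Y m ∪ Y (hi m), ?_, fun x y h => ?_, fun v => ?_, fun m => ?_⟩
  · have : Finite {m // 1 ≤ m ∧ m ≤ n} := (Set.finite_Icc 1 n).to_subtype
    exact vtw_tree (rk := fun a => n + 1 + lo a - hi a) hrk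
  · have key : ∀ x y a c, a < c → c < n → R a c → x ∈ X a → y ∈ X c →
        ∃ m : {m // 1 ≤ m ∧ m ≤ n}, x ∈ Y (lo m) ∪ Y m ∪ Y (hi m) ∧
          y ∈ Y (lo m) ∪ Y m ∪ Y (hi m) := fun x y a c h1 h2 h3 h4 h5 => by
      have q : Q (a + 1) (c + 1) := (hQ _ _).2 h3
      have hx : x ∈ Y (a + 1) := (hY _ _).2 ⟨by omega, by omega, h4⟩
      have hy : y ∈ Y (c + 1) := (hY _ _).2 ⟨by omega, by omega, h5⟩
      have b := u2 _ _ h2 q
      rcases b.eq_or_lt with e | e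
      · exact ⟨⟨a + 1, by omega, by omega⟩, by simp [hx], by simp [← e, hy]⟩
      · rcases u3 (a + 1) with g | g
        · omega
        have b1 := l2 (c + 1) (a + 1) _ (by omega) e g.1 g.2
        have b2 : lo (c + 1) = a + 1 := by
          by_contra b3
          have := l1 (c + 1)
          rcases l3 (c + 1) with k | ⟨c', k1, k2, k3⟩
          · omega
          · exact hQR _ _ _ c' (by omega) (by omega) (by omega) k1 q k3
        exact ⟨⟨c + 1, by omega, by omega⟩, by simp [b2, hx], by simp [hy]⟩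
    rcases hE x y h with ⟨i, h1, h2, h3⟩ | ⟨a, c, h1, h2, h3, ⟨h4, h5⟩ | ⟨h4, h5⟩⟩
    · have hx : x ∈ Y (i + 1) := (hY _ _).2 ⟨by omega, by omega, h2⟩
      have hy : y ∈ Y (i + 1) := (hY _ _).2 ⟨by omega, by omega, h3⟩
      exact ⟨⟨i + 1, by omega, by omega⟩, by simp [hx], by simp [hy]⟩
    · exact key x y a c h1 h2 h3 h4 h5
    · exact (key y x a c h1 h2 h3 h4 h5).imp fun _ => And.symm
  · obtain ⟨i, h1, h2⟩ := hv v
    have hx : v ∈ Y (i + 1) := (hY _ _).2 ⟨by omega, by omega, h2⟩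
    obtain ⟨t, ht, hm⟩ := exists_minimalFor_of_wellFoundedLT
      (fun m : {m // 1 ≤ m ∧ m ≤ n} => v ∈ Y (lo m) ∪ Y m ∪ Y (hi m))
      (fun a => n + 1 + lo a - hi a) ⟨⟨i + 1, by omega, by omega⟩, by simp [hx]⟩
    have up : ∀ a : {m // 1 ≤ m ∧ m ≤ n}, v ∈ Y (lo a) ∨ v ∈ Y (hi a) →
        a ≠ ⟨n, hn, le_rfl⟩ ∧ v ∈ Y (lo (par a)) ∪ Y (par a) ∪ Y (hi (par a)) := fun a h => by
      have e : a.1 ≠ n := fun e => by
        have := u1 a
        rcases h with h | h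
        · have := ((hY _ _).1 h).1
          rcases l3 a with k | ⟨c, k1, k2, -⟩ <;> omega
        · have := ((hY _ _).1 h).2.1
          omega
      refine ⟨fun g => e (congrArg Subtype.val g), ?_⟩
      simp only [Finset.mem_union]
      rcases hpar a e with ⟨g1, g2⟩ | ⟨g1, g2⟩
      · rw [g2, g1]; tauto
      · rw [g2, g1]; tauto
    have uniq : ∀ a b : {m // 1 ≤ m ∧ m ≤ n}, v ∈ Y a → v ∈ Y b → a.1 < b.1 →
        v ∈ Y (hi a) ∨ v ∈ Y (lo b) := fun a b h1 h2 h3 => by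
      rcases le_or_gt (hi a) b with g | g
      · exact .inl (hI v a _ b (u1 a).le g h1 h2)
      · rcases u3 a with k | k
        · omega
        · have := l1 b
          exact .inr (hI v a _ b (l2 b a _ h3 g k.1 k.2) (by omega) h1 h2)
    have t1 : ¬ (v ∈ Y (lo t) ∨ v ∈ Y (hi t)) := fun h => by
      have a1 := hrk t (up t h).1
      exact absurd (hm (up t h).2 a1.le) a1.not_ge
    have t2 : v ∈ Y t := by
      simp only [Finset.mem_union] at ht
      tauto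
    refine vtw_conn (rk := fun a : {m // 1 ≤ m ∧ m ≤ n} => n + 1 + lo a - hi a) hrk _ ht fun a ha hat => up a ?_
    by_contra g
    have a2 : v ∈ Y a := by
      simp only [Set.mem_setOf_eq, Finset.mem_union] at ha
      tauto
    rcases lt_trichotomy a.1 t.1 with k | k | k
    · have := uniq a t a2 t2 k
      tauto
    · exact hat (Subtype.ext k)
    · have := uniq t a t2 a2 k
      tauto
  · have := Finset.card_union_le (Y (lo m) ∪ Y m) (Y (hi m))
    have := Finset.card_union_le (Y (lo m)) (Y m)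
    have := hYc (lo m)
    have := hYc m
    have := hYc (hi m)
    beta_reduce
    omega

end Vale.Agent.P235
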