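import Vale.Agent.P235G.NDefs

/-! Graphs that are embedded in a surface up to vortices. -/

namespace Vale.Agent.P235

/-- `G` consists of a part on the vertex set `S`, embedded in a surface of Euler genus at most `g`,
and of `m + 1 ≤ k` disjoint vortices of width at most `k`. The disc of the vortex `i` is modelled by
a hub joined to the society `u i 0, …, u i (n i)` in this cyclic order; `X i` is the path
decomposition of the vortex. -/
def NearEmb {V : Type} (G : SimpleGraph V) (g k : ℕ) : Prop :=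
  ∃ (S : Set V) (m : ℕ) (n : Fin (m + 1) → ℕ) (u : ∀ i, Fin (n i + 1) → S)
    (X : ∀ i, Fin (n i + 1) → Finset V) (H : SimpleGraph (S ⊕ Fin (m + 1)))
    (σ : Equiv.Perm H.Dart) (tw : Sym2 (S ⊕ Fin (m + 1)) → Bool),
    m + 1 ≤ k ∧ H.Connected ∧ IsRotationSystem H σ ∧
    2 * (Nat.card H.edgeSet + 2) ≤
      2 * Nat.card (S ⊕ Fin (m + 1)) + flagOrbits H σ tw + 2 * g ∧
    (∀ i, Function.Injective (u i)) ∧
    (∀ i z, H.Adj (.inr i) z ↔ ∃ j, z = .inl (u i j)) ∧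
    (∀ i j (e : H.Dart), e.fst = .inr i → e.snd = .inl (u i j) → (σ e).snd = .inl (u i (j + 1))) ∧
    (∀ x y : S, H.Adj (.inl x) (.inl y) → G.Adj x y) ∧
    (∀ x y, G.Adj x y → (∃ hx hy, H.Adj (.inl ⟨x, hx⟩) (.inl ⟨y, hy⟩)) ∨
      ∃ i j, x ∈ X i j ∧ y ∈ X i j) ∧
    (∀ x, x ∈ S ∨ ∃ i j, x ∈ X i j) ∧
    (∀ i j, (X i j).card ≤ k + 1) ∧ (∀ i j, (u i j : V) ∈ X i j) ∧
    (∀ i j (x : S), (x : V) ∈ X i j → ∃ j', x = u i j') ∧
    (∀ i a b c x, a ≤ b → b ≤ c → x ∈ X i a → x ∈ X i c → x ∈ X i b) ∧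
    ∀ i i' j j' x, x ∈ X i j → x ∈ X i' j' → i = i'

end Vale.Agent.P235
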