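import Vale.Agent.P235G.GMet

/-! Vortices: lengths on the hub graph, geodesics, lifting of walks. -/

open Set

noncomputable section

namespace Vale.Agent.P235.Vx

open Pl

variable {V I : Type} {S : Set V} {H : SimpleGraph (S ⊕ I)}

/-- Lengths `w` between vertices of `S`, and `c` at the hubs. -/
def vtop_len (w : V → V → ℝ) (hw : ∀ x y, w x y = w y x) (c : ℝ) : Sym2 (S ⊕ I) → ℝ :=
  Sym2.lift ⟨fun a b => Sum.elim (fun x : S => Sum.elim (fun y : S => w x y) (fun _ => c) b)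
    (fun _ => c) a, by rintro (a | a) (b | b) <;> simp [hw]⟩

theorem vtop_ll (w : V → V → ℝ) (hw : ∀ x y, w x y = w y x) (c : ℝ) (x y : S) :
    vtop_len (I := I) w hw c s(.inl x, .inl y) = w x y := rfl

theorem vtop_lr (w : V → V → ℝ) (hw : ∀ x y, w x y = w y x) (c : ℝ) (x : S) (i : I) :
    vtop_len w hw c s(.inl x, .inr i) = c := rfl

theorem vtop_r (w : V → V → ℝ) (hw : ∀ x y, w x y = w y x) (c : ℝ) (i : I) (z : S ⊕ I) :
    vtop_len w hw c s(.inr i, z) = c := rfl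

theorem vtop_pos {w : V → V → ℝ} (hw : ∀ x y, w x y = w y x) {c : ℝ} (hc : 0 < c)
    (h : ∀ x y : S, H.Adj (.inl x) (.inl y) → 0 < w x y) :
    ∀ e ∈ H.edgeSet, 0 < vtop_len w hw c e := by
  intro e he
  induction e using Sym2.ind with
  | _ a b =>
    rcases a with a | a
    · rcases b with b | b
      · exact h a b he
      · exact hc
    · exact hc

theorem vtop_emb [Finite V] [Finite I] (hH : H.Connected) (i₀ : I) {C : ℝ}
    (hC : ∀ ℓ : Sym2 (S ⊕ I) → ℝ, (∀ e ∈ H.edgeSet, 0 < ℓ e) → EmbedsL1 (spDist H ℓ) C)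
    {Γ : SimpleGraph V} {ℓ : Sym2 V → ℝ} (hl : ∀ x y, Γ.Adj x y → 0 < ℓ s(x, y))
    (hΓ : ∀ x y, Γ.Adj x y → ∃ hx hy, H.Adj (.inl ⟨x, hx⟩) (.inl ⟨y, hy⟩)) (M : ℝ) (hM : 0 < M) :
    ∃ d₀ : V → V → ℝ, EmbedsL1 d₀ C ∧ (∀ x y, Γ.Adj x y → d₀ x y ≤ ℓ s(x, y)) ∧
    ∀ f : V → ℝ, (∀ x, 0 ≤ f x ∧ f x ≤ M) → (∀ x, x ∉ S → f x = 0) →
      (∀ x y, Γ.Adj x y → f x ≤ f y + ℓ s(x, y)) → ∀ x y, f x ≤ f y + d₀ x y := by
  classical
  let w : V → V → ℝ := fun x y => if Γ.Adj x y then ℓ s(x, y) else M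
  have hw : ∀ x y, w x y = w y x := fun x y => by simp only [w, Γ.adj_comm x y, Sym2.eq_swap]
  have hp : ∀ e ∈ H.edgeSet, 0 < vtop_len w hw M e := vtop_pos hw hM fun x y _ => by
    simp only [w]
    split_ifs with h
    · exact hl _ _ h
    · exact hM
  have m := met hH hp
  let φ : V → S ⊕ I := fun x => if hx : x ∈ S then .inl ⟨x, hx⟩ else .inr i₀
  obtain ⟨Ω, m', μ, F, hF⟩ := hC _ hp
  refine ⟨fun x y => spDist H (vtop_len w hw M) (φ x) (φ y),
    ⟨Ω, m', μ, fun x => F (φ x), fun _ _ => hF _ _⟩, fun x y h => ?_, fun f h0 h1 h2 x y => ?_⟩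
  · obtain ⟨hx, hy, k⟩ := hΓ x y h
    have := m.edge _ _ k
    rw [vtop_ll] at this
    simpa only [φ, dif_pos hx, dif_pos hy, w, if_pos h] using this
  · let f' : S ⊕ I → ℝ := Sum.elim (fun x => f x) fun _ => 0
    have e : ∀ x, f' (φ x) = f x := fun x => by
      by_cases hx : x ∈ S
      · simp only [φ, dif_pos hx, f', Sum.elim_inl]
      · simp only [φ, dif_neg hx, f', Sum.elim_inr, h1 x hx]
    have k : ∀ a b, f' a ≤ f' b + vtop_len w hw M s(a, b) := by
      rintro (a | a) (b | b)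
      · rw [vtop_ll]
        simp only [f', Sum.elim_inl, w]
        split_ifs with h
        · exact h2 _ _ h
        · linarith [(h0 a).2, (h0 b).1]
      · rw [vtop_lr]
        simp only [f', Sum.elim_inl, Sum.elim_inr]
        linarith [(h0 a).2]
      · rw [vtop_r]
        simp only [f', Sum.elim_inl, Sum.elim_inr]
        linarith [(h0 b).1]
      · rw [vtop_r]
        simp only [f', Sum.elim_inr]
        linarith
    rw [← e x, ← e y]
    refine m.ind (φ y) (p := fun a => f' a ≤ f' (φ y) + spDist H (vtop_len w hw M) a (φ y))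
      (by rw [m.self, add_zero]) (fun a z _ h3 h4 => ?_) (φ x)
    linarith [k a z]

theorem vtop_ivt (f : ℕ → ℕ) {lo hi j : ℕ} (h : lo ≤ hi)
    (hf : ∀ c, lo ≤ c → c < hi → f (c + 1) = f c + 1 ∨ f c = f (c + 1) + 1)
    (hj : f lo ≤ j ∧ j ≤ f hi ∨ f hi ≤ j ∧ j ≤ f lo) : ∃ c, lo ≤ c ∧ c ≤ hi ∧ f c = j := by
  induction hi, h using Nat.le_induction with
  | base => exact ⟨lo, le_rfl, le_rfl, by omega⟩
  | succ hi h ih =>
    by_cases k : f (hi + 1) = j
    · exact ⟨hi + 1, by omega, le_rfl, k⟩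
    · have := hf hi h (by omega)
      obtain ⟨c, h1, h2, h3⟩ := ih (fun c h1 h2 => hf c h1 (by omega)) (by omega)
      exact ⟨c, h1, by omega, h3⟩

theorem vtop_lift {Γ : SimpleGraph V} {A : Set (S ⊕ I)}
    (hΓ : ∀ x y, Γ.Adj x y → ∃ hx hy, H.Adj (.inl ⟨x, hx⟩) (.inl ⟨y, hy⟩) ∧
      Sum.inl ⟨x, hx⟩ ∉ A ∧ Sum.inl ⟨y, hy⟩ ∉ A) {x y : V} (p : Γ.Walk x y) (hx : x ∈ S)
    (hy : y ∈ S) (hA : Sum.inl ⟨x, hx⟩ ∉ A) :
    ∃ q : H.Walk (.inl ⟨x, hx⟩) (.inl ⟨y, hy⟩), ∀ z ∈ q.support,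
      z ∉ A ∧ ∃ s : S, z = .inl s ∧ (s : V) ∈ p.support := by
  induction p with
  | nil => exact ⟨.nil, fun z hz => by
      rw [SimpleGraph.Walk.support_nil, List.mem_singleton] at hz
      exact ⟨hz ▸ hA, _, hz, by simp⟩⟩
  | cons h p ih =>
    obtain ⟨_, hz, k, -, k'⟩ := hΓ _ _ h
    obtain ⟨q, hq⟩ := ih hz hy k'
    refine ⟨.cons k q, fun z hz => ?_⟩
    rw [SimpleGraph.Walk.support_cons, List.mem_cons] at hz
    rcases hz with hz | hz
    · exact ⟨hz ▸ hA, _, hz, by simp⟩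
    · obtain ⟨b1, s, b2, b3⟩ := hq z hz
      exact ⟨b1, s, b2, by simp [b3]⟩

/-- Parent chains inside `S`. -/
def vtop_ch (T : Tr H) : S → S → Prop :=
  Relation.ReflTransGen fun x y => Sum.inl y ≠ T.r ∧ T.par (.inl y) = .inl x

/-- Starting points of the chains. -/
def vtop_st (T : Tr H) (o : Option I) (s : S) : Prop :=
  o.elim (Sum.inl s = T.r) fun i => Sum.inl s ≠ T.r ∧ T.par (.inl s) = .inr i

theorem vtop_anc {U : Type} {H : SimpleGraph U} {T : Tr H} {a b : U} (h : T.Anc a b) :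
    a = b ∨ b ≠ T.r ∧ T.Anc a (T.par b) := by
  cases h with
  | refl => exact .inl rfl
  | step h1 h2 => exact .inr ⟨h1, h2⟩

theorem vtop_geo [Finite V] [Fintype I] {T : Tr H} {ℓ : Sym2 (S ⊕ I) → ℝ}
    {D : S ⊕ I → S ⊕ I → ℝ} (m : Met H ℓ D) (g : T.Geo ℓ D) {d : V → V → ℝ}
    (d0 : ∀ x, d x x = 0) (ds : ∀ x y, d x y = d y x) (dt : ∀ x y z, d x z ≤ d x y + d y z)
    (h1 : ∀ a b : S, D (.inl a) (.inl b) ≤ d a b)
    (h2 : ∀ a b : S, H.Adj (.inl a) (.inl b) → d a b ≤ ℓ s(.inl a, .inl b))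
    (W : Finset (S ⊕ I)) : ∃ P : Finset (Set V × V), P.card ≤ W.card * (Fintype.card I + 1) ∧
      (∀ a : S, (∃ w ∈ W, T.Anc (.inl a) w) → ∃ p ∈ P, (a : V) ∈ p.1) ∧
      ∀ p ∈ P, ∀ a ∈ p.1, ∀ b ∈ p.1, d a b ≤ |d a p.2 - d b p.2| := by
  classical
  have L : ∀ s b : S, vtop_ch T s b → ∀ a : S, T.Anc (.inl a) (.inl b) →
      T.h (.inl s) ≤ T.h (.inl a) → d b a ≤ T.h (.inl b) - T.h (.inl a) := fun s b h => by
    induction h with
    | refl =>
      intro a ha hs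
      rcases vtop_anc ha with e | ⟨k, e⟩
      · rw [Sum.inl_injective e, d0, sub_self]
      · linarith [(m.anc g T.r e).1, T.lt _ k]
    | @tail b b' _ hb ih =>
      intro a ha hs
      rcases vtop_anc ha with e | ⟨k, e⟩
      · rw [Sum.inl_injective e, d0, sub_self]
      · have k1 := T.adj _ k
        have k2 := g.par _ k
        rw [hb.2] at e k1 k2
        linarith [ih a e hs, h2 _ _ k1, dt b' b a]
  have hanc : ∀ s b : S, vtop_ch T s b → T.Anc (.inl s) (.inl b) := fun s b h => by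
    induction h with
    | refl => exact .refl
    | tail _ hb ih => exact .step hb.1 (hb.2 ▸ ih)
  have hd : ∀ s b : S, vtop_ch T s b → d b s = T.h (.inl b) - T.h (.inl s) := fun s b h => by
    refine le_antisymm (L s b h s (hanc s b h) le_rfl) ?_
    rw [g.h, g.h]
    linarith [h1 b s, m.tri (.inl b) (.inl s) T.r]
  have cov : ∀ (z : S ⊕ I) (a : S), z = .inl a → ∃ s o, vtop_ch T s a ∧ vtop_st T o s := by
    intro z
    refine T.ind_up (p := fun z => ∀ a : S, z = .inl a → ∃ s o, vtop_ch T s a ∧ vtop_st T o s)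
      (fun a ha => ⟨a, none, .refl, ha.symm⟩) (fun v hv ih a ha => ?_) z
    subst ha
    rcases e : T.par (.inl a) with b | i
    · obtain ⟨s, o, k1, k2⟩ := ih b e
      exact ⟨s, o, .tail k1 ⟨hv, e⟩, k2⟩
    · exact ⟨a, some i, .refl, hv, e⟩
  have uq0 : ∀ (o : Option I) (s s' : S), vtop_st T o s → vtop_st T o s' →
      T.Anc (.inl s) (.inl s') → s = s' := fun o s s' k k' h => by
    rcases vtop_anc h with e | ⟨k1, e⟩
    · exact Sum.inl_injective e
    · cases o with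
      | none => exact absurd k' k1
      | some i =>
        have b1 := (m.anc g T.r e).1
        have b2 := T.lt _ k.1
        rw [k'.2] at b1
        rw [k.2] at b2
        linarith
  have uq : ∀ (w : S ⊕ I) (o : Option I) (s s' : S), vtop_st T o s ∧ T.Anc (.inl s) w →
      vtop_st T o s' ∧ T.Anc (.inl s') w → s = s' := fun w o s s' k k' =>
    (gmet_total k.2 k'.2).elim (uq0 o s s' k.1 k'.1) fun h => (uq0 o s' s k'.1 k.1 h).symm
  let Q : Finset (((S ⊕ I) × Option I)) := (W ×ˢ Finset.univ).filter fun x =>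
    ∃ s : S, vtop_st T x.2 s ∧ T.Anc (.inl s) x.1
  have hQ : ∀ x : Q, ∃ s : S, vtop_st T x.1.2 s ∧ T.Anc (.inl s) x.1.1 := fun x =>
    (Finset.mem_filter.1 x.2).2
  choose st hst using hQ
  refine ⟨Finset.univ.image fun x : Q =>
    ({a | ∃ ha, vtop_ch T (st x) ⟨a, ha⟩ ∧ T.Anc (.inl ⟨a, ha⟩) x.1.1}, (st x : V)),
    Finset.card_image_le.trans ?_, fun a ⟨w, hw, ha⟩ => ?_, fun p hp => ?_⟩
  · rw [Finset.card_univ, Fintype.card_coe]
    refine (Finset.card_filter_le _ _).trans ?_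
    rw [Finset.card_product, Finset.card_univ, Fintype.card_option]
  · obtain ⟨s, o, k1, k2⟩ := cov _ a rfl
    have k3 : T.Anc (.inl s) w := by
      have := hanc s a k1
      clear hw
      induction ha with
      | refl => exact this
      | step hv _ ih => exact .step hv ih
    let x : Q := ⟨(w, o), Finset.mem_filter.2
      ⟨Finset.mem_product.2 ⟨hw, Finset.mem_univ _⟩, s, k2, k3⟩⟩
    refine ⟨_, Finset.mem_image_of_mem _ (Finset.mem_univ x), a.2, ?_, ha⟩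
    rw [uq w o (st x) s (hst x) ⟨k2, k3⟩]
    exact k1
  · obtain ⟨x, -, rfl⟩ := Finset.mem_image.1 hp
    rintro a ⟨ha, a1, a2⟩ b ⟨hb, b1, b2⟩
    have e1 := hd _ _ a1
    have e2 := hd _ _ b1
    have e3 := (m.anc g T.r (hanc _ _ a1)).1
    have e4 := (m.anc g T.r (hanc _ _ b1)).1
    change d a b ≤ |d a (st x) - d b (st x)|
    simp only at e1 e2
    rw [e1, e2]
    rcases gmet_total a2 b2 with h | h
    · have := L _ _ b1 _ h e3
      simp only at this
      rw [ds] at this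
      exact this.trans ((le_of_eq (by ring)).trans (neg_le_abs _))
    · have := L _ _ a1 _ h e4
      simp only at this
      exact this.trans ((le_of_eq (by ring)).trans (le_abs_self _))

end Vale.Agent.P235.Vx
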