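import Vale.Agent.P235V.VCut
import Vale.Agent.P235V.VTop0

/-! From the embedding to the data. `ε > 0` with `2 ε <` all edge lengths of `G`; lengths on `H`: `ℓ` between vertices of `S`, `ε` at hubs; `dH = spDist H`; `cut_order` with
`W₀` = all hubs. `B = {x | ∃ hx, inl ⟨x, hx⟩ ∈ A}`, `Γ.Adj x y := ∃ hx hy, H.Adj (inl x) (inl y) ∧ inl x ∉ A ∧ inl y ∉ A`, `Ω = {u i j | inl (u i j) ∉ A}`, `t (u i j) = tm (dart inr i → inl (u i j))`,
`Feet = X 0 0 ∪ ⋃ {X i j | inl (u i j) ∈ A ∨ dart = e₁}`, `Y τ = Feet ∪ ⋃ {X i j | u i j ∈ Ω, t = τ}` (at most one such), `v₀ = u 0 0`.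
`int`: if `v ∉ Feet` all indices of `v` lie in one vortex and `t` moves by `± 1` along them (discrete intermediate value).
(1) `dH (φ x) (φ y) ≤ d x y + [x ∉ S] ε + [y ∉ S] ε`-type bound, `φ x = inl x` or the hub; so `dH (inl a) (inl b) ≤ d a b` (potential along `Met.ind`). (2) distinct vertices of `S` are `2 ε` apart in `dH`,
two vertices of one society at most `2 ε`, ancestors `a` of `b` have `h b - h a = dH a b` (`Met.anc`), so at most two vertices of a society are ancestors of one `w`.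
(3) `geo`: for `w ∈ W` and `s ∈ S` with `inl s` the root or a child of a hub and an ancestor of `w`, the set of `a` with `inl a` an ancestor of `w` whose parent chain reaches `inl s` inside `S`;
there `d a s = h a - h s` and `d a b ≤ |h a - h b|`. `emb`: `Gn.euler_embed g` for `H` with lengths `ℓ` on `Γ`-edges and `M` elsewhere, `Ap.EmbedsL1.comap φ`. -/

namespace Vale.Agent.P235.Vx

theorem near_data (g k : ℕ) : ∃ (q K : ℕ) (C₀ : ℝ), ∀ (V : Type) [Fintype V] (G : SimpleGraph V),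
    G.Connected → NearEmb G g k → ∀ ℓ : Sym2 V → ℝ, (∀ e ∈ G.edgeSet, 0 < ℓ e) →
    ∃ Γ B Ω S N Y t v₀, VD G ℓ (spDist G ℓ) q K C₀ Γ B Ω S N Y t v₀ := by
  classical
  obtain ⟨C₀, hC₀⟩ := Gn.euler_embed g
  refine ⟨(2 * g + 1 + k) * (k + 1), (3 + (2 * g + 1 + k) * k * 2) * (k + 1), C₀,
    fun V _ G hG hn ℓ hl => ?_⟩
  obtain ⟨S, m, n, u, X, H, σ, tw, hm, hH, hσ, hE, hu, hhub, hrot, hsub, hedge, hcov, hcard, hmem,
    hsoc, hint, hdis⟩ := hn
  have M := Pl.met hG hl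
  obtain ⟨ε, hε, hεl⟩ : ∃ ε : ℝ, 0 < ε ∧ ∀ x y, G.Adj x y → 2 * ε < ℓ s(x, y) := by
    have := hG.nonempty
    obtain ⟨p, hp⟩ := Finite.exists_min fun p : V × V => if G.Adj p.1 p.2 then ℓ s(p.1, p.2) else 1
    have h0 : 0 < if G.Adj p.1 p.2 then ℓ s(p.1, p.2) else 1 := by
      split_ifs with h
      · exact M.pos _ _ h
      · exact one_pos
    refine ⟨_ / 3, div_pos h0 three_pos, fun x y h => ?_⟩
    have := hp (x, y)
    simp only [if_pos h] at this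
    linarith
  have hw : ∀ x y : V, ℓ s(x, y) = ℓ s(y, x) := fun x y => by rw [Sym2.eq_swap]
  have m' := Pl.met hH (vtop_pos hw hε fun x y h => M.pos _ _ (hsub x y h))
  set L : Sym2 (S ⊕ Fin (m + 1)) → ℝ := vtop_len (fun x y => ℓ s(x, y)) hw ε with hL
  set D := spDist H L with hD
  have hadj : ∀ i j, H.Adj (.inr i) (.inl (u i j)) := fun i j => (hhub i _).2 ⟨j, rfl⟩
  have hDu : ∀ i j, D (.inr i) (.inl (u i j)) ≤ ε := fun i j => m'.edge _ _ (hadj i j)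
  have hd : ∀ v, ∃ e : H.Dart, e.fst = v := fun v => by
    obtain ⟨w, hw⟩ : ∃ w, v ≠ w := by
      rcases v with v | v
      · exact ⟨.inr 0, Sum.inl_ne_inr⟩
      · exact ⟨.inl (u 0 0), Sum.inr_ne_inl⟩
    obtain ⟨z, hz, -⟩ := m'.bell v w hw
    exact ⟨⟨(v, z), hz⟩, rfl⟩
  have := hH.nonempty
  obtain ⟨T, W, A, tm, N, e₁, geo, hW₀, hW, hA, tN, tinj, tstep, tnc⟩ :=
    cut_order m' hd hσ tw hE (Finset.univ.image Sum.inr)
  have hWc : W.card ≤ 2 * g + 1 + k := by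
    have h1 : (Finset.univ.image (Sum.inr : Fin (m + 1) → S ⊕ Fin (m + 1))).card ≤ m + 1 :=
      Finset.card_image_le.trans (by simp)
    omega
  have hubA : ∀ i, Sum.inr i ∈ A := fun i =>
    (hA _).2 ⟨_, hW₀ (Finset.mem_image_of_mem _ (Finset.mem_univ i)), .refl⟩
  -- comparison of the distances
  have hD1 : ∀ a b : S, D (.inl a) (.inl b) ≤ spDist G ℓ a b := by
    have hφ : ∀ x : V, ∃ z : S ⊕ Fin (m + 1), (∀ hx : x ∈ S, z = .inl ⟨x, hx⟩) ∧
        ∀ i j, x ∈ X i j → D (.inr i) z ≤ ε := fun x => by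
      by_cases hx : x ∈ S
      · refine ⟨.inl ⟨x, hx⟩, fun _ => rfl, fun i j h => ?_⟩
        obtain ⟨j', e⟩ := hsoc i j ⟨x, hx⟩ h
        rw [e]
        exact hDu i j'
      · obtain ⟨i, j, h⟩ := (hcov x).resolve_left hx
        refine ⟨.inr i, fun h => absurd h hx, fun i' j' h' => ?_⟩
        rw [hdis i i' j j' x h h', m'.self]
        exact hε.le
    choose φ h1 h2 using hφ
    intro a b
    rw [← h1 a a.2, ← h1 b b.2]
    refine M.ind (b : V) (p := fun x => D (φ x) (φ b) ≤ spDist G ℓ x b)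
      (by rw [m'.self, M.self]) (fun x z h e ih => ?_) a
    have k : D (φ x) (φ z) ≤ ℓ s(x, z) := by
      rcases hedge x z h with ⟨hx, hz, k⟩ | ⟨i, j, hx, hz⟩
      · rw [h1 x hx, h1 z hz]
        exact m'.edge _ _ k
      · linarith [h2 x i j hx, h2 z i j hz, m'.tri (φ x) (.inr i) (φ z), m'.symm (φ x) (.inr i),
          hεl x z h]
    linarith [m'.tri (φ x) (φ z) (φ b)]
  have hD2 : ∀ a b : S, a ≠ b → ε < D (.inl a) (.inl b) := fun a b hab => by
    obtain ⟨z, hz, e⟩ := m'.bell (.inl a) (.inl b) fun h => hab (Sum.inl_injective h)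
    rcases z with z | z
    · have k : L s(.inl a, .inl z) = ℓ s(a, z) := rfl
      linarith [hεl _ _ (hsub a z hz), m'.nonneg (.inl z) (.inl b)]
    · have k : L s(.inl a, .inr z) = ε := rfl
      linarith [m'.dist_pos (x := .inr z) (y := .inl b) Sum.inr_ne_inl]
  -- indices
  let J := Σ i, Fin (n i + 1)
  let U : J → S := fun p => u p.1 p.2
  let X' : J → Finset V := fun p => X p.1 p.2
  let dt : J → H.Dart := fun p => ⟨(.inr p.1, .inl (U p)), hadj p.1 p.2⟩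
  have Uinj : Function.Injective fun p => (U p : V) := by
    rintro ⟨i, j⟩ ⟨i', j'⟩ h
    have h' : (u i j : V) = u i' j' := h
    obtain rfl := hdis i i' j j' _ (hmem i j) (h' ▸ hmem i' j')
    rw [hu i (Subtype.ext h')]
  have dinj : Function.Injective dt := fun p p' h =>
    Uinj (congrArg Subtype.val (Sum.inl_injective (congrArg (fun e : H.Dart => e.snd) h)))
  let Ft : J → Prop := fun p => p = ⟨0, 0⟩ ∨ Sum.inl (U p) ∈ A ∨ dt p = e₁
  let Y : ℕ → Finset V := fun τ => (Finset.univ.filter fun p => Ft p ∨ tm (dt p) = τ).biUnion X'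
  have hY : ∀ v τ, v ∈ Y τ ↔ ∃ p, (Ft p ∨ tm (dt p) = τ) ∧ v ∈ X' p := fun v τ => by
    simp only [Y, Finset.mem_biUnion, Finset.mem_filter, Finset.mem_univ, true_and]
  let t : V → ℕ := Function.extend (fun p => (U p : V)) (fun p => tm (dt p)) 0
  have ht : ∀ p, t (U p) = tm (dt p) := fun p => Uinj.extend_apply _ _ p
  let Γ : SimpleGraph V :=
    { Adj := fun x y => ∃ hx hy, H.Adj (.inl ⟨x, hx⟩) (.inl ⟨y, hy⟩) ∧
        Sum.inl ⟨x, hx⟩ ∉ A ∧ Sum.inl ⟨y, hy⟩ ∉ A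
      symm := ⟨fun x y ⟨hx, hy, h1, h2, h3⟩ => ⟨hy, hx, h1.symm, h3, h2⟩⟩
      loopless := ⟨fun x ⟨_, _, h1, _⟩ => h1.ne rfl⟩ }
  have hle : Γ ≤ G := fun x y ⟨_, _, h1, _⟩ => hsub _ _ h1
  refine ⟨Γ, {x | ∃ hx, Sum.inl ⟨x, hx⟩ ∈ A}, {x | ∃ p, (U p : V) = x ∧ Sum.inl (U p) ∉ A}, S, N,
    Y, t, u 0 0, hle, fun x y h => ?_, (Nat.zero_le _).trans_lt (tN e₁), fun τ => ?_,
    fun v i j l hij hjl _ hi hl => ?_, fun τ => (hY _ _).2 ⟨⟨0, 0⟩, .inl (.inl rfl), hmem 0 0⟩,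
    fun x y τ h _ hx => ?_, ?_, ?_, ?_, ?_, fun x y ⟨hx, _⟩ => hx, fun x hx => ?_,
    vtop_emb hH 0 (hC₀ _ H hH (.inr ⟨σ, tw, hσ, hE⟩)) (fun x y h => M.pos _ _ (hle h))
      fun x y ⟨hx, hy, h, _⟩ => ⟨hx, hy, h⟩⟩
  · rcases hedge x y h with ⟨hx, hy, k⟩ | ⟨i, j, hx, hy⟩
    · by_cases k1 : Sum.inl ⟨x, hx⟩ ∈ A
      · exact .inl ⟨hx, k1⟩
      by_cases k2 : Sum.inl ⟨y, hy⟩ ∈ A
      · exact .inr (.inl ⟨hy, k2⟩)
      exact .inr (.inr (.inl ⟨hx, hy, k, k1, k2⟩))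
    · exact .inr (.inr (.inr ⟨_, tN (dt ⟨i, j⟩), (hY _ _).2 ⟨⟨i, j⟩, .inr rfl, hx⟩,
        (hY _ _).2 ⟨⟨i, j⟩, .inr rfl, hy⟩⟩))
  · let E : (S ⊕ Fin (m + 1)) × Fin (m + 1) → Finset J := fun x =>
      Finset.univ.filter fun p => p.1 = x.2 ∧ T.Anc (.inl (U p)) x.1
    have two : ∀ x, ∀ a ∈ E x, ∀ b ∈ E x, a ≠ b → ε < |T.h (.inl (U a)) - T.h (.inl (U b))| ∧
        |T.h (.inl (U a)) - T.h (.inl (U b))| ≤ 2 * ε := fun x a ha b hb hab => by
      obtain ⟨a1, a2⟩ := (Finset.mem_filter.1 ha).2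
      obtain ⟨b1, b2⟩ := (Finset.mem_filter.1 hb).2
      rw [geo.h, geo.h]
      refine ⟨(hD2 _ _ fun h => hab (Uinj (congrArg Subtype.val h))).trans_le
        (gmet_path m' geo a2 b2), (gmet_lip m' _ _ _).trans ?_⟩
      have k1 : D (.inr x.2) (.inl (U a)) ≤ ε := a1 ▸ hDu a.1 a.2
      have k2 : D (.inr x.2) (.inl (U b)) ≤ ε := b1 ▸ hDu b.1 b.2
      linarith [m'.tri (.inl (U a)) (.inr x.2) (.inl (U b)), m'.symm (.inl (U a)) (.inr x.2)]
    have c1 : ∀ x, (E x).card ≤ 2 := fun x => by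
      by_contra h
      obtain ⟨a, ha, b, hb, c, hc, ab, ac, bc⟩ := Finset.two_lt_card.1 (not_le.1 h)
      have k1 := two x a ha b hb ab
      have k2 := two x a ha c hc ac
      have k3 := two x b hb c hc bc
      simp only [lt_abs, abs_le] at k1 k2 k3
      obtain ⟨k1 | k1, k4, k5⟩ := k1 <;> obtain ⟨k2 | k2, k6, k7⟩ := k2 <;>
        obtain ⟨k3 | k3, k8, k9⟩ := k3 <;> linarith
    have c2 : ((W ×ˢ Finset.univ).biUnion E).card ≤ (2 * g + 1 + k) * k * 2 := by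
      refine (Finset.card_biUnion_le_card_mul _ _ 2 fun x _ => c1 x).trans ?_
      rw [Finset.card_product, Finset.card_univ, Fintype.card_fin]
      gcongr
    have c3 : (Finset.univ.filter fun p => dt p = e₁).card ≤ 1 :=
      Finset.card_le_one.2 fun a ha b hb =>
        dinj ((Finset.mem_filter.1 ha).2.trans (Finset.mem_filter.1 hb).2.symm)
    have c4 : (Finset.univ.filter fun p => Sum.inl (U p) ∉ A ∧ tm (dt p) = τ).card ≤ 1 :=
      Finset.card_le_one.2 fun a ha b hb => by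
        obtain ⟨a1, a2⟩ := (Finset.mem_filter.1 ha).2
        obtain ⟨b1, b2⟩ := (Finset.mem_filter.1 hb).2
        exact dinj (tinj _ _ (hubA _) a1 (hubA _) b1 (a2.trans b2.symm))
    have c5 : (Finset.univ.filter fun p => Ft p ∨ tm (dt p) = τ) ⊆
        insert ⟨0, 0⟩ (((W ×ˢ Finset.univ).biUnion E ∪ Finset.univ.filter fun p => dt p = e₁) ∪
          Finset.univ.filter fun p => Sum.inl (U p) ∉ A ∧ tm (dt p) = τ) := fun p hp => by
      by_cases k : Sum.inl (U p) ∈ A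
      · obtain ⟨w, hw, k⟩ := (hA _).1 k
        refine Finset.mem_insert_of_mem (Finset.mem_union_left _ (Finset.mem_union_left _ ?_))
        exact Finset.mem_biUnion.2 ⟨(w, p.1), Finset.mem_product.2 ⟨hw, Finset.mem_univ _⟩,
          Finset.mem_filter.2 ⟨Finset.mem_univ _, rfl, k⟩⟩
      · rcases (Finset.mem_filter.1 hp).2 with (h | h | h) | h
        · exact Finset.mem_insert.2 (.inl h)
        · exact absurd h k
        · exact Finset.mem_insert_of_mem (Finset.mem_union_left _ (Finset.mem_union_right _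
            (Finset.mem_filter.2 ⟨Finset.mem_univ _, h⟩)))
        · exact Finset.mem_insert_of_mem (Finset.mem_union_right _
            (Finset.mem_filter.2 ⟨Finset.mem_univ _, k, h⟩))
    have c6 := (Finset.card_le_card c5).trans ((Finset.card_insert_le _ _).trans
      (Nat.add_le_add_right ((Finset.card_union_le _ _).trans (Nat.add_le_add
        ((Finset.card_union_le _ _).trans (Nat.add_le_add c2 c3)) c4)) 1))
    refine (Finset.card_biUnion_le_card_mul _ _ (k + 1) fun p _ => hcard p.1 p.2).trans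
      (le_trans (Nat.mul_le_mul_right _ ?_) (Nat.le_succ _))
    omega
  · by_cases hF : ∃ p, Ft p ∧ v ∈ X' p
    · obtain ⟨p, h1, h2⟩ := hF
      exact (hY _ _).2 ⟨p, .inl h1, h2⟩
    have hF' : ∀ p, v ∈ X' p → ¬ Ft p := fun p h1 h2 => hF ⟨p, h2, h1⟩
    have key : ∀ (a : Fin (m + 1)) (b c : Fin (n a + 1)), b ≤ c → v ∈ X a b → v ∈ X a c →
        (tm (dt ⟨a, b⟩) ≤ j ∧ j ≤ tm (dt ⟨a, c⟩) ∨ tm (dt ⟨a, c⟩) ≤ j ∧ j ≤ tm (dt ⟨a, b⟩)) →
        v ∈ Y j := fun a b c hbc hb hc hj => by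
      have val : ∀ x, x ≤ c.1 → (Fin.ofNat (n a + 1) x).1 = x := fun x hx =>
        Nat.mod_eq_of_lt (hx.trans_lt c.2)
      have mem : ∀ x, b.1 ≤ x → x ≤ c.1 → v ∈ X' ⟨a, Fin.ofNat _ x⟩ := fun x h1 h2 =>
        hint a b _ c v (by rw [Fin.le_def, val x h2]; exact h1)
          (by rw [Fin.le_def, val x h2]; exact h2) hb hc
      obtain ⟨x, h1, h2, h3⟩ := vtop_ivt (fun x => tm (dt ⟨a, Fin.ofNat _ x⟩)) (j := j)
        (Fin.le_def.1 hbc) (fun x h1 h2 => by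
          have e : σ (dt ⟨a, Fin.ofNat _ x⟩) = dt ⟨a, Fin.ofNat _ (x + 1)⟩ := by
            refine SimpleGraph.Dart.ext _ _ (Prod.ext
              ((hσ (dt ⟨a, Fin.ofNat _ x⟩) _).1 ⟨1, by simp⟩).symm ?_)
            refine (hrot a _ _ rfl rfl).trans ?_
            change Sum.inl (u a _) = Sum.inl (u a _)
            congr 2
            refine Fin.ext ?_
            rw [Fin.val_add, val x h2.le, val _ h2, Fin.val_one', Nat.add_mod_mod]
            exact Nat.mod_eq_of_lt (lt_of_le_of_lt h2 c.2)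
          have f1 := hF' _ (mem x h1 h2.le)
          have f2 := hF' _ (mem (x + 1) (h1.trans (Nat.le_succ x)) h2)
          have := tstep (dt ⟨a, Fin.ofNat _ x⟩) (hubA _) (fun h => f1 (.inr (.inl h)))
            (e ▸ fun h => f2 (.inr (.inl h))) (fun h => f1 (.inr (.inr h)))
            (e ▸ fun h => f2 (.inr (.inr h))) (fun h => by
              have h3 := congrArg Fin.val (eq_of_heq (Sigma.mk.inj (dinj (e.symm.trans h))).2)
              rw [val x h2.le, val _ h2] at h3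
              omega)
          rwa [e] at this) (by simpa only [Fin.ofNat_val_eq_self] using hj)
      exact (hY _ _).2 ⟨_, .inr h3, mem x h1 h2⟩
    obtain ⟨⟨a, b⟩, h1, h2⟩ := (hY _ _).1 hi
    obtain ⟨⟨a', c⟩, h3, h4⟩ := (hY _ _).1 hl
    obtain rfl := hdis a a' b c v h2 h4
    have h5 := h1.resolve_left (hF' _ h2)
    have h6 := h3.resolve_left (hF' _ h4)
    rcases le_total b c with h | h
    · exact key a b c h h2 h4 (by omega)
    · exact key a c b h h4 h2 (by omega)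
  · obtain ⟨hS, -, -, k, -⟩ := h
    obtain ⟨p, -, hp⟩ := (hY _ _).1 hx
    obtain ⟨j, e⟩ := hsoc p.1 p.2 ⟨x, hS⟩ hp
    exact ⟨⟨p.1, j⟩, congrArg Subtype.val e.symm, fun h => k (e ▸ h)⟩
  · rintro _ ⟨p, rfl, -⟩
    rw [ht]
    exact ⟨tN _, (hY _ _).2 ⟨p, .inr rfl, hmem p.1 p.2⟩⟩
  · rintro _ ⟨p, rfl, hp⟩ _ ⟨p', rfl, hp'⟩ h
    rw [ht, ht] at h
    rw [dinj (tinj _ _ (hubA _) hp (hubA _) hp' h)]
  · rintro _ ⟨a, rfl, ha⟩ _ ⟨b, rfl, hb⟩ _ ⟨c, rfl, -⟩ _ ⟨e, rfl, -⟩ h1 h2 h3 p q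
    rw [ht, ht] at h1 h2 h3
    obtain ⟨p', hp⟩ := vtop_lift (H := H) (A := A) (fun _ _ h => h) p (U a).2 (U c).2 ha
    obtain ⟨q', hq⟩ := vtop_lift (H := H) (A := A) (fun _ _ h => h) q (U b).2 (U e).2 hb
    obtain ⟨z, z1, z2⟩ := tnc (dt a) (dt b) (dt c) (dt e) (hubA _) (hubA _) (hubA _) (hubA _)
      h1 h2 h3 p' q' (fun z hz => (hp z hz).1) fun z hz => (hq z hz).1
    obtain ⟨-, s, rfl, s1⟩ := hp z z1
    obtain ⟨-, s', e', s2⟩ := hq _ z2
    exact ⟨s, s1, Sum.inl_injective e' ▸ s2⟩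
  · obtain ⟨P, p1, p2, p3⟩ := vtop_geo m' geo M.self M.symm M.tri hD1
      (fun a b h => M.edge _ _ (hsub a b h)) W
    refine ⟨P, p1.trans ?_, fun a ⟨ha, k⟩ => p2 ⟨a, ha⟩ ((hA _).1 k), p3⟩
    rw [Fintype.card_fin]
    gcongr
  · obtain ⟨i, j, h⟩ := (hcov x).resolve_left hx
    exact ⟨_, tN (dt ⟨i, j⟩), (hY _ _).2 ⟨⟨i, j⟩, .inr rfl, h⟩⟩

end Vale.Agent.P235.Vx
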