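import Vale.Agent.P235V.VAsm
import Vale.Agent.P235V.VTop

/-! Graphs that are embedded in a surface up to vortices embed into `L₁`. -/

namespace Vale.Agent.P235.Vx

theorem near_embed (g k : ℕ) : Ap.Bdd fun _ G => NearEmb G g k := by
  obtain ⟨q, K, C₀, h⟩ := near_data g k
  obtain ⟨C, hC⟩ := core_embed q K C₀
  refine ⟨C, fun V _ G hG hn ℓ hl => ?_⟩
  obtain ⟨Γ, B, Ω, S, N, Y, t, v₀, h'⟩ := h V G hG hn ℓ hl
  exact hC V G hG ℓ hl Γ B Ω S N Y t v₀ h'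

end Vale.Agent.P235.Vx
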