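import Vale.Agent.P235V.VD
import Vale.Agent.P235V.VTw

/-! `outer_embed`: graph `H` on the subtype `A = {v | ∃ i < N, v ∈ Y i}`: `a ≠ b` adjacent iff common bag or `R a b` or `R b a`; lengths `d` (`Sym2.lift`);
connected through `v₀`; `tw_vortex` with bags `(Y i).subtype _` and `R' i j := ∃ a c, (R a c ∨ R c a) ∧ t a = i ∧ t c = j`; `treewidth_embed (3 K + 2)`;
`d ≤ spDist` (`le_spDist`, induction on walks), `spDist ≤ d` on edges (`spDist_le`), `L1Rep.of_Lp` composed with `v ↦ if v ∈ A then v else v₀`.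
`geo_rep`: as the `key` of `quot_embed` (P235G/GMet.lean): for `p ∈ P` use the coordinates `d(·, insert p.2 p.1)` and `d(·, p.2)`. -/

namespace Vale.Agent.P235.Vx

theorem outer_embed (K : ℕ) : ∃ C : ℝ, 0 ≤ C ∧ ∀ (V : Type) [Fintype V] (d : V → V → ℝ),
    (∀ x, d x x = 0) → (∀ x y, d x y = d y x) → (∀ x y z, d x z ≤ d x y + d y z) →
    (∀ x y, x ≠ y → 0 < d x y) → ∀ (N : ℕ) (Y : ℕ → Finset V) (v₀ : V) (R : V → V → Prop)
    (t : V → ℕ), 0 < N → (∀ i, (Y i).card ≤ K + 1) →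
    (∀ v i j l, i ≤ j → j ≤ l → l < N → v ∈ Y i → v ∈ Y l → v ∈ Y j) → (∀ i, v₀ ∈ Y i) →
    (∀ a b, R a b → (t a < N ∧ a ∈ Y (t a)) ∧ t b < N ∧ b ∈ Y (t b)) →
    (∀ a b c e, R a c ∨ R c a → R b e ∨ R e b → t a < t b → t b < t c → t c < t e → False) →
    ∃ ρ : V → V → ℝ, L1Rep ρ ∧
      (∀ a b, (∃ i < N, a ∈ Y i) → (∃ i < N, b ∈ Y i) → d a b ≤ ρ a b) ∧
      ∀ a b, (R a b ∨ ∃ i < N, a ∈ Y i ∧ b ∈ Y i) → ρ a b ≤ C * d a b := by
  obtain ⟨C, hC⟩ := treewidth_embed (3 * K + 2)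
  refine ⟨max C 0, le_max_right _ _, fun V _ d h0 hs ht hp N Y v₀ R t hN hc hI hv hR hX => ?_⟩
  classical
  let H : SimpleGraph {v // ∃ i < N, v ∈ Y i} :=
    SimpleGraph.fromRel fun a b => (∃ i < N, a.1 ∈ Y i ∧ b.1 ∈ Y i) ∨ R a b
  let ℓ : Sym2 {v // ∃ i < N, v ∈ Y i} → ℝ := Sym2.lift ⟨fun a b => d a b, fun a b => hs a b⟩
  let w : {v // ∃ i < N, v ∈ Y i} := ⟨v₀, 0, hN, hv 0⟩
  have hH : H.Connected := by
    have h1 : ∀ a, H.Reachable a w := fun a => by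
      by_cases e : a = w
      · rw [e]
      · obtain ⟨i, a1, a2⟩ := a.2
        exact ((SimpleGraph.fromRel_adj _ _ _).2 ⟨e, .inl (.inl ⟨i, a1, a2, hv i⟩)⟩ :
          H.Adj a w).reachable
    have : Nonempty {v // ∃ i < N, v ∈ Y i} := ⟨w⟩
    exact ⟨fun a b => (h1 a).trans (h1 b).symm⟩
  have hℓ : ∀ e ∈ H.edgeSet, 0 < ℓ e := fun e he => by
    induction e using Sym2.ind with
    | _ a b => exact hp a b fun h => (show H.Adj a b from he).ne (Subtype.ext h)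
  have hT : TreewidthLE H (3 * K + 2) := by
    refine tw_vortex H N K (fun i => (Y i).subtype _)
      (fun i j => ∃ a c, (R a c ∨ R c a) ∧ t a = i ∧ t c = j) (fun i => ?_) (fun v => ?_)
      (fun v i j l h1 h2 h3 h4 h5 => ?_) ?_ fun x y h => ?_
    · rw [Finset.card_subtype]
      exact (Finset.card_filter_le _ _).trans (hc i)
    · simpa only [Finset.mem_subtype] using v.2
    · rw [Finset.mem_subtype] at h4 h5 ⊢
      exact hI v i j l h1 h2 h3 h4 h5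
    · rintro _ _ _ _ h1 h2 h3 ⟨a, c, h, rfl, rfl⟩ ⟨b, e, h', rfl, rfl⟩
      exact hX a b c e h h' h1 h2 h3
    · simp only [Finset.mem_subtype]
      have key : (R x y ∨ R y x) → (t x < N ∧ x.1 ∈ Y (t x)) → (t y < N ∧ y.1 ∈ Y (t y)) →
          (∃ i < N, x.1 ∈ Y i ∧ y.1 ∈ Y i) ∨ ∃ a c, a < c ∧ c < N ∧
            (∃ a' c', (R a' c' ∨ R c' a') ∧ t a' = a ∧ t c' = c) ∧
            (x.1 ∈ Y a ∧ y.1 ∈ Y c ∨ y.1 ∈ Y a ∧ x.1 ∈ Y c) := fun a1 a2 a3 => by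
        rcases lt_trichotomy (t x) (t y) with g | g | g
        · exact .inr ⟨_, _, g, a3.1, ⟨x, y, a1, rfl, rfl⟩, .inl ⟨a2.2, a3.2⟩⟩
        · exact .inl ⟨_, a2.1, a2.2, g ▸ a3.2⟩
        · exact .inr ⟨_, _, g, a2.1, ⟨y, x, a1.symm, rfl, rfl⟩, .inr ⟨a3.2, a2.2⟩⟩
      rcases ((SimpleGraph.fromRel_adj _ _ _).1 h).2 with (g | g) | (⟨i, g1, g2, g3⟩ | g)
      · exact .inl g
      · exact key (.inl g) (hR _ _ g).1 (hR _ _ g).2
      · exact .inl ⟨i, g1, g3, g2⟩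
      · exact key (.inr g) (hR _ _ g).2 (hR _ _ g).1
  obtain ⟨Ω, _, μ, f, hf⟩ := hC _ H hH hT ℓ hℓ
  have hlo : ∀ a b, d a.1 b.1 ≤ spDist H ℓ a b := fun a b => le_spDist hH fun p => by
    induction p with
    | nil => simp [h0]
    | cons h p ih =>
      rw [SimpleGraph.Walk.edges_cons, List.map_cons, List.sum_cons]
      exact (ht _ _ _).trans (add_le_add le_rfl ih)
  refine ⟨_, L1Rep.of_Lp fun v => f (if h : ∃ i < N, v ∈ Y i then ⟨v, h⟩ else w),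
    fun a b ha hb => ?_, fun a b h => ?_⟩
  · simp only [dif_pos ha, dif_pos hb]
    exact (hlo ⟨a, ha⟩ ⟨b, hb⟩).trans (hf _ _).1
  · have ha : ∃ i < N, a ∈ Y i := h.elim (fun g => ⟨_, (hR _ _ g).1⟩) fun ⟨i, g1, g2, _⟩ => ⟨i, g1, g2⟩
    have hb : ∃ i < N, b ∈ Y i := h.elim (fun g => ⟨_, (hR _ _ g).2⟩) fun ⟨i, g1, _, g3⟩ => ⟨i, g1, g3⟩
    simp only [dif_pos ha, dif_pos hb]
    by_cases e : a = b
    · subst e
      simp [h0]
    have h1 : H.Adj ⟨a, ha⟩ ⟨b, hb⟩ := (SimpleGraph.fromRel_adj _ _ _).2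
      ⟨fun g => e (congrArg Subtype.val g), .inl h.symm⟩
    have h2 : spDist H ℓ ⟨a, ha⟩ ⟨b, hb⟩ ≤ d a b := by
      simpa [ℓ] using spDist_le hℓ h1.toWalk
    have h3 := (hp a b e).le.trans (hlo ⟨a, ha⟩ ⟨b, hb⟩)
    exact (hf _ _).2.trans (mul_le_mul (le_max_left _ _) h2 h3 (le_max_right _ _))

theorem geo_rep {V : Type} [Fintype V] {d : V → V → ℝ} (h0 : ∀ x, d x x = 0)
    (hs : ∀ x y, d x y = d y x) (ht : ∀ x y z, d x z ≤ d x y + d y z) (P : Finset (Set V × V))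
    (hP : ∀ p ∈ P, ∀ a ∈ p.1, ∀ b ∈ p.1, d a b ≤ |d a p.2 - d b p.2|) :
    ∃ F : V → V → ℝ, L1Rep F ∧ (∀ x y, F x y ≤ 2 * P.card * d x y) ∧
      ∀ x y, ∀ p ∈ P, ∀ a ∈ p.1, d x y ≤ 4 * d y a + 2 * F x y := by
  have ex : ∀ (p : Set V × V) x, ∃ c ∈ insert p.2 p.1, ∀ b ∈ insert p.2 p.1, d x c ≤ d x b :=
    fun p x => Set.exists_min_image _ (d x) (Set.toFinite _) ⟨p.2, Set.mem_insert _ _⟩
  choose c hc hq using ex
  have lp : ∀ x y z, |d x z - d y z| ≤ d x y := fun x y z =>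
    abs_le.2 ⟨by linarith [ht y x z, hs x y], by linarith [ht x y z]⟩
  have lip : ∀ p x y, |d x (c p x) - d y (c p y)| ≤ d x y := fun p x y =>
    abs_le.2 ⟨by linarith [hq p y _ (hc p x), ht y x (c p x), hs x y],
      by linarith [hq p x _ (hc p y), ht x y (c p y)]⟩
  refine ⟨_, L1Rep.sum P fun p _ => (L1Rep.abs fun x => d x (c p x)).add
    (L1Rep.abs fun x => d x p.2), fun x y => ?_, fun x y p hp a ha => ?_⟩
  · have := Finset.sum_le_card_nsmul P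
      (fun p => |d x (c p x) - d y (c p y)| + |d x p.2 - d y p.2|) (2 * d x y) fun p _ => by
        linarith [lip p x y, lp x y p.2]
    rw [nsmul_eq_mul] at this
    linarith
  · have h1 := Finset.single_le_sum
      (f := fun p => |d x (c p x) - d y (c p y)| + |d x p.2 - d y p.2|)
      (fun _ _ => add_nonneg (abs_nonneg _) (abs_nonneg _)) hp
    have h2 := hq p y a (Set.mem_insert_of_mem _ ha)
    have h3 : d (c p x) a ≤ |d (c p x) p.2 - d a p.2| := by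
      rcases hc p x with e | e
      · rw [e, h0, zero_sub, abs_neg, hs]
        exact le_abs_self _
      · exact hP p hp _ e a ha
    have h4 := abs_le.1 (lp x (c p x) p.2)
    have h5 := abs_le.1 (lp y a p.2)
    have h6 : |d (c p x) p.2 - d a p.2| ≤ |d x p.2 - d y p.2| + d x (c p x) + d y a :=
      abs_le.2 ⟨by linarith [neg_abs_le (d x p.2 - d y p.2)],
        by linarith [le_abs_self (d x p.2 - d y p.2)]⟩
    linarith [ht x (c p x) y, ht (c p x) a y, hs a y, abs_nonneg (d x p.2 - d y p.2),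
      le_abs_self (d x (c p x) - d y (c p y))]

end Vale.Agent.P235.Vx
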