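import Vale.Agent.P235V.VRet
import Vale.Agent.P235V.VTwE

/-! Assembly. `d = spDist G ℓ` (`Pl.met`), `A = {v | ∃ i < N, v ∈ Y i}`, `V₁` = vertices with a `Γ`-walk to `A`, `h₁ x` = least length of such a walk on `V₁`
(or: well-founded / `sInf` over walks; Bellman equation), `0` elsewhere, `Γ₁` = edges of `Γ` inside `V₁` (`V₁` is closed under `Γ.Adj`; `NoX Γ₁` by `Walk.mapLe`).
`h = h₁` on `V₁`, `= M` elsewhere, `M ≥ max h₁, diam d`. `ret` for `(Γ₁, h₁)`; `h₁ = 0` on `V₁` iff in `A`; `π' ω x = π ω x` on `V₁`, `v₀` elsewhere; `π' x ∈ A`, `d x (π' x) ≤ (c+1) h x`,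
`π' = id` on `A` (distance `0`). `outer_embed` for each `ω` with `R a b := ∃ x y, Γ₁.Adj x y ∧ π x = a ∧ π y = b` (`a ∈ Ω`: `a` has a `Γ`-neighbour, first edge of the fibre walk
reversed or `y`; crossing chords give disjoint walks inside fibres, `nc`). `ρ₁ x y = card⁻¹ ∑ ω, ρ ω (π' x) (π' y)` (L1Rep is stable under comap: unfold).
`ρ₀ = Ap.cone` of `emb M` with `f = h`; `d₀ x y ≥ min (d x y) (h x + h y)` (`f z = if z ∈ S then d x z else 0`, and `f = h` if `x ∉ S`). With `B' = insert v₀ B`, `hB = d(·, B')`: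
`ρ = ρ₀ + ρ₁ + |hB x - hB y| ≥ d / (2 c + 3)`, `ρ ≤ C ℓ` on `Γ`-edges and on edges inside a bag. `τ = Ap.cone` of `ρ` (`L1Rep.embeds`, constant `1`) with `f = hB`;
`τ ≤ C ℓ` on all edges of `G` (`edge`), hence `τ ≤ C d` (`Met.ind`, triangle inequality of norms). `geo_rep` for `insert ({v₀}, v₀) P`; `d ≤ C' (τ + F)`; `L1Rep.embeds`. -/

open Classical

namespace Vale.Agent.P235.Vx

theorem vasm_comap {V : Type} {ρ : V → V → ℝ} (h : L1Rep ρ) (φ : V → V) :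
    L1Rep fun x y => ρ (φ x) (φ y) :=
  let ⟨Ω, m, μ, F, h1, h2⟩ := h
  ⟨Ω, m, μ, fun x => F (φ x), fun _ => h1 _, fun _ _ => h2 _ _⟩

theorem vasm_h {V : Type} [Finite V] (Γ : SimpleGraph V) {ℓ : Sym2 V → ℝ}
    (hl : ∀ e ∈ Γ.edgeSet, 0 < ℓ e) (A : Set V) :
    ∃ (U : Set V) (h : V → ℝ), A ⊆ U ∧ (∀ x y, Γ.Adj x y → x ∈ U → y ∈ U) ∧ (∀ x, 0 ≤ h x) ∧
      (∀ x ∈ A, h x = 0) ∧ (∀ x, x ∉ U → h x = 0) ∧
      (∀ x y, Γ.Adj x y → x ∈ U → h x ≤ h y + ℓ s(x, y)) ∧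
      ∀ x ∈ U, x ∉ A → ∃ y, Γ.Adj x y ∧ h x = ℓ s(x, y) + h y := by
  let L : V → Set ℝ := fun x => {r | ∃ a ∈ A, ∃ p : Γ.Walk x a, r = (p.edges.map ℓ).sum}
  have l0 : ∀ x, ∀ r ∈ L x, 0 ≤ r := by
    rintro x _ ⟨a, -, p, rfl⟩
    exact len_nonneg hl p
  have lb : ∀ x, BddBelow (L x) := fun x => ⟨0, l0 x⟩
  have h0 : ∀ x, 0 ≤ sInf (L x) := fun x => Real.sInf_nonneg (l0 x)
  have cl : ∀ x y, Γ.Adj x y → (L x).Nonempty → (L y).Nonempty := by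
    rintro x y hxy ⟨_, a, ha, p, rfl⟩
    exact ⟨_, a, ha, .cons hxy.symm p, rfl⟩
  have lip : ∀ x y, Γ.Adj x y → (L x).Nonempty → sInf (L x) ≤ sInf (L y) + ℓ s(x, y) :=
    fun x y hxy hx => by
      rw [← sub_le_iff_le_add]
      refine le_csInf (cl x y hxy hx) ?_
      rintro _ ⟨a, ha, p, rfl⟩
      have := csInf_le (lb x) ⟨a, ha, .cons hxy p, rfl⟩
      simp only [SimpleGraph.Walk.edges_cons, List.map_cons, List.sum_cons] at this
      linarith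
  refine ⟨{x | (L x).Nonempty}, fun x => sInf (L x), fun a ha => ⟨_, a, ha, .nil, rfl⟩, cl, h0,
    fun a ha => le_antisymm (by simpa using csInf_le (lb a) ⟨a, ha, .nil, rfl⟩) (h0 a),
    fun x hx => ?_, lip, fun x hx hA => ?_⟩
  · beta_reduce
    rw [Set.not_nonempty_iff_eq_empty.1 hx, Real.sInf_empty]
  have : Nonempty {z // Γ.Adj x z} := by
    obtain ⟨_, a, ha, p, -⟩ := hx
    cases p with
    | nil => exact absurd ha hA
    | cons h _ => exact ⟨_, h⟩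
  obtain ⟨z, hz⟩ := Finite.exists_min fun z : {z // Γ.Adj x z} => ℓ s(x, z.1) + sInf (L z.1)
  refine ⟨z.1, z.2, le_antisymm ((lip x z.1 z.2 hx).trans_eq (add_comm _ _)) (le_csInf hx ?_)⟩
  rintro _ ⟨a, ha, p, rfl⟩
  cases p with
  | nil => exact absurd ha hA
  | cons h q =>
    simp only [SimpleGraph.Walk.edges_cons, List.map_cons, List.sum_cons]
    exact (hz ⟨_, h⟩).trans (add_le_add_right (csInf_le (lb _) ⟨_, ha, q, rfl⟩) _)

theorem vasm_nb {V : Type} {Γ : SimpleGraph V} {x a : V} (p : Γ.Walk x a) :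
    ∀ y, Γ.Adj x y → ∃ z, Γ.Adj a z := by
  induction p with
  | nil => exact fun y h => ⟨y, h⟩
  | cons h _ ih => exact fun _ _ => ih _ h.symm

theorem vasm_one (K : ℕ) : ∃ c C : ℝ, 1 ≤ c ∧ 0 ≤ C ∧ ∀ (V : Type) [Fintype V]
    (G : SimpleGraph V) (ℓ : Sym2 V → ℝ) (d : V → V → ℝ), Pl.Met G ℓ d → ∀ q C₀ Γ B Ω S N Y t v₀,
    VD G ℓ d q K C₀ Γ B Ω S N Y t v₀ → ∃ (M : ℝ) (h : V → ℝ) (ρ : V → V → ℝ), 0 < M ∧
      (∀ x y, d x y ≤ M) ∧ (∀ x, 0 ≤ h x ∧ h x ≤ M) ∧ (∀ x, (∃ i < N, x ∈ Y i) → h x = 0) ∧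
      (∀ x y, Γ.Adj x y → h x ≤ h y + ℓ s(x, y)) ∧ L1Rep ρ ∧
      (∀ x y, 0 ≤ ρ x y ∧ d x y ≤ c * (h x + h y) + ρ x y) ∧
      ∀ x y, G.Adj x y → (Γ.Adj x y ∨ ∃ i < N, x ∈ Y i ∧ y ∈ Y i) → ρ x y ≤ C * ℓ s(x, y) := by
  obtain ⟨c, β, hc, hβ, hr⟩ := ret
  obtain ⟨C, hC, ho⟩ := outer_embed K
  refine ⟨c + 1, C * (β + 1), by linarith, by positivity,
    fun V _ G ℓ d m q C₀ Γ B Ω S N Y t v₀ D => ?_⟩
  have lp : ∀ x y, Γ.Adj x y → 0 < ℓ s(x, y) := fun x y h => m.pos x y (D.le h)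
  obtain ⟨U, h, u1, u2, h0, h1, h2, h3, h4⟩ := vasm_h Γ (ℓ := ℓ)
    (by rintro ⟨x, y⟩ h; exact lp x y h) {v | ∃ i < N, v ∈ Y i}
  have hz : ∀ x ∈ U, h x = 0 → ∃ i < N, x ∈ Y i := fun x hx e => by
    by_contra k
    obtain ⟨y, k1, k2⟩ := h4 x hx k
    linarith [lp x y k1, h0 y]
  let Γ₁ : SimpleGraph V := ⟨fun x y => Γ.Adj x y ∧ x ∈ U ∧ y ∈ U,
    ⟨fun x y k => ⟨k.1.symm, k.2.2, k.2.1⟩⟩, ⟨fun x k => k.1.ne rfl⟩⟩
  have le1 : Γ₁ ≤ Γ := fun _ _ k => k.1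
  have soc : ∀ x y, Γ₁.Adj x y → h x = 0 → x ∈ Ω := fun x y k e =>
    let ⟨i, hi, hx⟩ := hz x k.2.1 e
    D.soc x y i k.1 hi hx
  have nc : NoX Γ₁ Ω t := fun a ha b hb c hc e he k1 k2 k3 p q => by
    simpa using D.nc a ha b hb c hc e he k1 k2 k3 (p.mapLe le1) (q.mapLe le1)
  obtain ⟨ι, _, _, π, p1, p2, p3⟩ := hr V Γ₁ ℓ d h Ω t (fun x y k => lp x y k.1) m.self m.symm
    m.tri (fun x y k => m.edge x y (D.le k.1)) h0 (fun x y k => h3 x y k.1 k.2.1)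
    (fun x hx => by
      have hU : x ∈ U := by_contra fun k => hx.ne' (h2 x k)
      obtain ⟨y, k1, k2⟩ := h4 x hU fun k => hx.ne' (h1 x k)
      exact ⟨y, ⟨k1, hU, u2 x y k1 hU⟩, k2⟩) soc D.inj nc
  have wU : ∀ {x z : V} (p : Γ₁.Walk x z), x ∈ U → z ∈ U := fun p => by
    induction p with
    | nil => exact id
    | cons k _ ih => exact fun _ => ih k.2.2
  have fib : ∀ ω a b, (∃ x y, Γ₁.Adj x y ∧ π ω x = a ∧ π ω y = b) ∨
      (∃ x y, Γ₁.Adj x y ∧ π ω x = b ∧ π ω y = a) →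
      a ∈ Ω ∧ b ∈ Ω ∧ ∃ p : Γ₁.Walk a b, ∀ z ∈ p.support, π ω z = a ∨ π ω z = b := by
    have k : ∀ ω x y, Γ₁.Adj x y → π ω x ∈ Ω ∧ π ω y ∈ Ω ∧ ∃ p : Γ₁.Walk (π ω x) (π ω y),
        ∀ z ∈ p.support, π ω z = π ω x ∨ π ω z = π ω y := fun ω x y k => by
      obtain ⟨p, hp⟩ := p2 ω x
      obtain ⟨p', hp'⟩ := p2 ω y
      obtain ⟨z, hz⟩ := vasm_nb p y k
      obtain ⟨z', hz'⟩ := vasm_nb p' x k.symm
      refine ⟨soc _ z hz (p1 ω x).1, soc _ z' hz' (p1 ω y).1, p.reverse.append (.cons k p'),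
        fun w hw => ?_⟩
      rcases (SimpleGraph.Walk.mem_support_append_iff _ _).1 hw with hw | hw
      · exact Or.inl (hp w (by simpa using hw))
      · rcases List.mem_cons.1 hw with rfl | hw
        · exact Or.inl rfl
        · exact Or.inr (hp' w hw)
    rintro ω a b (⟨x, y, e, rfl, rfl⟩ | ⟨x, y, e, rfl, rfl⟩)
    · exact k ω x y e
    · exact k ω y x e.symm
  have ho' := fun ω => ho V d m.self m.symm m.tri (fun _ _ => m.dist_pos) N Y v₀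
    (fun a b => ∃ x y, Γ₁.Adj x y ∧ π ω x = a ∧ π ω y = b) t D.pos D.card D.int D.com
    (fun a b k => ⟨D.tm a (fib ω a b (Or.inl k)).1, D.tm b (fib ω a b (Or.inl k)).2.1⟩)
    fun a b c e k k' t1 t2 t3 => by
      obtain ⟨ha, hc, p, hp⟩ := fib ω a c k
      obtain ⟨hb, he, p', hp'⟩ := fib ω b e k'
      obtain ⟨z, z1, z2⟩ := nc a ha b hb c hc e he t1 t2 t3 p p'
      rcases hp z z1 with r | r <;> rcases hp' z z2 with r' | r' <;>
        have := congrArg t (r.symm.trans r') <;> omega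
  choose ρ r1 r2 r3 using ho'
  obtain ⟨M₀, hM⟩ := (Set.finite_range fun z : V × V => d z.1 z.2 + h z.1).bddAbove
  have hM' : ∀ x y, d x y + h x ≤ max M₀ 1 := fun x y => le_max_of_le_left (hM ⟨(x, y), rfl⟩)
  have M0 : 0 < max M₀ 1 := lt_max_of_lt_right one_pos
  generalize max M₀ 1 = M at hM' M0
  have hd : ∀ x y, d x y ≤ M := fun x y => by linarith [hM' x y, h0 x]
  let π' : ι → V → V := fun ω x => if x ∈ U then π ω x else v₀
  let h' : V → ℝ := fun x => if x ∈ U then h x else M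
  have v0 : ∃ i < N, v₀ ∈ Y i := ⟨0, D.pos, D.com 0⟩
  have q1 : ∀ ω x, (∃ i < N, π' ω x ∈ Y i) ∧ d x (π' ω x) ≤ (c + 1) * h' x := fun ω x => by
    simp only [π', h']
    split_ifs with hx
    · obtain ⟨p, -⟩ := p2 ω x
      exact ⟨hz _ (wU p hx) (p1 ω x).1, by nlinarith [(p1 ω x).2, h0 x]⟩
    · exact ⟨v0, by nlinarith [hd x v₀]⟩
  have q2 : ∀ ω x, (∃ i < N, x ∈ Y i) → π' ω x = x := fun ω x hx => by
    refine (if_pos (u1 hx)).trans (by_contra fun k => ?_)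
    have := (p1 ω x).2
    rw [h1 x hx, mul_zero] at this
    linarith [m.dist_pos (Ne.symm k)]
  have n0 : (0 : ℝ) < Fintype.card ι := Nat.cast_pos.2 Fintype.card_pos
  refine ⟨M, h', fun x y => (Fintype.card ι : ℝ)⁻¹ * ∑ ω, ρ ω (π' ω x) (π' ω y), M0, hd,
    fun x => ?_, fun x hx => (if_pos (u1 hx)).trans (h1 x hx), fun x y k => ?_,
    (L1Rep.sum _ fun ω _ => vasm_comap (r1 ω) (π' ω)).smul (inv_pos.2 n0).le,
    fun x y => ⟨mul_nonneg (inv_pos.2 n0).le (Finset.sum_nonneg fun ω _ =>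
      (m.nonneg _ _).trans (r2 ω _ _ (q1 ω x).1 (q1 ω y).1)), ?_⟩, fun x y k hk => ?_⟩
  · simp only [h']
    split_ifs
    · exact ⟨h0 x, by linarith [hM' x x, m.self x]⟩
    · exact ⟨M0.le, le_rfl⟩
  · simp only [h']
    by_cases hx : x ∈ U
    · rw [if_pos hx, if_pos (u2 x y k hx)]
      exact h3 x y k hx
    · rw [if_neg hx, if_neg fun hy => hx (u2 y x k.symm hy)]
      linarith [lp x y k]
  · rw [← sub_le_iff_le_add', le_inv_mul_iff₀ n0, ← nsmul_eq_mul]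
    refine Finset.card_nsmul_le_sum _ _ _ fun ω _ => ?_
    linarith [r2 ω _ _ (q1 ω x).1 (q1 ω y).1, (q1 ω x).2, (q1 ω y).2, m.tri x (π' ω x) y,
      m.tri (π' ω x) (π' ω y) y, m.symm y (π' ω y)]
  · have l0 := (m.pos x y k).le
    rw [inv_mul_le_iff₀ n0]
    rcases hk with hk | ⟨i, hi, hx, hy⟩
    · by_cases hx : x ∈ U
      · have hy := u2 x y hk hx
        simp only [π', if_pos hx, if_pos hy]
        refine (Finset.sum_le_sum fun ω _ =>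
          r3 ω _ _ (Or.inl ⟨x, y, ⟨hk, hx, hy⟩, rfl, rfl⟩)).trans ?_
        rw [← Finset.mul_sum]
        nlinarith [mul_le_mul_of_nonneg_left (p3 x y ⟨hk, hx, hy⟩) hC,
          mul_nonneg n0.le (mul_nonneg hC l0)]
      · have hy : y ∉ U := fun hy => hx (u2 y x hk.symm hy)
        simp only [π', if_neg hx, if_neg hy]
        refine (Finset.sum_nonpos fun ω _ => (r3 ω _ _
          (Or.inr ⟨0, D.pos, D.com 0, D.com 0⟩)).trans_eq (by rw [m.self, mul_zero])).trans ?_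
        positivity
    · rw [← nsmul_eq_mul]
      refine Finset.sum_le_card_nsmul _ _ _ fun ω _ => ?_
      rw [q2 ω x ⟨i, hi, hx⟩, q2 ω y ⟨i, hi, hy⟩]
      nlinarith [r3 ω x y (Or.inr ⟨i, hi, hx, hy⟩), mul_le_mul_of_nonneg_left (m.edge x y k) hC,
        mul_nonneg hβ (mul_nonneg hC l0)]

theorem core_embed (q K : ℕ) (C₀ : ℝ) : ∃ C : ℝ, ∀ (V : Type) [Fintype V] (G : SimpleGraph V),
    G.Connected → ∀ ℓ : Sym2 V → ℝ, (∀ e ∈ G.edgeSet, 0 < ℓ e) → ∀ Γ B Ω S N Y t v₀,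
    VD G ℓ (spDist G ℓ) q K C₀ Γ B Ω S N Y t v₀ → EmbedsL1 (spDist G ℓ) C := by
  obtain ⟨c, C, hc, hC, H⟩ := vasm_one K
  refine ⟨4 * (240 * (c * (240 * max C₀ 0 + C) + 1)) + 4 * (q + 1),
    fun V _ G hG ℓ hl Γ B Ω S N Y t v₀ D => ?_⟩
  have m := Pl.met hG hl
  generalize spDist G ℓ = d at m D ⊢
  obtain ⟨M, h, ρ₁, M0, hd, h0, h1, h2, r1, r2, r3⟩ := H V G ℓ d m _ _ _ _ _ _ _ _ _ _ D
  obtain ⟨d₀, ⟨_, _, μ, f, hf⟩, e1, e2⟩ := D.emb M M0
  have hS : ∀ x, x ∉ S → h x = 0 := fun x hx => h1 x (D.offS x hx)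
  have d0 : ∀ x y, 0 ≤ d₀ x y := fun x y => by
    simpa using e2 (fun _ => 0) (fun _ => ⟨le_rfl, M0.le⟩) (fun _ _ => rfl)
      (fun x y k => by simpa using (m.pos x y (D.le k)).le) x y
  have a1 : ∀ x y, h x ≤ h y + ‖f x - f y‖ := fun x y => by
    linarith [e2 h h0 hS h2 x y, (hf x y).1]
  have a2 : ∀ x y, min (d x y) (h x + h y) ≤ ‖f x - f y‖ := fun x y => by
    by_cases hx : x ∈ S
    swap
    · exact (min_le_right _ _).trans (by linarith [a1 y x, hS x hx, norm_sub_rev (f x) (f y)])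
    by_cases hy : y ∈ S
    swap
    · exact (min_le_right _ _).trans (by linarith [a1 x y, hS y hy])
    have := e2 (fun z => if z ∈ S then d z y else 0) (fun z => by
      split_ifs
      exacts [⟨m.nonneg _ _, hd _ _⟩, ⟨le_rfl, M0.le⟩]) (fun z hz => if_neg hz)
      (fun z z' k => by
        rw [if_pos (D.inS z z' k), if_pos (D.inS z' z k.symm)]
        linarith [m.tri z z' y, m.edge z z' (D.le k)]) x y
    rw [if_pos hx, if_pos hy, m.self] at this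
    exact (min_le_left _ _).trans (by linarith [(hf x y).1])
  obtain ⟨_, _, μ₀, f₀, hf₀⟩ := Ap.cone ((L1Rep.of_Lp f).embeds (C := 1) (fun _ _ => le_rfl)
    fun _ _ => (one_mul _).ge) le_rfl (fun x => (h0 x).1) fun x y =>
      abs_le.2 ⟨by linarith [a1 y x, norm_sub_rev (f x) (f y)], by linarith [a1 x y]⟩
  have c0 : 0 ≤ c := by linarith
  have b1 : ∀ x y, d x y ≤ c * (‖f₀ x - f₀ y‖ + ρ₁ x y) := fun x y => by
    have k1 : min (d x y) (h x + h y) ≤ ‖f₀ x - f₀ y‖ :=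
      (le_min (a2 x y) (min_le_right _ _)).trans (hf₀ x y).1
    have k2 := r2 x y
    rcases min_le_iff.1 k1 with k | k <;> nlinarith [norm_nonneg (f₀ x - f₀ y)]
  have C1 : 0 ≤ max C₀ 0 := le_max_right _ _
  have b2 : ∀ x y, G.Adj x y → (Γ.Adj x y ∨ ∃ i < N, x ∈ Y i ∧ y ∈ Y i) →
      c * (‖f₀ x - f₀ y‖ + ρ₁ x y) ≤ c * (240 * max C₀ 0 + C) * ℓ s(x, y) := fun x y k hk => by
    rw [mul_assoc]
    refine mul_le_mul_of_nonneg_left ?_ c0
    have k1 := (hf₀ x y).2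
    have k2 := r3 x y k hk
    have l0 := (m.pos x y k).le
    rcases hk with hk | ⟨i, hi, hx, hy⟩
    · have k3 : ‖f x - f y‖ ≤ max C₀ 0 * ℓ s(x, y) := (hf x y).2.trans
        (mul_le_mul (le_max_left _ _) (e1 x y hk) (d0 x y) C1)
      linarith [min_le_left ‖f x - f y‖ (h x + h y)]
    · linarith [min_le_right ‖f x - f y‖ (h x + h y), h1 x ⟨i, hi, hx⟩, h1 y ⟨i, hi, hy⟩,
        mul_nonneg C1 l0]
  have ex : ∀ x, ∃ a ∈ insert v₀ B, ∀ b ∈ insert v₀ B, d x a ≤ d x b := fun x =>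
    Set.exists_min_image _ (d x) (Set.toFinite _) ⟨v₀, Or.inl rfl⟩
  choose a ha hb using ex
  obtain ⟨_, _, μ₁, f₁, hf₁⟩ := Ap.cone ((((L1Rep.of_Lp f₀).add r1).smul c0).embeds (C := 1)
    (fun _ _ => le_rfl) fun _ _ => (one_mul _).ge) le_rfl (f := fun x => d x (a x))
    (fun x => m.nonneg _ _) fun x y => le_trans (abs_le.2
      ⟨by linarith [hb y _ (ha x), m.tri y x (a x), m.symm x y],
        by linarith [hb x _ (ha y), m.tri x y (a y)]⟩) (b1 x y)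
  have C2 : 0 ≤ c * (240 * max C₀ 0 + C) := by positivity
  generalize c * (240 * max C₀ 0 + C) = C' at b2 C2 ⊢
  have g1 : ∀ x y, G.Adj x y → ‖f₁ x - f₁ y‖ ≤ 240 * (C' + 1) * ℓ s(x, y) := fun x y k => by
    have k1 := (hf₁ x y).2
    have k2 := min_le_left (c * (‖f₀ x - f₀ y‖ + ρ₁ x y)) (d x (a x) + d y (a y))
    have k3 := min_le_right (c * (‖f₀ x - f₀ y‖ + ρ₁ x y)) (d x (a x) + d y (a y))
    have l0 := (m.pos x y k).le
    have l1 := mul_nonneg C2 l0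
    have l2 := m.edge x y k
    rcases D.edge x y k with hx | hy | hk
    · linarith [hb x x (Or.inr hx), hb y x (Or.inr hx), m.self x, m.symm x y]
    · linarith [hb x y (Or.inr hy), hb y y (Or.inr hy), m.self y]
    · linarith [b2 x y k hk]
  have g2 : ∀ x y, ‖f₁ x - f₁ y‖ ≤ 240 * (C' + 1) * d x y := fun x y =>
    m.ind y (p := fun x => ‖f₁ x - f₁ y‖ ≤ 240 * (C' + 1) * d x y) (by simp [m.self])
      (fun x z k e ih => by
        rw [e, mul_add]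
        linarith [g1 x z k, norm_sub_le_norm_sub_add_norm_sub (f₁ x) (f₁ z) (f₁ y)]) x
  obtain ⟨P, P1, P2, P3⟩ := D.geo
  obtain ⟨F, F1, F2, F3⟩ := geo_rep m.self m.symm m.tri (insert ({v₀}, v₀) P) fun p hp => by
    rcases Finset.mem_insert.1 hp with rfl | hp
    · rintro _ rfl _ rfl
      simp [m.self]
    · exact P3 p hp
  have F4 : ∀ x y, d x y ≤ 4 * d y (a y) + 2 * F x y := fun x y => by
    rcases ha y with k | k
    · exact F3 x y _ (Finset.mem_insert_self _ _) _ k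
    · obtain ⟨p, hp, k⟩ := P2 _ k
      exact F3 x y p (Finset.mem_insert_of_mem hp) _ k
  have F0 : ∀ x y, 0 ≤ F x y := fun x y => by
    obtain ⟨_, _, _, _, _, e⟩ := F1
    rw [e]
    exact MeasureTheory.integral_nonneg fun _ => abs_nonneg _
  refine (((L1Rep.of_Lp f₁).smul (c := 4) (by norm_num)).add (F1.smul zero_le_two)).embeds
    (fun x y => ?_) fun x y => ?_
  · rcases min_le_iff.1 (hf₁ x y).1 with k | k
    · linarith [b1 x y, F0 x y, m.nonneg x y]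
    · linarith [F4 x y, m.nonneg x (a x)]
  · have k : ((insert ({v₀}, v₀) P).card : ℝ) ≤ q + 1 := by
      exact_mod_cast (Finset.card_insert_le _ _).trans (Nat.succ_le_succ P1)
    linarith [g2 x y, F2 x y, mul_le_mul_of_nonneg_right k (m.nonneg x y)]

end Vale.Agent.P235.Vx
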