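import Vale.Agent.P235V.VNc

/-! The order of the darts that leave the cut graph.
Proof: as in `Gn.euler_embed` (`Met.exists_tr`, `exists_sch`, `exists_ncut`), but with `W ∪ W₀` (rebuild `NCt` for the larger set `A`: only `root`, `par`, `ends` change;
`anc_par`). `ρ = res x₀ _ (cut.ps_sc subset_rfl)` is the rotation of `nmap cut x₀` (`rot'`, `euler`), `x₁ = ⟨x₀, _⟩` is a dart at `none`, `e₁ = x₀.1`,
`N = minimalPeriod ρ x₁`, `tm e` = the exponent `< N` with `ρ^(tm e) x₁ = lift e` (`NCt.lift`, `NCt.uniq`; `0` if `e` does not leave `A`).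
For an edge outside `kE A R`, `ps_pos` gives `ρ (e, s) = flagRot (e, s)`; if the lift of `e` is `(e, false)` then `ρ⁻¹` of it is `(σ e, false)`.
The last part is `map_nc` with `S₁`, `S₂` = images of the supports under `qA A`. -/

namespace Vale.Agent.P235.Vx

open Gn Set Equiv Function

section
variable {V : Type} {G : SimpleGraph V} {σ : Perm G.Dart} {tw : Sym2 V → Bool} {T : Pl.Tr G}
  {t : V → Bool} {A : Set V} {R : Set (Sym2 V)} [Finite V]

theorem vcut_snd (h : NCt T σ tw t A R) {x₀ : G.Dart × Bool} {x : (nmap h x₀).Dart}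
    (hx : x.1.1.edge ∉ kE A R) : x.snd = qA A x.1.1.snd := by
  change qA A (rwf tw (kE A R)ᶜ x.1).1.fst = _
  rw [rwf_pos (R := (kE A R)ᶜ) hx]
  rfl

theorem vcut_step (h : NCt T σ tw t A R) (x₀ : G.Dart × Bool) {u w : V} (huw : G.Adj u w)
    (hu : u ∉ A) : ∃ x : (nmap h x₀).Dart, x.fst = qA A u ∧ x.snd = qA A w := by
  have k : (⟨(u, w), huw⟩ : G.Dart).edge ∉ kE A R := fun k => hu (mem_kE.1 k).2.1
  obtain ⟨x, hx⟩ := h.lift x₀ k
  refine ⟨x, ?_, ?_⟩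
  · change qA A x.1.1.fst = _
    rw [hx]
  · rw [vcut_snd h (x := x) (hx ▸ k), hx]

theorem vcut_conn (h : NCt T σ tw t A R) (x₀ : G.Dart × Bool) (v : Option {v // v ∉ A}) :
    Rch (nmap h x₀) univ v none := by
  have key : ∀ u, Rch (nmap h x₀) univ (qA A u) none := by
    refine T.ind_up ?_ fun u hu ih => ?_
    · rw [qA_pos h.root]
      exact .refl
    by_cases k : u ∈ A
    · rw [qA_pos k]
      exact .refl
    obtain ⟨x, h1, h2⟩ := vcut_step h x₀ (T.adj u hu) k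
    exact .head ⟨x, h1, h2, mem_univ _⟩ ih
  rw [← qA_pA h.root v]
  exact key _

theorem vcut_walk (h : NCt T σ tw t A R) (x₀ : G.Dart × Bool) {S : Set (Option {v // v ∉ A})}
    {u v : V} (p : G.Walk u v) (hp : ∀ z ∈ p.support, z ∉ A ∧ qA A z ∈ S) :
    Rch (nmap h x₀) S (qA A u) (qA A v) := by
  induction p with
  | nil => exact .refl
  | cons huw p ih =>
    obtain ⟨x, h1, h2⟩ := vcut_step h x₀ huw (hp _ (by simp)).1
    exact .head ⟨x, h1, h2, (hp _ (by simp)).2⟩ (ih fun z hz => hp z (by simp [hz]))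

theorem vcut_uniq (h : NCt T σ tw t A R) {x₀ : G.Dart × Bool} {x y : Orb σ tw R x₀}
    (hx : x.1.1.edge ∉ kE A R) (k : y.1.1 = x.1.1) : y = x := by
  refine Subtype.ext ((h.uniq hx (by rw [k])).resolve_right fun k1 => ?_)
  rw [k1, al_fst] at k
  exact x.1.1.symm_ne k

end

theorem cut_order {U : Type} [Finite U] {H : SimpleGraph U} {ℓ : Sym2 U → ℝ} {d : U → U → ℝ}
    (M : Pl.Met H ℓ d) (hd : ∀ v, ∃ e : H.Dart, e.fst = v) [Nonempty U] {σ : Equiv.Perm H.Dart}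
    (hσ : IsRotationSystem H σ) (tw : Sym2 U → Bool) {g : ℕ}
    (hE : 2 * (Nat.card H.edgeSet + 2) ≤ 2 * Nat.card U + flagOrbits H σ tw + 2 * g)
    (W₀ : Finset U) :
    ∃ (T : Pl.Tr H) (W : Finset U) (A : Set U) (tm : H.Dart → ℕ) (N : ℕ) (e₁ : H.Dart),
      T.Geo ℓ d ∧ W₀ ⊆ W ∧ W.card ≤ 2 * g + 1 + W₀.card ∧ (∀ a, a ∈ A ↔ ∃ w ∈ W, T.Anc a w) ∧
      (∀ e, tm e < N) ∧
      (∀ e e' : H.Dart, e.fst ∈ A → e.snd ∉ A → e'.fst ∈ A → e'.snd ∉ A → tm e = tm e' → e = e') ∧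
      (∀ e : H.Dart, e.fst ∈ A → e.snd ∉ A → (σ e).snd ∉ A → e ≠ e₁ → σ e ≠ e₁ → σ e ≠ e →
        tm (σ e) = tm e + 1 ∨ tm e = tm (σ e) + 1) ∧
      ∀ a b c e : H.Dart, a.fst ∈ A → b.fst ∈ A → c.fst ∈ A → e.fst ∈ A → tm a < tm b →
        tm b < tm c → tm c < tm e → ∀ (p : H.Walk a.snd c.snd) (q : H.Walk b.snd e.snd),
        (∀ z ∈ p.support, z ∉ A) → (∀ z ∈ q.support, z ∉ A) →
        ∃ z, z ∈ p.support ∧ z ∈ q.support := by
  classical
  obtain ⟨r⟩ := ‹Nonempty U›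
  obtain ⟨T₀, rfl, -, geo₀⟩ := M.exists_tr hσ r
  obtain ⟨T, t, sch, geo⟩ := exists_sch T₀ geo₀ tw
  obtain ⟨e₀, he₀⟩ := hd T.r
  obtain ⟨W, R, hW, cut₀, hc⟩ := exists_ncut sch he₀ hE
  set A : Set U := {a | ∃ w ∈ W ∪ W₀, T.Anc a w} with hA
  have sub : ∀ a, (∃ w ∈ W, T.Anc a w) → a ∈ A := fun a ⟨w, hw, k⟩ =>
    ⟨w, Finset.mem_union_left _ hw, k⟩
  have cut : NCt T T₀.σ tw t A R :=
    ⟨sch, sub _ cut₀.root, fun v ⟨w, hw, k⟩ hv => ⟨w, hw, anc_par k hv⟩,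
      fun e he he' => sub _ (cut₀.ends e he he'), cut₀.sub, cut₀.r2, cut₀.tot⟩
  have := Pl.ztree_fin (G := H)
  set ρ : Perm (Orb T₀.σ tw R (e₀, true)) := res (e₀, true) _ (cut.ps_sc subset_rfl) with hρ
  have rot : (nmap cut (e₀, true)).Rot ρ := cut.rot' he₀
  let x₁ : Orb T₀.σ tw R (e₀, true) := ⟨(e₀, true), .refl _ _⟩
  have hx₁ : qA A e₀.fst = none := qA_pos (he₀ ▸ cut.root)
  have hN : 0 < minimalPeriod ρ x₁ :=
    minimalPeriod_pos_of_mem_periodicPts (ρ.injective.mem_periodicPts x₁)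
  have nk : ∀ e : H.Dart, e.snd ∉ A → e.edge ∉ kE A R := fun e he k => he (mem_kE.1 k).2.2
  have ex : ∀ e : H.Dart, ∃ n, n < minimalPeriod ρ x₁ ∧
      (e.fst ∈ A → e.snd ∉ A → ((ρ ^ n) x₁).1.1 = e) := fun e => by
    by_cases k : e.fst ∈ A ∧ e.snd ∉ A
    · obtain ⟨x, hx⟩ := cut.lift (e₀, true) (nk e k.2)
      have k1 : ρ.SameCycle x₁ x := (rot.rot x₁ x).2 (by
        change qA A e₀.fst = qA A x.1.1.fst
        rw [hx₁, hx, qA_pos k.1])
      obtain ⟨n, -, hn⟩ := k1.exists_pow_eq'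
      refine ⟨n % minimalPeriod ρ x₁, Nat.mod_lt _ hN, fun _ _ => ?_⟩
      rw [Perm.coe_pow, iterate_mod_minimalPeriod_eq, ← Perm.coe_pow, hn, hx]
    · exact ⟨0, hN, fun k1 k2 => (k ⟨k1, k2⟩).elim⟩
  choose tm tlt htm using ex
  have step : ∀ (n : ℕ) (e : H.Dart), e.fst ∈ A → e.snd ∉ A → n < minimalPeriod ρ x₁ →
      (ρ ((ρ ^ n) x₁)).1.1 = e → e ≠ e₀ → tm e = n + 1 := fun n e k1 k2 hn k ne => by
    rw [← Perm.mul_apply, ← pow_succ'] at k
    rcases Nat.lt_or_ge (n + 1) (minimalPeriod ρ x₁) with k3 | k3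
    · have k4 := vcut_uniq cut (x := (ρ ^ (n + 1)) x₁) (y := (ρ ^ tm e) x₁) (k ▸ nk e k2)
        ((htm e k1 k2).trans k.symm)
      rw [Perm.coe_pow, Perm.coe_pow] at k4
      exact iterate_injOn_Iio_minimalPeriod (tlt e) k3 k4
    · rw [show n + 1 = minimalPeriod ρ x₁ by omega, Perm.coe_pow, iterate_minimalPeriod] at k
      exact (ne k.symm).elim
  have hv : ∀ x : Orb T₀.σ tw R (e₀, true), (ρ x).1 = ps T₀.σ tw (kE A R)ᶜ x.1 := fun _ => rfl
  have sn : ∀ e : H.Dart, e.fst ∈ A → e.snd ∉ A →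
      Mp.Dart.snd (G := nmap cut (e₀, true)) ((ρ ^ tm e) x₁) = qA A e.snd := fun e k1 k2 => by
    rw [vcut_snd cut (by rw [htm e k1 k2]; exact nk e k2), htm e k1 k2]
  refine ⟨T, W ∪ W₀, A, tm, _, e₀, geo, Finset.subset_union_right,
    (Finset.card_union_le _ _).trans (by omega), fun _ => Iff.rfl, tlt,
    fun e e' k1 k2 k3 k4 k => by rw [← htm e k1 k2, k, htm e' k3 k4],
    fun e k1 k2 k3 n1 n2 _ => ?_, fun a b c e ha hb hc' he hab hbc hce p q hp hq => ?_⟩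
  · have k0 : (T₀.σ e).fst ∈ A := by rwa [Pl.Tr.σ_fst]
    have h1 := htm e k1 k2
    have ai : ∀ x, ρ (ρ⁻¹ x) = x := fun x => ρ.apply_symm_apply x
    cases hs : ((ρ ^ tm e) x₁).1.2
    · right
      refine step _ e k1 k2 (tlt _) ?_ n1
      have h2 : (ρ⁻¹ ((ρ ^ tm e) x₁)).1 = (T₀.σ e, false) := by
        apply (ps T₀.σ tw (kE A R)ᶜ).injective
        rw [← hv, ai, ps_pos (R := (kE A R)ᶜ) (x := (T₀.σ e, false)) (nk _ k3),
          rot_eq]
        exact Prod.ext (by simp [h1]) hs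
      have h3 := vcut_uniq cut (x := ρ⁻¹ ((ρ ^ tm e) x₁)) (y := (ρ ^ tm (T₀.σ e)) x₁)
        (by rw [h2]; exact nk _ k3) (by rw [h2, htm _ k0 k3])
      rw [h3, ai, h1]
    · left
      refine step _ _ k0 k3 (tlt _) ?_ n2
      rw [hv, ps_pos (R := (kE A R)ᶜ) (by rw [h1]; exact nk e k2), rot_eq, hs, h1]
      rfl
  · by_contra hno
    have a2 := hp _ p.start_mem_support
    have c2 := hp _ p.end_mem_support
    have b2 := hq _ q.start_mem_support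
    have e2 := hq _ q.end_mem_support
    have no : ∀ {u v : U} (p : H.Walk u v), (∀ z ∈ p.support, z ∉ A) →
        none ∉ qA A '' {z | z ∈ p.support} := fun p hp ⟨z, hz, k⟩ => by
      rw [qA_neg (hp z hz)] at k
      cases k
    refine map_nc rot (cut.euler _ hc) (vcut_conn cut _) (e₁ := x₁) hx₁ hab hbc hce (tlt e)
      (S₁ := qA A '' {z | z ∈ p.support}) (S₂ := qA A '' {z | z ∈ q.support})
      (Set.disjoint_left.2 ?_) (no p hp) (no q hq) ?_ ?_ ?_ ?_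
    · rintro _ ⟨z, hz, rfl⟩ ⟨z', hz', k⟩
      rw [qA_neg (hp z hz), qA_neg (hq z' hz')] at k
      have k1 : z' = z := congrArg Subtype.val (Option.some.inj k)
      exact hno ⟨z, hz, k1 ▸ hz'⟩
    · rw [sn a ha a2]
      exact ⟨_, p.start_mem_support, rfl⟩
    · rw [sn b hb b2]
      exact ⟨_, q.start_mem_support, rfl⟩
    · rw [sn a ha a2, sn c hc' c2]
      exact vcut_walk cut _ p fun z hz => ⟨hp z hz, z, hz, rfl⟩
    · rw [sn b hb b2, sn e he e2]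
      exact vcut_walk cut _ q fun z hz => ⟨hq z hz, z, hz, rfl⟩

end Vale.Agent.P235.Vx
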