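import Vale.Agent.P235V.VDef
import Vale.Agent.P235G.NMain
import Vale.Agent.P235Q.Asm

/-! One linear vortex after the removal of geodesics: the interface. -/

namespace Vale.Agent.P235.Vx

/-- No two disjoint walks join crossing pairs of the society. -/
def NoX {V : Type} (Γ : SimpleGraph V) (Ω : Set V) (t : V → ℕ) : Prop :=
  ∀ a ∈ Ω, ∀ b ∈ Ω, ∀ c ∈ Ω, ∀ e ∈ Ω, t a < t b → t b < t c → t c < t e →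
    ∀ (p : Γ.Walk a c) (q : Γ.Walk b e), ∃ z, z ∈ p.support ∧ z ∈ q.support

/-- The data: `B` is a union of geodesics, `Γ` the surface part without `B`, `Y` the bags. -/
structure VD {V : Type} (G : SimpleGraph V) (ℓ : Sym2 V → ℝ) (d : V → V → ℝ) (q K : ℕ) (C : ℝ)
    (Γ : SimpleGraph V) (B Ω S : Set V) (N : ℕ) (Y : ℕ → Finset V) (t : V → ℕ) (v₀ : V) :
    Prop where
  le : Γ ≤ G
  edge : ∀ x y, G.Adj x y → x ∈ B ∨ y ∈ B ∨ Γ.Adj x y ∨ ∃ i < N, x ∈ Y i ∧ y ∈ Y i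
  pos : 0 < N
  card : ∀ i, (Y i).card ≤ K + 1
  int : ∀ v i j l, i ≤ j → j ≤ l → l < N → v ∈ Y i → v ∈ Y l → v ∈ Y j
  com : ∀ i, v₀ ∈ Y i
  soc : ∀ x y i, Γ.Adj x y → i < N → x ∈ Y i → x ∈ Ω
  tm : ∀ x ∈ Ω, t x < N ∧ x ∈ Y (t x)
  inj : Set.InjOn t Ω
  nc : NoX Γ Ω t
  geo : ∃ P : Finset (Set V × V), P.card ≤ q ∧ (∀ a ∈ B, ∃ p ∈ P, a ∈ p.1) ∧
    ∀ p ∈ P, ∀ a ∈ p.1, ∀ b ∈ p.1, d a b ≤ |d a p.2 - d b p.2|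
  inS : ∀ x y, Γ.Adj x y → x ∈ S
  offS : ∀ x, x ∉ S → ∃ i < N, x ∈ Y i
  emb : ∀ M : ℝ, 0 < M → ∃ d₀ : V → V → ℝ, EmbedsL1 d₀ C ∧
    (∀ x y, Γ.Adj x y → d₀ x y ≤ ℓ s(x, y)) ∧
    ∀ f : V → ℝ, (∀ x, 0 ≤ f x ∧ f x ≤ M) → (∀ x, x ∉ S → f x = 0) →
      (∀ x y, Γ.Adj x y → f x ≤ f y + ℓ s(x, y)) → ∀ x y, f x ≤ f y + d₀ x y

end Vale.Agent.P235.Vx
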