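import Vale.Agent.P235V.VD

/-! Planar maps: two disjoint connected sets cannot join crossing pairs of darts at a vertex.
Proof: choose a tree `T : Gn.Tr G` rooted at `r` with `T.σ = σ` that contains the darts `σ^a e₁`, `σ^b e₁`, a subtree of `S₁` below
`(σ^a e₁).snd` containing `(σ^c e₁).snd` and a subtree of `S₂` below `(σ^b e₁).snd` containing `(σ^e e₁).snd` (height = number of steps
inside `S₁`, `S₂`; the other vertices: large constant + number of steps to `S₁ ∪ S₂ ∪ {r}`, from `hc`). If `(σ^c e₁).snd = (σ^a e₁).snd` nothing changes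
(the dart `σ^c e₁` is still a chord because `σ^c e₁ ≠ σ^a e₁`). `Tr.exists_ct` with `dt 1 = e₁` (redo it or shift), `Ct.nc`. The darts at `r` appear on the contour in
`σ`-order, and between the times of `σ^a e₁` and `σ^(a+1) e₁` the contour visits exactly the darts at the vertices below `(σ^a e₁).snd`
(or: parity functions, `Tr.exists_g`, `Ct.run`), so the chords of `σ^c e₁` and `σ^e e₁` cross. -/

namespace Vale.Agent.P235.Vx

open Gn

/-- Connection inside a set. -/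
def Rch {V : Type} (G : Mp V) (S : Set V) : V → V → Prop :=
  Relation.ReflTransGen fun a b => ∃ e : G.Dart, e.fst = a ∧ e.snd = b ∧ b ∈ S

section
variable {V : Type} [Finite V] {G : Mp V}

theorem vnc_col (T : Tr G) {e₀ : G.Dart} (h0 : e₀.fst = T.r)
    (hE : Nat.card G.Ed + 2 ≤ Nat.card V + cyc (T.σ * G.revP)) {z : G.Dart → ZMod 2}
    (hz : ∀ e, z e.symm = z e) : ∃ g : G.Dart → ZMod 2, (∀ e, g (T.σ e.symm) = g e) ∧
      ∀ e, ¬ T.IsT e → e.symm ≠ e → g e + g e.symm = z e := by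
  classical
  have := Fintype.ofFinite V
  let F := Quotient (Equiv.Perm.SameCycle.setoid (T.σ * G.revP))
  have := Fintype.ofFinite F
  have := Fintype.ofFinite T.NT
  let fc : G.Dart → F := Quotient.mk _
  have hfc : ∀ e : G.Dart, fc (T.σ e.symm) = fc e := fun e =>
    (Quotient.sound (s := Equiv.Perm.SameCycle.setoid (T.σ * G.revP)) ⟨-1, by
      rw [zpow_neg, zpow_one, Equiv.Perm.inv_eq_iff_eq]; rfl⟩)
  have hp : ∀ e, T.IsT e → fc (T.τ e) = fc e := fun e he => by rw [Tr.τ_pos he, hfc]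
  have hn : ∀ e, ¬ T.IsT e → fc (T.τ e) = fc e.symm := fun e he => by
    rw [Tr.τ_neg he, ← hfc e.symm, Mp.Dart.symm_symm]
  have hc : ∀ a : T.NT, ∃ e : G.Dart, a.1 = e.edge := fun a => a.2.imp fun _ h => h.2
  choose c hc using hc
  let ev : F → (F → ZMod 2) →ₗ[ZMod 2] ZMod 2 := fun x => LinearMap.proj x
  let δ : (F → ZMod 2) →ₗ[ZMod 2] (T.NT → ZMod 2) :=
    LinearMap.pi fun a => ev (fc (c a)) + ev (fc (c a).symm)
  have hδ : ∀ k e (he : ¬ T.IsT e ∧ e.symm ≠ e), δ k ⟨e.edge, e, he, rfl⟩ = k (fc e) + k (fc e.symm) := by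
    intro k e he
    have h2 : δ k ⟨e.edge, e, he, rfl⟩ =
        k (fc (c ⟨e.edge, e, he, rfl⟩)) + k (fc (c ⟨e.edge, e, he, rfl⟩).symm) := rfl
    rcases (G.edge_eq_iff _ _).1 (hc ⟨e.edge, e, he, rfl⟩).symm with h | h
    · rw [h2, h]
    · rw [h2, h, Mp.Dart.symm_symm, add_comm]
  have z0 : ∀ a b : ZMod 2, a + b = 0 → b = a := by decide
  have hk : Module.finrank (ZMod 2) (LinearMap.ker δ) ≤ 1 := by
    refine (LinearMap.finrank_le_finrank_of_injective
      (f := (ev (fc e₀)).comp (LinearMap.ker δ).subtype) ?_).trans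
      (Module.finrank_self _).le
    refine (injective_iff_map_eq_zero _).2 fun k hk => Subtype.ext (funext fun x => ?_)
    obtain ⟨e, rfl⟩ := Quotient.exists_rep x
    refine (T.const (Z := fun e e' => k.1 (fc e) = k.1 (fc e'))
      ⟨fun _ => rfl, Eq.symm, Eq.trans⟩ h0 (fun e => ?_) e e₀).trans hk
    by_cases he : T.IsT e
    · rw [hp e he]
    · by_cases hl : e.symm = e
      · rw [hn e he, hl]
      have h2 := hδ k.1 e ⟨he, hl⟩
      rw [LinearMap.mem_ker.1 k.2] at h2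
      rw [hn e he, z0 _ _ h2.symm]
  have h2 := δ.finrank_range_add_finrank_ker
  have h3 := T.card_nt
  have h4 : cyc (T.σ * G.revP) = Fintype.card F := Nat.card_eq_fintype_card
  have h5 := (LinearMap.range δ).finrank_le
  have h6 : Module.finrank (ZMod 2) (T.NT → ZMod 2) = Nat.card T.NT := by
    rw [Module.finrank_fintype_fun_eq_card, Nat.card_eq_fintype_card]
  rw [Module.finrank_fintype_fun_eq_card] at h2
  have h7 : LinearMap.range δ = ⊤ := Submodule.eq_top_of_finrank_eq (by omega)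
  obtain ⟨k, hk⟩ := LinearMap.range_eq_top.1 h7 fun a => z (c a)
  refine ⟨fun e => k (fc e), fun e => congrArg k (hfc e), fun e h1 h2 => ?_⟩
  rw [← hδ k e ⟨h1, h2⟩, hk]
  rcases (G.edge_eq_iff _ _).1 (hc ⟨e.edge, e, ⟨h1, h2⟩, rfl⟩).symm with h | h
  · exact congrArg z h
  · exact (congrArg z h).trans (hz e)

open Classical in
/-- The boundary. -/
noncomputable def vnc_bd (z : G.Dart → ZMod 2) (v : V) : ZMod 2 :=
  ∑ᶠ e, if e.fst = v then z e else 0

open Classical in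
theorem vnc_bd_eq [Fintype G.Dart] (z : G.Dart → ZMod 2) (v : V) :
    vnc_bd z v = ∑ e, if e.fst = v then z e else 0 := finsum_eq_sum_of_fintype _

theorem vnc_bd_add (z z' : G.Dart → ZMod 2) (v : V) :
    vnc_bd (z + z') v = vnc_bd z v + vnc_bd z' v := by
  have := Fintype.ofFinite G.Dart
  rw [vnc_bd_eq, vnc_bd_eq, vnc_bd_eq, ← Finset.sum_add_distrib]
  refine Finset.sum_congr rfl fun e _ => ?_
  split_ifs <;> simp

theorem vnc_cyc (T : Tr G) {e₀ : G.Dart} (h0 : e₀.fst = T.r)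
    (hE : Nat.card G.Ed + 2 ≤ Nat.card V + cyc (T.σ * G.revP)) {z : G.Dart → ZMod 2}
    (hz : ∀ e, z e.symm = z e) (hl : ∀ e, e.symm = e → z e = 0) (hb : ∀ v, vnc_bd z v = 0) :
    ∃ g : G.Dart → ZMod 2, (∀ e, g (T.σ e) = g e.symm) ∧ ∀ e, g e.symm = g e + z e := by
  classical
  have := Fintype.ofFinite G.Dart
  obtain ⟨g, g1, g2⟩ := vnc_col T h0 hE hz
  have g3 : ∀ e, g (T.σ e) = g e.symm := fun e => by rw [← g1 e.symm, Mp.Dart.symm_symm]
  have y0 : ∀ a : ZMod 2, a + a = 0 := by decide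
  have y1 : ∀ a b c : ZMod 2, a + b + c = 0 → b = a + c := by decide
  let w : G.Dart → ZMod 2 := g + (fun e => g e.symm) + z
  have w0 : ∀ e, w e = g e + g e.symm + z e := fun _ => rfl
  have w1 : ∀ e, w e.symm = w e := fun e => by
    rw [w0, w0, Mp.Dart.symm_symm, hz, add_comm (g e)]
  have w2 : ∀ e, ¬ T.IsT e → w e = 0 := fun e he => by
    by_cases k : e.symm = e
    · rw [w0, k, hl e k, y0, add_zero]
    · rw [w0, g2 e he k, y0]
  have w3 : ∀ v, vnc_bd w v = 0 := fun v => by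
    have : vnc_bd (fun e => g e.symm) v = vnc_bd g v := by
      rw [vnc_bd_eq, vnc_bd_eq, ← Equiv.sum_comp T.σ fun e : G.Dart => if e.fst = v then g e else 0]
      simp only [Tr.σ_fst, g3]
    rw [vnc_bd_add, vnc_bd_add, this, y0, hb, add_zero]
  have w4 : ∀ u, u ≠ T.r → w (T.pd u) = 0 := fun u => by
    induction u using T.ind_down with
    | h1 u ih =>
    intro hu
    have := w3 u
    rw [vnc_bd_eq, Finset.sum_eq_single (T.pd u) (fun e _ hne => ?_) (by simp),
      if_pos (T.pd_fst u hu)] at this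
    · exact this
    · split_ifs with k
      · by_cases hT : T.IsT e
        · rcases hT with hd | hd
          · exact absurd (hd.2.trans (congrArg _ k)) hne
          · rw [← w1, hd.2]
            exact ih _ hd.1 (hd.par'.symm.trans k) hd.1
        · exact w2 e hT
      · rfl
  refine ⟨g, g3, fun e => y1 _ _ _ ?_⟩
  rw [← w0]
  by_cases hT : T.IsT e
  · rcases hT with hd | hd
    · rw [hd.2]
      exact w4 _ hd.1
    · rw [← w1, hd.2]
      exact w4 _ hd.1
  · exact w2 e hT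

/-- Walks of length `n` to `r`. -/
def vnc_P (G : Mp V) (r : V) : ℕ → V → Prop
  | 0, v => v = r
  | n + 1, v => ∃ e : G.Dart, e.fst = v ∧ vnc_P G r n e.snd

omit [Finite V] in
theorem vnc_tr {σ : Equiv.Perm G.Dart} (hσ : G.Rot σ) {r : V} (hc : ∀ v, Rch G Set.univ v r)
    [Nonempty G.Dart] : ∃ T : Tr G, T.σ = σ ∧ T.r = r := by
  classical
  have h1 : ∀ v, ∃ n, vnc_P G r n v := fun v => by
    induction hc v using Relation.ReflTransGen.head_induction_on with
    | refl => exact ⟨0, rfl⟩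
    | head h _ ih =>
      obtain ⟨e, k1, k2, -⟩ := h
      obtain ⟨n, hn⟩ := ih
      exact ⟨n + 1, e, k1, k2 ▸ hn⟩
  have h2 : ∀ v, v ≠ r → ∃ e : G.Dart, e.fst = v ∧
      (Nat.find (h1 e.snd) : ℝ) < Nat.find (h1 v) := fun v hv => by
    have k := Nat.find_spec (h1 v)
    rcases hn : Nat.find (h1 v) with _ | n
    · exact absurd (by rwa [hn] at k) hv
    · rw [hn] at k
      obtain ⟨e, k1, k2⟩ := k
      exact ⟨e, k1, by exact_mod_cast Nat.lt_succ_of_le (Nat.find_min' _ k2)⟩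
  choose! pd p1 p2 using h2
  exact ⟨⟨σ, hσ, r, pd, fun v => Nat.find (h1 v), p1, p2⟩, rfl, rfl⟩

open Classical in
/-- The indicator of an edge. -/
noncomputable def vnc_i (x e : G.Dart) : ZMod 2 :=
  (if e = x then 1 else 0) + if e = x.symm then 1 else 0

omit [Finite V] in
theorem vnc_i_symm (x e : G.Dart) : vnc_i x e.symm = vnc_i x e := by
  have h1 : e.symm = x ↔ e = x.symm := ⟨fun k => by rw [← k, Mp.Dart.symm_symm],
    fun k => by rw [k, Mp.Dart.symm_symm]⟩
  have h2 : e.symm = x.symm ↔ e = x := ⟨fun k => by rw [← e.symm_symm, k, Mp.Dart.symm_symm],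
    fun k => by rw [k]⟩
  rw [vnc_i, vnc_i, propext h1, propext h2, add_comm]

omit [Finite V] in
theorem vnc_i_leg (x e : G.Dart) (h : e.symm = e) : vnc_i x e = 0 := by
  have h1 : e = x.symm ↔ e = x := ⟨fun k => by rw [← h, k, Mp.Dart.symm_symm],
    fun k => by rw [← k, h]⟩
  rw [vnc_i, propext h1]
  split_ifs <;> decide

omit [Finite V] in
theorem vnc_i_zero {x e : G.Dart} (h1 : e.fst ≠ x.fst) (h2 : e.fst ≠ x.snd) : vnc_i x e = 0 := by
  rw [vnc_i, if_neg fun k => h1 (congrArg _ k), if_neg fun k => h2 (congrArg _ k), add_zero]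

open Classical in
theorem vnc_i_bd (x : G.Dart) (v : V) :
    vnc_bd (vnc_i x) v = (if x.fst = v then 1 else 0) + if x.snd = v then 1 else 0 := by
  have := Fintype.ofFinite G.Dart
  have h : ∀ y : G.Dart, vnc_bd (fun e => if e = y then 1 else 0) v = if y.fst = v then 1 else 0 :=
    fun y => by
      rw [vnc_bd_eq, Finset.sum_eq_single y (fun e _ k => by simp [k]) (by simp)]
      simp
  exact (vnc_bd_add (fun e => if e = x then 1 else 0) (fun e => if e = x.symm then 1 else 0) v).trans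
    (by rw [h, h]; rfl)

open Classical in
theorem vnc_path {S : Set V} {a b : V} (ha : a ∈ S) (p : Rch G S a b) :
    b ∈ S ∧ ∃ z : G.Dart → ZMod 2, (∀ e, z e.symm = z e) ∧ (∀ e, e.symm = e → z e = 0) ∧
      (∀ e, e.fst ∉ S → z e = 0) ∧
      ∀ v, vnc_bd z v = (if a = v then 1 else 0) + if b = v then 1 else 0 := by
  induction p with
  | refl =>
    refine ⟨ha, 0, fun _ => rfl, fun _ _ => rfl, fun _ _ => rfl, fun v => ?_⟩
    have : vnc_bd (0 : G.Dart → ZMod 2) v = 0 := by simp [vnc_bd]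
    rw [this]
    split_ifs <;> decide
  | tail _ h ih =>
    obtain ⟨x, rfl, rfl, hx⟩ := h
    obtain ⟨hb, z, z1, z2, z3, z4⟩ := ih
    refine ⟨hx, z + vnc_i x, fun e => ?_, fun e he => ?_, fun e he => ?_, fun v => ?_⟩
    · rw [Pi.add_apply, Pi.add_apply, z1, vnc_i_symm]
    · rw [Pi.add_apply, z2 e he, vnc_i_leg x e he, add_zero]
    · rw [Pi.add_apply, z3 e he, vnc_i_zero (fun k => he (by rw [k]; exact hb))
        fun k => he (by rw [k]; exact hx), add_zero]
    · rw [vnc_bd_add, z4, vnc_i_bd]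
      split_ifs <;> decide

end

theorem map_nc {V : Type} [Finite V] {G : Mp V} {σ : Equiv.Perm G.Dart} (hσ : G.Rot σ)
    (hE : Nat.card G.Ed + 2 ≤ Nat.card V + cyc (σ * G.revP)) {r : V}
    (hc : ∀ v, Rch G Set.univ v r) {e₁ : G.Dart} (h₁ : e₁.fst = r) {a b c e : ℕ} (hab : a < b)
    (hbc : b < c) (hce : c < e) (he : e < Function.minimalPeriod σ e₁) {S₁ S₂ : Set V}
    (hS : Disjoint S₁ S₂) (r₁ : r ∉ S₁) (r₂ : r ∉ S₂) (ha : ((σ ^ a) e₁).snd ∈ S₁)
    (hb : ((σ ^ b) e₁).snd ∈ S₂) (p : Rch G S₁ ((σ ^ a) e₁).snd ((σ ^ c) e₁).snd)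
    (q : Rch G S₂ ((σ ^ b) e₁).snd ((σ ^ e) e₁).snd) : False := by
  classical
  have : Nonempty G.Dart := ⟨e₁⟩
  obtain ⟨T, rfl, rfl⟩ := vnc_tr hσ hc
  have hf : ∀ i : ℕ, ((T.σ ^ i) e₁).fst = T.r := fun i =>
    ((T.rot e₁ _).1 ⟨i, by rw [zpow_natCast]⟩).symm.trans h₁
  obtain ⟨hc₁, z, z1, z2, z3, z4⟩ := vnc_path ha p
  let y : G.Dart → ZMod 2 := z + vnc_i ((T.σ ^ a) e₁) + vnc_i ((T.σ ^ c) e₁)
  have y0 : ∀ x, y x = z x + vnc_i ((T.σ ^ a) e₁) x + vnc_i ((T.σ ^ c) e₁) x := fun _ => rfl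
  obtain ⟨g, g1, g2⟩ := vnc_cyc T h₁ hE (z := y)
    (fun x => by rw [y0, y0, z1, vnc_i_symm, vnc_i_symm])
    (fun x hx => by rw [y0, z2 x hx, vnc_i_leg _ x hx, vnc_i_leg _ x hx, add_zero, add_zero])
    fun v => by
      rw [vnc_bd_add, vnc_bd_add, z4, vnc_i_bd, vnc_i_bd, hf, hf]
      split_ifs <;> decide
  have ys : ∀ x : G.Dart, y x.symm = y x := fun x => by rw [y0, y0, z1, vnc_i_symm, vnc_i_symm]
  have y1 : ∀ x : G.Dart, x.fst ∈ S₂ → y x = 0 := fun x hx => by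
    have k : ∀ v ∈ S₁, x.fst ≠ v := fun v hv k => Set.disjoint_left.1 hS hv (k ▸ hx)
    have k' : ∀ i : ℕ, x.fst ≠ ((T.σ ^ i) e₁).fst := fun i k' => r₂ (hf i ▸ k' ▸ hx)
    rw [y0, z3 x fun k1 => k _ k1 rfl, vnc_i_zero (k' a) (k _ ha), vnc_i_zero (k' c) (k _ hc₁),
      add_zero, add_zero]
  have c1 : ∀ x x' : G.Dart, x.fst ∈ S₂ → x.fst = x'.fst → g x = g x' := fun x x' hx k =>
    cyc_rel T.σ (Z := fun x x' => g x = g x') ⟨fun _ => rfl, Eq.symm, Eq.trans⟩ x
      (fun w hw _ => by rw [g1, g2, y1 w ((T.rot _ _).1 hw ▸ hx), add_zero])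
      (Equiv.Perm.SameCycle.refl _ _) ((T.rot _ _).2 k)
  have c2 : ∀ v, Rch G S₂ ((T.σ ^ b) e₁).snd v → v ∈ S₂ ∧
      ∀ x : G.Dart, x.fst = v → g x = g ((T.σ ^ b) e₁).symm := fun v hv => by
    induction hv with
    | refl => exact ⟨hb, fun x hx => c1 x _ (hx ▸ hb) hx⟩
    | tail _ h ih =>
      obtain ⟨w, rfl, rfl, hw⟩ := h
      refine ⟨hw, fun x hx => ?_⟩
      rw [c1 x w.symm (hx ▸ hw) hx, g2, y1 w ih.1, add_zero]
      exact ih.2 w rfl
  obtain ⟨k1, k2⟩ := c2 _ q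
  have c3 : g ((T.σ ^ e) e₁) = g ((T.σ ^ b) e₁) := by
    have k3 := k2 ((T.σ ^ e) e₁).symm rfl
    rwa [g2, g2, ← ys, ← ys ((T.σ ^ b) e₁), y1 _ k1, y1 _ hb, add_zero, add_zero] at k3
  have inj : ∀ i j : ℕ, i ≤ e → j ≤ e → (T.σ ^ i) e₁ = (T.σ ^ j) e₁ → i = j := fun i j hi hj k =>
    (Function.iterate_eq_iterate_iff_of_lt_minimalPeriod (hi.trans_lt he) (hj.trans_lt he)).1 k
  have c4 : ∀ i, b ≤ i → i ≤ e →
      g ((T.σ ^ i) e₁) = g ((T.σ ^ b) e₁) + if c < i then 1 else 0 := fun i hi => by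
    induction i, hi using Nat.le_induction with
    | base => exact fun _ => by rw [if_neg (by omega), add_zero]
    | succ i hi ih =>
      intro hi'
      have n1 : ∀ j : ℕ, ((T.σ ^ j) e₁).snd ∈ S₁ → (T.σ ^ i) e₁ ≠ ((T.σ ^ j) e₁).symm :=
        fun j hj k => r₁ (hf i ▸ k ▸ hj)
      rw [pow_succ', Equiv.Perm.mul_apply, g1, g2, ih (by omega), y0, z3 _ (hf i ▸ r₁), vnc_i, vnc_i,
        if_neg (n1 a ha), if_neg (n1 c hc₁),
        if_neg fun k => absurd (inj i a (by omega) (by omega) k) (by omega)]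
      by_cases k : i = c
      · rw [if_neg (by omega), if_pos (by rw [k]), if_pos (by omega)]
        simp
      · rw [if_neg fun k' => k (inj i c (by omega) (by omega) k')]
        by_cases k' : c < i
        · rw [if_pos k', if_pos (by omega)]
          simp
        · rw [if_neg k', if_neg (by omega)]
          simp
  have c5 := c4 e (by omega) le_rfl
  rw [c3, if_pos hce] at c5
  exact one_ne_zero (left_eq_add.1 c5)

end Vale.Agent.P235.Vx
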