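import Vale.Agent.P235V.VRet2

/-! The random retraction with connected fibres. -/

set_option linter.unusedSectionVars false

namespace Vale.Agent.P235.Vx

section

variable {V : Type} {Γ : SimpleGraph V} {ℓ : Sym2 V → ℝ} {d : V → V → ℝ} {h : V → ℝ} {Ω : Set V}
  {t : V → ℕ} {par rt : V → V} {z : V → ℤ} {R : ℤ → ℝ} {G : ℤ → SimpleGraph V}
  {bs nx : ℤ → V → V} {f : ℤ → V → ℝ} [Finite V] (H : RD Γ ℓ d h Ω t par rt)
include H

theorem RD.zn {α : ℝ} (h0 : 0 ≤ α) (h1 : α < 1) : ∃ G bs nx f,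
    ZN Γ ℓ h par (fun x => ⌊Real.logb 2 (h x) + α⌋) (fun i => 2 ^ (i + 1)) G bs nx f := by
  let G : ℤ → SimpleGraph V := fun i =>
    { Adj := fun x y => Γ.Adj x y ∧ (h x = 0 ∨ ⌊Real.logb 2 (h x) + α⌋ ≤ i) ∧
        (h y = 0 ∨ ⌊Real.logb 2 (h y) + α⌋ ≤ i) ∧ ℓ s(x, y) ≤ 2 ^ (i + 1)
      symm := ⟨fun x y k => ⟨k.1.symm, k.2.2.1, k.2.1, Sym2.eq_swap ▸ k.2.2.2⟩⟩
      loopless := ⟨fun x k => k.1.ne rfl⟩ }
  have ex := fun i => exists_sp (Γ := G i) (ℓ := ℓ) fun x y k => H.pos x y k.1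
  choose bs f nx hsp using ex
  have mono : ∀ x y, 0 < h x → h x ≤ h y →
      ⌊Real.logb 2 (h x) + α⌋ ≤ ⌊Real.logb 2 (h y) + α⌋ := fun x y k e =>
    Int.floor_mono (add_le_add_left (Real.logb_le_logb_of_le one_lt_two k e) _)
  refine ⟨G, bs, nx, f, fun i => by positivity, fun i j k => ?_, fun x k => ?_, mono,
    fun i => ⟨fun _ _ => Iff.rfl, fun x k => ?_, fun x k hx => ?_⟩, hsp⟩
  · rw [mul_comm, ← zpow_add_one₀ two_ne_zero]
    exact zpow_le_zpow_right₀ one_le_two (by omega)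
  · have h2 : ((⌊Real.logb 2 (h x) + α⌋ - 1 : ℤ) : ℝ) < Real.logb 2 (h x) := by
      push_cast
      linarith [Int.floor_le (Real.logb 2 (h x) + α)]
    rw [Real.lt_logb_iff_rpow_lt one_lt_two k, Real.rpow_intCast,
      zpow_sub_one₀ two_ne_zero] at h2
    simp only [zpow_add_one₀ (two_ne_zero' ℝ)]
    linarith
  · rcases (H.nn x).eq_or_lt with e | e
    · rw [← e]; positivity
    have h2 : Real.logb 2 (h x) < ((i + 1 : ℤ) : ℝ) := by
      have : ((⌊Real.logb 2 (h x) + α⌋ : ℤ) : ℝ) ≤ i := by exact_mod_cast k.resolve_left e.ne'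
      push_cast
      linarith [Int.lt_floor_add_one (Real.logb 2 (h x) + α)]
    rwa [Real.logb_lt_iff_lt_rpow one_lt_two e, Real.rpow_intCast] at h2
  · rcases (H.nn (par x)).eq_or_lt with e | e
    · exact .inl e.symm
    · exact .inr ((mono _ _ e (by linarith [(H.pa x hx).2, H.pos _ _ (H.pa x hx).1])).trans
        (k.resolve_left hx.ne'))

theorem RD.band (Z : ZN Γ ℓ h par z R G bs nx f) {N : ℕ} (hN : 0 < N) {π : Fin N → V → V}
    (hπ : ∀ (b : Fin N) x y, 0 < h x → y ∈ cls h z R f ((b : ℕ) / (N : ℝ)) G x → π b y = π b x)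
    {x y : V} (a : Γ.Adj x y) (hx : ℓ s(x, y) < h x) (hy : h x ≤ h y) (e : z y = z x) {M : ℝ}
    (hM : ∀ b, d (π b x) (π b y) ≤ M) (M0 : 0 ≤ M) :
    ∑ b, d (π b x) (π b y) ≤ M * (N * (ℓ s(x, y) / h x) + 1) := by
  have l0 := H.pos x y a
  have h0 : 0 < h x := l0.trans hx
  have h1 := (Z.lv (z x)).lt x (.inr le_rfl)
  have a' : (G (z x)).Adj x y := ((Z.lv _).adj _ _).2 ⟨a, .inr le_rfl, .inr e.le, by linarith⟩
  have h2 := vret_floor hN ((f (z x) x + h x) / (2 * R (z x))) ((f (z x) y + h y) / (2 * R (z x)))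
  have h3 : |(f (z x) x + h x) / (2 * R (z x)) - (f (z x) y + h y) / (2 * R (z x))| ≤
      ℓ s(x, y) / h x := by
    have k1 := (Z.sp _).lip _ _ a'
    have k2 := (Z.sp _).lip _ _ a'.symm
    have k3 := H.lip _ _ a.symm
    rw [Sym2.eq_swap] at k2 k3
    rw [← sub_div, abs_div, abs_of_pos (show 0 < 2 * R (z x) by linarith),
      ← mul_div_mul_left _ (h x) two_ne_zero]
    exact div_le_div₀ (by linarith) (abs_le.2 ⟨by linarith, by linarith⟩) (by linarith)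
      (by linarith)
  refine le_trans ?_ (mul_le_mul_of_nonneg_left
    (h2.trans (add_le_add_left (mul_le_mul_of_nonneg_left h3 N.cast_nonneg) _)) M0)
  rw [Finset.mul_sum]
  refine Finset.sum_le_sum fun b _ => ?_
  split_ifs with c
  · rw [hπ b x y h0 (.single ⟨a', ⟨h0, rfl, rfl⟩, h0.trans_le hy, e, c.symm⟩), H.self, mul_zero]
  · rw [mul_one]; exact hM b

end

theorem ret : ∃ c β : ℝ, 0 ≤ c ∧ 0 ≤ β ∧ ∀ (V : Type) [Fintype V] (Γ : SimpleGraph V)
    (ℓ : Sym2 V → ℝ) (d : V → V → ℝ) (h : V → ℝ) (Ω : Set V) (t : V → ℕ),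
    (∀ x y, Γ.Adj x y → 0 < ℓ s(x, y)) → (∀ x, d x x = 0) → (∀ x y, d x y = d y x) →
    (∀ x y z, d x z ≤ d x y + d y z) → (∀ x y, Γ.Adj x y → d x y ≤ ℓ s(x, y)) →
    (∀ x, 0 ≤ h x) → (∀ x y, Γ.Adj x y → h x ≤ h y + ℓ s(x, y)) →
    (∀ x, 0 < h x → ∃ y, Γ.Adj x y ∧ h x = ℓ s(x, y) + h y) →
    (∀ x y, Γ.Adj x y → h x = 0 → x ∈ Ω) → Set.InjOn t Ω → NoX Γ Ω t →
    ∃ (ι : Type) (_ : Fintype ι) (_ : Nonempty ι) (π : ι → V → V),
      (∀ ω x, h (π ω x) = 0 ∧ d x (π ω x) ≤ c * h x) ∧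
      (∀ ω x, ∃ p : Γ.Walk x (π ω x), ∀ z ∈ p.support, π ω z = π ω x) ∧
      ∀ x y, Γ.Adj x y → ∑ ω, d (π ω x) (π ω y) ≤ Fintype.card ι * (β * ℓ s(x, y)) := by
  refine ⟨544, 8165, by norm_num, by norm_num,
    fun V _ Γ ℓ d h Ω t pos self symm tri edge nn lip bell soc inj nc => ?_⟩
  classical
  have ex : ∀ x, ∃ y, 0 < h x → Γ.Adj x y ∧ h x = ℓ s(x, y) + h y := fun x => by
    by_cases k : 0 < h x
    exacts [(bell x k).imp fun _ e _ => e, ⟨x, fun e => absurd e k⟩]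
  choose par hpar using ex
  obtain ⟨rt, rt0, rt1, -⟩ := exists_fix h (fun x => 0 < h x) par fun x k => by
    linarith [(hpar x k).2, pos _ _ (hpar x k).1]
  have H : RD Γ ℓ d h Ω t par rt := ⟨pos, self, symm, tri, edge, nn, lip, hpar, soc, inj, nc,
    fun x k => rt0 x k.not_gt, rt1⟩
  obtain ⟨B, hB⟩ := (Set.finite_range fun p : V × V => h p.1 / ℓ s(p.1, p.2)).bddAbove
  obtain ⟨N, hN, hN'⟩ : ∃ N : ℕ, 0 < N ∧ B ≤ N :=
    ⟨⌈B⌉₊ + 1, Nat.succ_pos _, by push_cast; linarith [Nat.le_ceil B]⟩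
  have N0 : (0 : ℝ) < N := by exact_mod_cast hN
  have ez := fun a : Fin N => H.zn (α := (a : ℕ) / (N : ℝ)) (by positivity)
    ((div_lt_one N0).2 (by exact_mod_cast a.2))
  choose G bs nx f Z using ez
  have eπ := fun (a b : Fin N) => H.det (Z a) ((b : ℕ) / (N : ℝ))
  choose π π1 π2 π3 using eπ
  refine ⟨Fin N × Fin N, inferInstance, ⟨(⟨0, hN⟩, ⟨0, hN⟩)⟩, fun ω => π ω.1 ω.2,
    fun ω => π1 _ _, fun ω => π2 _ _, fun x y a => ?_⟩
  wlog hy : h x ≤ h y generalizing x y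
  · have := this y x a.symm (not_le.1 hy).le
    rw [Sym2.eq_swap] at this
    simpa only [symm (π _ _ y)] using this
  have l0 := pos x y a
  have k1 : ∀ i j, d (π i j x) (π i j y) ≤ 1088 * h x + 545 * ℓ s(x, y) := fun i j => by
    have k3 := lip _ _ a.symm
    rw [Sym2.eq_swap] at k3
    linarith [tri (π i j x) x (π i j y), tri x y (π i j y), symm (π i j x) x, (π1 i j x).2,
      (π1 i j y).2, edge x y a]
  by_cases hx : h x ≤ ℓ s(x, y)
  · rw [← nsmul_eq_mul, ← Finset.card_univ]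
    exact Finset.sum_le_card_nsmul _ _ _ fun ω _ => by linarith [k1 ω.1 ω.2]
  rw [not_le] at hx
  have h0 : 0 < h x := l0.trans hx
  have k2 : ∀ i : Fin N, ∑ j, d (π i j x) (π i j y) ≤ 1633 * h x * (N *
      (if ⌊Real.logb 2 (h x) + (i : ℕ) / (N : ℝ)⌋ = ⌊Real.logb 2 (h y) + (i : ℕ) / (N : ℝ)⌋
        then (0 : ℝ) else 1) + (N * (ℓ s(x, y) / h x) + 1)) := fun i => by
    have hM : ∀ j, d (π i j x) (π i j y) ≤ 1633 * h x := fun j => by linarith [k1 i j]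
    split_ifs with c
    · rw [mul_zero, zero_add]
      exact H.band (Z i) hN (π3 i) a hx hy c.symm hM (by positivity)
    · have := Finset.sum_le_card_nsmul Finset.univ _ _ fun j _ => hM j
      rw [Finset.card_univ, Fintype.card_fin, nsmul_eq_mul] at this
      refine this.trans ?_
      rw [mul_comm, mul_one]
      exact mul_le_mul_of_nonneg_left (le_add_of_nonneg_right (by positivity)) (by positivity)
  have k3 : |Real.logb 2 (h x) - Real.logb 2 (h y)| ≤ 2 * (ℓ s(x, y) / h x) := by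
    have e1 := lip _ _ a.symm
    rw [Sym2.eq_swap] at e1
    have e2 := Real.log_le_sub_one_of_pos (div_pos (h0.trans_le hy) h0)
    have e3 : h y / h x - 1 ≤ ℓ s(x, y) / h x := by
      rw [div_sub_one h0.ne']
      exact div_le_div_of_nonneg_right (by linarith) h0.le
    have e4 := Real.log_two_gt_d9
    have e5 : 0 < ℓ s(x, y) / h x := by positivity
    rw [abs_sub_comm, abs_of_nonneg (sub_nonneg.2 (Real.logb_le_logb_of_le one_lt_two h0 hy)),
      ← Real.logb_div (h0.trans_le hy).ne' h0.ne', Real.logb, div_le_iff₀ (by linarith)]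
    nlinarith
  have k4 := (vret_floor hN _ _).trans
    (add_le_add_left (mul_le_mul_of_nonneg_left k3 N0.le) _)
  have k5 : 1 ≤ N * (ℓ s(x, y) / h x) := by
    have := (div_le_iff₀ l0).1 ((hB ⟨(x, y), rfl⟩).trans hN')
    rwa [← mul_div_assoc, one_le_div h0]
  rw [Fintype.sum_prod_type, Fintype.card_prod, Fintype.card_fin]
  refine (Finset.sum_le_sum fun i _ => k2 i).trans ?_
  rw [← Finset.mul_sum, Finset.sum_add_distrib, ← Finset.mul_sum, Finset.sum_const,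
    Finset.card_univ, Fintype.card_fin, nsmul_eq_mul, ← mul_add]
  have k6 : ((N * N : ℕ) : ℝ) * (8165 * ℓ s(x, y)) =
      1633 * h x * (N * (5 * (N * (ℓ s(x, y) / h x)))) := by
    push_cast
    field_simp
    norm_num
  rw [k6]
  exact mul_le_mul_of_nonneg_left (mul_le_mul_of_nonneg_left (by linarith) N0.le) (by positivity)

end Vale.Agent.P235.Vx
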