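import Vale.Agent.P235V.VD

/-! Tools for the random retraction. -/

open Set

namespace Vale.Agent.P235.Vx

theorem vret_step (N : ℕ) (hN : 0 < N) (p : ℤ) :
    ∑ a : Fin N, (if (p + a) / (N : ℤ) = (p + 1 + a) / N then (0 : ℝ) else 1) ≤ 1 := by
  classical
  have h1 : ∀ a : Fin N, (p + a) / (N : ℤ) ≠ (p + 1 + a) / N → (N : ℤ) ∣ p + 1 + a := fun a h => by
    by_contra k
    have h2 := Int.emod_add_mul_ediv (p + 1 + a) N
    have h3 : (p + 1 + a) % N ≠ 0 := fun e => k (Int.dvd_of_emod_eq_zero e)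
    have h4 := Int.emod_nonneg (p + 1 + a) (show (N : ℤ) ≠ 0 by omega)
    have h5 := Int.emod_lt_of_pos (p + 1 + a) (show (0 : ℤ) < N by omega)
    refine h ((Int.ediv_emod_unique (show (0 : ℤ) < N by omega)).2
      ⟨(by linarith : (p + 1 + a) % N - 1 + N * ((p + 1 + a) / N) = p + a), by omega, by omega⟩).1
  rw [Finset.sum_ite, Finset.sum_const_zero, zero_add, Finset.sum_const, nsmul_eq_mul, mul_one]
  have : (Finset.univ.filter fun a : Fin N => ¬ (p + a) / (N : ℤ) = (p + 1 + a) / N).card ≤ 1 :=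
    Finset.card_le_one.2 fun a ha b hb => by
      have h2 := (h1 a (Finset.mem_filter.1 ha).2).sub (h1 b (Finset.mem_filter.1 hb).2)
      have h3 := Int.eq_zero_of_abs_lt_dvd h2 (abs_lt.2 ⟨by omega, by omega⟩)
      exact Fin.ext (by omega)
  exact_mod_cast this

theorem vret_int (N : ℕ) (hN : 0 < N) (p : ℤ) (n : ℕ) :
    ∑ a : Fin N, (if (p + a) / (N : ℤ) = (p + n + a) / N then (0 : ℝ) else 1) ≤ n := by
  induction n with
  | zero => simp
  | succ n ih =>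
    have h := vret_step N hN (p + n)
    push_cast
    refine le_trans ?_ (add_le_add ih h)
    rw [← Finset.sum_add_distrib]
    refine Finset.sum_le_sum fun a _ => ?_
    rw [← add_assoc]
    split_ifs <;> first | omega | norm_num

theorem vret_floor {N : ℕ} (hN : 0 < N) (u v : ℝ) :
    ∑ a : Fin N, (if ⌊u + (a : ℕ) / (N : ℝ)⌋ = ⌊v + (a : ℕ) / (N : ℝ)⌋ then (0 : ℝ) else 1) ≤
      N * |u - v| + 1 := by
  wlog h : u ≤ v generalizing u v
  · have := this v u (not_le.1 h).le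
    simpa only [eq_comm, abs_sub_comm] using this
  have hN' : (0 : ℝ) < N := by exact_mod_cast hN
  have e : ∀ (w : ℝ) (a : ℕ), ⌊w + a / (N : ℝ)⌋ = (⌊N * w⌋ + a) / (N : ℤ) := fun w a => by
    rw [← Int.floor_add_natCast, ← Int.floor_div_natCast]
    congr 1
    field_simp
  obtain ⟨n, hn⟩ := Int.eq_ofNat_of_zero_le
    (sub_nonneg.2 (Int.floor_mono (mul_le_mul_of_nonneg_left h hN'.le)))
  have h1 := vret_int N hN ⌊N * u⌋ n
  have h2 : ⌊N * u⌋ + n = ⌊N * v⌋ := by omega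
  simp only [e, ← h2]
  refine h1.trans ?_
  have h3 : ((⌊N * u⌋ : ℤ) : ℝ) + n = (⌊N * v⌋ : ℤ) := by exact_mod_cast h2
  rw [abs_sub_comm, abs_of_nonneg (sub_nonneg.2 h)]
  linarith [Int.floor_le (N * v), Int.lt_floor_add_one (N * u)]

variable {V : Type} {Γ : SimpleGraph V} {ℓ : Sym2 V → ℝ}

/-- Shortest paths to one base point in every component. -/
structure SP (Γ : SimpleGraph V) (ℓ : Sym2 V → ℝ) (bs : V → V) (f : V → ℝ) (nx : V → V) :
    Prop where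
  adj : ∀ x y, Γ.Adj x y → bs x = bs y
  nn : ∀ x, 0 ≤ f x
  zero : ∀ x, x = bs x → f x = 0
  lip : ∀ x y, Γ.Adj x y → f x ≤ f y + ℓ s(x, y)
  bell : ∀ x, x ≠ bs x → Γ.Adj x (nx x) ∧ f x = ℓ s(x, nx x) + f (nx x)

theorem exists_sp [Finite V] (hl : ∀ x y, Γ.Adj x y → 0 < ℓ s(x, y)) :
    ∃ bs f nx, SP Γ ℓ bs f nx := by
  have hl' : ∀ e ∈ Γ.edgeSet, 0 < ℓ e := fun e => Sym2.ind (fun x y => hl x y) e
  let bs : V → V := fun x => (Γ.connectedComponentMk x).out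
  have hb : ∀ x, Γ.Reachable x (bs x) := fun x =>
    SimpleGraph.ConnectedComponent.exact (Quot.out_eq _).symm
  have ha : ∀ x y, Γ.Adj x y → bs x = bs y := fun x y h =>
    congrArg Quot.out (SimpleGraph.ConnectedComponent.sound h.reachable)
  have low : ∀ x (c : ℝ), (∀ p : Γ.Walk x (bs x), c ≤ (p.edges.map ℓ).sum) →
      c ≤ spDist Γ ℓ x (bs x) := fun x c h =>
    le_csInf ⟨_, (hb x).some, rfl⟩ (by rintro _ ⟨p, rfl⟩; exact h p)
  have lip : ∀ x y, Γ.Adj x y → spDist Γ ℓ x (bs x) ≤ spDist Γ ℓ y (bs y) + ℓ s(x, y) :=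
    fun x y h => by
      have := low y (spDist Γ ℓ x (bs x) - ℓ s(x, y)) fun p => by
        have := spDist_le hl' (SimpleGraph.Walk.cons h p)
        rw [ha x y h]
        simp only [SimpleGraph.Walk.edges_cons, List.map_cons, List.sum_cons] at this
        linarith
      linarith
  have bell : ∀ x, ∃ y, x ≠ bs x → Γ.Adj x y ∧
      spDist Γ ℓ x (bs x) = ℓ s(x, y) + spDist Γ ℓ y (bs y) := fun x => by
    by_cases hx : x = bs x
    · exact ⟨x, fun h => absurd hx h⟩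
    have key : ∀ {b : V} (p : Γ.Walk x b), x ≠ b → ∃ (y : V) (q : Γ.Walk y b), Γ.Adj x y ∧
        (p.edges.map ℓ).sum = ℓ s(x, y) + (q.edges.map ℓ).sum := fun p hb => by
      cases p with
      | nil => exact absurd rfl hb
      | cons h q => exact ⟨_, q, h, by simp⟩
    obtain ⟨y₀, -, h₀, -⟩ := key (hb x).some hx
    obtain ⟨y, hy, hm⟩ := exists_min_image {y | Γ.Adj x y}
      (fun y => ℓ s(x, y) + spDist Γ ℓ y (bs y)) (toFinite _) ⟨y₀, h₀⟩
    refine ⟨y, fun _ => ⟨hy, le_antisymm (by linarith [lip x y hy]) (low x _ fun p => ?_)⟩⟩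
    obtain ⟨z, q, hz, e⟩ := key p hx
    have h1 := hm z hz
    have h2 := spDist_le hl' q
    rw [← ha x z hz] at h1
    linarith
  choose nx hnx using bell
  refine ⟨bs, fun x => spDist Γ ℓ x (bs x), nx, ha, fun x => low x 0 fun p => len_nonneg hl' p,
    fun x hx => le_antisymm ?_ (low x 0 fun p => len_nonneg hl' p), lip, hnx⟩
  have := spDist_le hl' (SimpleGraph.Walk.nil : Γ.Walk x x)
  rw [← hx]
  simpa using this

/-- Connection inside a set. -/
def Cn (Γ : SimpleGraph V) (S : Set V) : V → V → Prop :=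
  Relation.ReflTransGen fun a b => Γ.Adj a b ∧ a ∈ S ∧ b ∈ S

theorem Cn.symm {S : Set V} {x y : V} (h : Cn Γ S x y) : Cn Γ S y x := by
  induction h with
  | refl => exact .refl
  | tail _ k ih => exact .head ⟨k.1.symm, k.2.2, k.2.1⟩ ih

theorem Cn.mono {S S' : Set V} {x y : V} (h : Cn Γ S x y) (hS : S ⊆ S') : Cn Γ S' x y := by
  induction h with
  | refl => exact .refl
  | tail _ k ih => exact .tail ih ⟨k.1, hS k.2.1, hS k.2.2⟩

theorem Cn.walk {S : Set V} {x y : V} (h : Cn Γ S x y) (hy : y ∈ S) :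
    ∃ p : Γ.Walk x y, ∀ z ∈ p.support, z ∈ S := by
  induction h using Relation.ReflTransGen.head_induction_on with
  | refl => exact ⟨.nil, by simpa⟩
  | head k _ ih =>
    obtain ⟨p, hp⟩ := ih
    refine ⟨.cons k.1 p, fun z hz => ?_⟩
    rw [SimpleGraph.Walk.support_cons, List.mem_cons] at hz
    exact hz.elim (fun e => e ▸ k.2.1) (hp z)

/-- The pairs `a, c` and `b, e` are disjoint and do not cross. -/
def NCr (a c b e : ℕ) : Prop :=
  (a ≠ b ∧ a ≠ e ∧ c ≠ b ∧ c ≠ e) ∧ ¬(a < b ∧ b < c ∧ c < e) ∧ ¬(a < e ∧ e < c ∧ c < b) ∧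
    ¬(c < b ∧ b < a ∧ a < e) ∧ ¬(c < e ∧ e < a ∧ a < b) ∧ ¬(b < a ∧ a < e ∧ e < c) ∧
    ¬(b < c ∧ c < e ∧ e < a) ∧ ¬(e < a ∧ a < b ∧ b < c) ∧ ¬(e < c ∧ c < b ∧ b < a)

theorem ncr_two {a b p q : ℕ} (h1 : NCr a p b q) (h2 : NCr a q b p) :
    ¬((a < p ↔ p < b) ↔ (a < q ↔ q < b)) := by
  obtain ⟨⟨n1, n2, n3, n4⟩, a1, a2, a3, a4, a5, a6, a7, a8⟩ := h1
  obtain ⟨⟨-, n5, n6, -⟩, b1, b2, b3, b4, b5, b6, b7, b8⟩ := h2
  rcases lt_or_gt_of_ne n1 with c1 | c1 <;> rcases lt_or_gt_of_ne n2 with c2 | c2 <;>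
    rcases lt_or_gt_of_ne n3 with c3 | c3 <;> rcases lt_or_gt_of_ne n4 with c4 | c4 <;>
    rcases lt_or_gt_of_ne n5 with c5 | c5 <;> rcases lt_or_gt_of_ne n6 with c6 | c6 <;>
    simp_all [lt_asymm c1, lt_asymm c2, lt_asymm c3, lt_asymm c4, lt_asymm c5, lt_asymm c6] <;>
    omega

theorem ncr_three {a b p q r : ℕ} (h1 : NCr a p b q) (h2 : NCr a q b p) (h3 : NCr a p b r)
    (h4 : NCr a r b p) (h5 : NCr a q b r) (h6 : NCr a r b q) : False := by
  have k1 := ncr_two h1 h2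
  have k2 := ncr_two h3 h4
  have k3 := ncr_two h5 h6
  tauto

end Vale.Agent.P235.Vx
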