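import Vale.Agent.P235V.VRet0

/-! The forest of the heights and the diameter of the clusters. -/

open Set

set_option linter.unusedSectionVars false

namespace Vale.Agent.P235.Vx

variable {V : Type} {Γ : SimpleGraph V} {ℓ : Sym2 V → ℝ} {d : V → V → ℝ} {h : V → ℝ} {Ω : Set V}
  {t : V → ℕ} {par rt : V → V}

/-- The data of the retraction. -/
structure RD (Γ : SimpleGraph V) (ℓ : Sym2 V → ℝ) (d : V → V → ℝ) (h : V → ℝ) (Ω : Set V)
    (t : V → ℕ) (par rt : V → V) : Prop where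
  pos : ∀ x y, Γ.Adj x y → 0 < ℓ s(x, y)
  self : ∀ x, d x x = 0
  symm : ∀ x y, d x y = d y x
  tri : ∀ x y z, d x z ≤ d x y + d y z
  edge : ∀ x y, Γ.Adj x y → d x y ≤ ℓ s(x, y)
  nn : ∀ x, 0 ≤ h x
  lip : ∀ x y, Γ.Adj x y → h x ≤ h y + ℓ s(x, y)
  pa : ∀ x, 0 < h x → Γ.Adj x (par x) ∧ h x = ℓ s(x, par x) + h (par x)
  soc : ∀ x y, Γ.Adj x y → h x = 0 → x ∈ Ω
  inj : InjOn t Ω
  nc : NoX Γ Ω t
  rt0 : ∀ x, h x = 0 → rt x = x
  rt1 : ∀ x, 0 < h x → rt x = rt (par x)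

variable [Finite V] (H : RD Γ ℓ d h Ω t par rt)
include H

theorem RD.ind {p : V → Prop} (h0 : ∀ x, h x = 0 → p x) (h1 : ∀ x, 0 < h x → p (par x) → p x)
    (x : V) : p x := by
  have wf : WellFounded fun a b : V => h a < h b := Finite.wellFounded_of_trans_of_irrefl _
  induction x using wf.induction with
  | _ x ih =>
    rcases (H.nn x).eq_or_lt with k | k
    · exact h0 x k.symm
    · exact h1 x k (ih _ (by linarith [(H.pa x k).2, H.pos _ _ (H.pa x k).1]))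

theorem RD.rt_rt (x : V) : rt (rt x) = rt x :=
  H.ind (p := fun x => rt (rt x) = rt x) (fun x k => by rw [H.rt0 x k, H.rt0 x k])
    (fun x k ih => by rwa [H.rt1 x k]) x

theorem RD.rt_mem {x y : V} (k : Γ.Adj x y) : rt x ∈ Ω :=
  H.ind (p := fun x => ∀ y, Γ.Adj x y → rt x ∈ Ω) (fun x k y a => (H.rt0 x k).symm ▸ H.soc x y a k)
    (fun x k ih _ _ => (H.rt1 x k).symm ▸ ih x (H.pa x k).1.symm) x y k

theorem RD.rt_cn (x : V) : Cn Γ {w | rt w = rt x} x (rt x) :=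
  H.ind (p := fun x => Cn Γ {w | rt w = rt x} x (rt x)) (fun x k => by rw [H.rt0 x k]; exact .refl)
    (fun x k ih => .head ⟨(H.pa x k).1, rfl, (H.rt1 x k).symm⟩ (by rwa [H.rt1 x k])) x

theorem RD.rt_d (x : V) : d x (rt x) ≤ h x :=
  H.ind (p := fun x => d x (rt x) ≤ h x) (fun x k => by rw [H.rt0 x k, H.self, k])
    (fun x k ih => by
      rw [H.rt1 x k]
      linarith [H.tri x (par x) (rt (par x)), H.edge _ _ (H.pa x k).1, (H.pa x k).2]) x

theorem RD.nc1 {S₁ S₂ : Set V} (hd : ∀ z ∈ S₁, ∀ w ∈ S₂, rt z ≠ rt w) {a b c e : V} (ha : a ∈ S₁)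
    (hc : c ∈ S₁) (hb : b ∈ S₂) (he : e ∈ S₂) (p : Cn Γ S₁ a c) (q : Cn Γ S₂ b e)
    (a' : rt a ∈ Ω) (c' : rt c ∈ Ω) (b' : rt b ∈ Ω) (e' : rt e ∈ Ω) :
    ¬(t (rt a) < t (rt b) ∧ t (rt b) < t (rt c) ∧ t (rt c) < t (rt e)) := fun ⟨h1, h2, h3⟩ => by
  have key : ∀ {S : Set V} {a c : V}, a ∈ S → c ∈ S → Cn Γ S a c →
      ∃ p : Γ.Walk (rt a) (rt c), ∀ z ∈ p.support, z ∈ {w | ∃ z ∈ S, rt w = rt z} :=
    fun {S a c} ha hc p => by
      have k1 : Cn Γ {w | ∃ z ∈ S, rt w = rt z} (rt a) a :=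
        (H.rt_cn a).symm.mono fun w k => ⟨a, ha, k⟩
      have k2 : Cn Γ {w | ∃ z ∈ S, rt w = rt z} a c := p.mono fun w k => ⟨w, k, rfl⟩
      have k3 : Cn Γ {w | ∃ z ∈ S, rt w = rt z} c (rt c) :=
        (H.rt_cn c).mono fun w k => ⟨c, hc, k⟩
      exact Cn.walk ((k1.trans k2).trans k3) ⟨c, hc, H.rt_rt c⟩
  obtain ⟨p, hp⟩ := key ha hc p
  obtain ⟨q, hq⟩ := key hb he q
  obtain ⟨z, z1, z2⟩ := H.nc _ a' _ b' _ c' _ e' h1 h2 h3 p q
  obtain ⟨u, hu, e1⟩ := hp z z1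
  obtain ⟨w, hw, e2⟩ := hq z z2
  exact hd u hu w hw (e1.symm.trans e2)

theorem RD.ncr {S₁ S₂ : Set V} (hd : ∀ z ∈ S₁, ∀ w ∈ S₂, rt z ≠ rt w) {a b c e : V} (ha : a ∈ S₁)
    (hc : c ∈ S₁) (hb : b ∈ S₂) (he : e ∈ S₂) (p : Cn Γ S₁ a c) (q : Cn Γ S₂ b e)
    (a' : rt a ∈ Ω) (c' : rt c ∈ Ω) (b' : rt b ∈ Ω) (e' : rt e ∈ Ω) :
    NCr (t (rt a)) (t (rt c)) (t (rt b)) (t (rt e)) := by
  have hd' : ∀ z ∈ S₂, ∀ w ∈ S₁, rt z ≠ rt w := fun z hz w hw => (hd w hw z hz).symm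
  exact ⟨⟨fun k => hd a ha b hb (H.inj a' b' k), fun k => hd a ha e he (H.inj a' e' k),
    fun k => hd c hc b hb (H.inj c' b' k), fun k => hd c hc e he (H.inj c' e' k)⟩,
    H.nc1 hd ha hc hb he p q a' c' b' e', H.nc1 hd ha hc he hb p q.symm a' c' e' b',
    H.nc1 hd hc ha hb he p.symm q c' a' b' e', H.nc1 hd hc ha he hb p.symm q.symm c' a' e' b',
    H.nc1 hd' hb he ha hc q p b' e' a' c', H.nc1 hd' hb he hc ha q p.symm b' e' c' a',
    H.nc1 hd' he hb ha hc q.symm p e' b' a' c', H.nc1 hd' he hb hc ha q.symm p.symm e' b' c' a'⟩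

/-- One level: a set `U` of small heights that is closed under parents, with its short edges. -/
structure Lv (Γ : SimpleGraph V) (ℓ : Sym2 V → ℝ) (h : V → ℝ) (par : V → V) (U : Set V) (R : ℝ)
    (Γ' : SimpleGraph V) : Prop where
  adj : ∀ x y, Γ'.Adj x y ↔ Γ.Adj x y ∧ x ∈ U ∧ y ∈ U ∧ ℓ s(x, y) ≤ R
  lt : ∀ x ∈ U, h x < R
  pa : ∀ x ∈ U, 0 < h x → par x ∈ U

variable {U : Set V} {R : ℝ} {Γ' : SimpleGraph V} {bs nx : V → V} {f : V → ℝ}
  (L : Lv Γ ℓ h par U R Γ') (P : SP Γ' ℓ bs f nx)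
include L

theorem RD.adj_par {x : V} (hx : x ∈ U) (k : 0 < h x) : Γ'.Adj x (par x) :=
  (L.adj _ _).2 ⟨(H.pa x k).1, hx, L.pa x hx k,
    by linarith [(H.pa x k).2, H.nn (par x), L.lt x hx]⟩

include P

theorem RD.f_rt (x : V) : x ∈ U → |f x - f (rt x)| ≤ h x :=
  H.ind (p := fun x => x ∈ U → |f x - f (rt x)| ≤ h x)
    (fun x k _ => by rw [H.rt0 x k, sub_self, abs_zero, k])
    (fun x k ih hx => by
      have h1 := abs_le.1 (ih (L.pa x hx k))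
      have h2 := P.lip _ _ (H.adj_par L hx k)
      have h3 := P.lip _ _ (H.adj_par L hx k).symm
      rw [Sym2.eq_swap] at h3
      rw [H.rt1 x k]
      exact abs_le.2 ⟨by linarith [(H.pa x k).2], by linarith [(H.pa x k).2]⟩) x

theorem RD.close {z w : V} (hz : z ∈ U) (hw : w ∈ U) (e : rt z = rt w) :
    d z w < 2 * R ∧ f z < f w + 2 * R ∧ f w < f z + 2 * R := by
  have h1 := abs_le.1 (H.f_rt L P z hz)
  have h2 := abs_le.1 (H.f_rt L P w hw)
  have h3 := H.rt_d z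
  have h4 := H.rt_d w
  rw [e] at h1 h3
  have h5 := H.tri z (rt w) w
  rw [H.symm (rt w)] at h5
  have := L.lt z hz
  have := L.lt w hw
  exact ⟨by linarith, by linarith, by linarith⟩

omit H L P in
/-- The points on the way to the base point. -/
def Sk (d : V → V → ℝ) (f : V → ℝ) (U : Set V) (x : V) : Set V :=
  {z | z ∈ U ∧ d x z ≤ f x - f z}

theorem RD.sp_ind {p : V → Prop} (h0 : ∀ x, x = bs x → p x)
    (h1 : ∀ x, x ≠ bs x → p (nx x) → p x) (x : V) : p x := by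
  have wf : WellFounded fun a b : V => f a < f b := Finite.wellFounded_of_trans_of_irrefl _
  induction x using wf.induction with
  | _ x ih =>
    by_cases k : x = bs x
    · exact h0 x k
    · exact h1 x k (ih _ (by
        linarith [(P.bell x k).2, H.pos _ _ ((L.adj _ _).1 (P.bell x k).1).1]))

theorem RD.sk_nx {x : V} (k : x ≠ bs x) : Sk d f U (nx x) ⊆ Sk d f U x := fun z hz =>
  ⟨hz.1, by
    have := H.edge _ _ ((L.adj _ _).1 (P.bell x k).1).1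
    linarith [hz.2, H.tri x (nx x) z, (P.bell x k).2]⟩

omit L P in
theorem RD.sk_self {x : V} (hx : x ∈ U) : x ∈ Sk d f U x := ⟨hx, by rw [H.self, sub_self]⟩

theorem RD.sk_bs (x : V) : x ∈ U → bs x ∈ Sk d f U x ∧ Cn Γ (Sk d f U x) x (bs x) :=
  H.sp_ind L P (p := fun x => x ∈ U → bs x ∈ Sk d f U x ∧ Cn Γ (Sk d f U x) x (bs x))
    (fun x k hx => by rw [← k]; exact ⟨H.sk_self hx, .refl⟩) (fun x k ih hx => by
      obtain ⟨a1, -, a2, -⟩ := (L.adj _ _).1 (P.bell x k).1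
      obtain ⟨i1, i2⟩ := ih a2
      rw [P.adj _ _ (P.bell x k).1]
      exact ⟨H.sk_nx L P k i1, .head ⟨a1, H.sk_self hx, H.sk_nx L P k (H.sk_self a2)⟩
        (i2.mono (H.sk_nx L P k))⟩) x

theorem RD.spoke {Λ : ℝ} (hΛ : 0 < Λ) (x : V) : x ∈ U → Λ - R ≤ f x → ∃ p ∈ Sk d f U x,
    bs p = bs x ∧ f p < Λ ∧ Λ - R ≤ f p ∧ Cn Γ (Sk d f U x ∩ {z | Λ - R ≤ f z}) x p :=
  H.sp_ind L P (p := fun x => x ∈ U → Λ - R ≤ f x → ∃ p ∈ Sk d f U x,
      bs p = bs x ∧ f p < Λ ∧ Λ - R ≤ f p ∧ Cn Γ (Sk d f U x ∩ {z | Λ - R ≤ f z}) x p)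
    (fun x k hx h1 => ⟨x, H.sk_self hx, rfl, by rwa [P.zero x k], h1, .refl⟩)
    (fun x k ih hx h1 => by
      by_cases h2 : f x < Λ
      · exact ⟨x, H.sk_self hx, rfl, h2, h1, .refl⟩
      obtain ⟨a1, -, a2, a3⟩ := (L.adj _ _).1 (P.bell x k).1
      have h3 : Λ - R ≤ f (nx x) := by linarith [(P.bell x k).2]
      obtain ⟨p, p1, p2, p3, p4, p5⟩ := ih a2 h3
      exact ⟨p, H.sk_nx L P k p1, p2.trans (P.adj _ _ (P.bell x k).1).symm, p3, p4,
        .head ⟨a1, ⟨H.sk_self hx, h1⟩, H.sk_nx L P k (H.sk_self a2), h3⟩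
          (p5.mono (inter_subset_inter_left _ (H.sk_nx L P k)))⟩) x

omit P in
theorem RD.mid {C : Set V} {x y : V} (p : Cn Γ' C x y) {F : ℝ} (hF : 0 < F) (hy : F ≤ d x y) :
    ∃ z ∈ C, Cn Γ' C x z ∧ F ≤ d x z ∧ d x z < F + R := by
  induction p with
  | refl => rw [H.self] at hy; linarith
  | @tail b c p k ih =>
    by_cases h1 : F ≤ d x b
    · exact ih h1
    · obtain ⟨a1, -, -, a2⟩ := (L.adj _ _).1 k.1
      exact ⟨c, k.2.2, .tail p k, hy, by linarith [H.tri x b c, H.edge _ _ a1]⟩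

/-- Connected sets on which the distance to the base point varies little are small. -/
theorem RD.diam {C : Set V} (hU : C ⊆ U) (hp : ∀ x ∈ C, 0 < h x) {lo : ℝ}
    (hf : ∀ x ∈ C, lo < f x ∧ f x < lo + 3 * R) {x y : V} (hx : x ∈ C) (hy : y ∈ C)
    (p : Cn Γ' C x y) : d x y < 33 * R := by
  have hR : 0 < R := (hp x hx).trans (L.lt x (hU hx))
  have hb : ∀ {x y}, Cn Γ' C x y → bs x = bs y := fun p => by
    induction p with
    | refl => rfl
    | tail _ k ih => exact ih.trans (P.adj _ _ k.1)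
  have hΓ : ∀ {x y}, Cn Γ' C x y → Cn Γ C x y := fun p => by
    induction p with
    | refl => exact .refl
    | tail _ k ih => exact .tail ih ⟨((L.adj _ _).1 k.1).1, k.2⟩
  by_contra hc
  rw [not_lt] at hc
  by_cases hΛ : lo - 2 * R ≤ 0
  · have h1 := (H.sk_bs L P x (hU hx)).1.2
    have h2 := (H.sk_bs L P y (hU hy)).1.2
    rw [← hb p] at h2
    have h3 := H.tri x (bs x) y
    rw [H.symm (bs x)] at h3
    linarith [P.nn (bs x), (hf x hx).2, (hf y hy).2]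
  rw [not_le] at hΛ
  obtain ⟨z, hz, pz, z1, z2⟩ := H.mid L p (F := 16 * R) (by linarith) (by linarith)
  have sp : ∀ u ∈ C, ∃ p ∈ Sk d f U u, bs p = bs u ∧ f p < lo - 2 * R ∧ lo - 2 * R - R ≤ f p ∧
      Cn Γ (Sk d f U u ∩ {z | lo - 2 * R - R ≤ f z}) u p := fun u hu =>
    H.spoke L P hΛ u (hU hu) (by linarith [(hf u hu).1])
  choose! s s1 s2 s3 s4 s5 using sp
  have mem : ∀ {u}, u ∈ U → 0 < f u → rt u ∈ Ω := fun {u} _ k =>
    H.rt_mem ((L.adj _ _).1 (P.bell u fun e => by linarith [P.zero u e]).1).1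
  have key : ∀ u ∈ C, ∀ w ∈ C, Cn Γ' C x u → Cn Γ' C x w → 16 * R ≤ d u w →
      NCr (t (rt (bs x))) (t (rt (s u))) (t (rt x)) (t (rt (s w))) := fun u hu w hw pu pw far => by
    obtain ⟨b1, b2⟩ := H.sk_bs L P (s u) (s1 u hu).1
    rw [s2 u hu, ← hb pu] at b1 b2
    have nb : ∀ {S : Set V} {a b : V}, Cn Γ S a b → a ≠ b → rt a ∈ Ω := fun p k => by
      rcases p.cases_head with e | ⟨_, e, -⟩
      exacts [absurd e k, H.rt_mem e.1]
    have ne : ∀ v ∈ C, v ≠ s v := fun v hv e => by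
      have := s3 v hv
      rw [← e] at this
      linarith [(hf v hv).1]
    have nx : x ≠ bs x := fun e => by linarith [P.zero x e, (hf x hx).1]
    refine H.ncr (S₁ := Sk d f U (s u))
      (S₂ := C ∪ Sk d f U w ∩ {z | lo - 2 * R - R ≤ f z}) (fun a ha b hb' e => ?_) b1
      (H.sk_self (s1 u hu).1) (.inl hx) (.inr ⟨s1 w hw, s4 w hw⟩) b2.symm
      (((hΓ pw).mono subset_union_left).trans ((s5 w hw).mono subset_union_right))
      (nb (H.sk_bs L P x (hU hx)).2.symm nx.symm) (nb (s5 u hu).symm (ne u hu).symm)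
      (H.rt_mem (H.pa x (hp x hx)).1) (nb (s5 w hw).symm (ne w hw).symm)
    have d0 : 0 ≤ d (s u) a := by
      linarith [H.tri (s u) a (s u), H.self (s u), H.symm a (s u)]
    rcases hb' with hb' | hb'
    · linarith [(H.close L P ha.1 (hU hb') e).2.2, ha.2, s3 u hu, (hf b hb').1]
    · obtain ⟨c1, c2, c3⟩ := H.close L P ha.1 hb'.1.1 e
      have c4 : lo - 2 * R - R ≤ f b := hb'.2
      have c5 := H.tri u (s u) a
      have c6 := H.tri u a b
      have c7 := H.tri u b w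
      rw [H.symm b w] at c7
      linarith [ha.2, hb'.1.2, (s1 u hu).2, (hf u hu).2, (hf w hw).2]
  have f1 : 16 * R ≤ d z y := by linarith [H.tri x z y]
  have f2 : 16 * R ≤ d x y := by linarith
  exact ncr_three (key x hx z hz .refl pz z1) (key z hz x hx pz .refl (H.symm x z ▸ z1))
    (key x hx y hy .refl p f2) (key y hy x hx p .refl (H.symm x y ▸ f2))
    (key z hz y hy pz p f1) (key y hy z hz p pz (H.symm z y ▸ f1))

end Vale.Agent.P235.Vx
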