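import Vale.Agent.P235V.VRet1

/-! The retraction for fixed thresholds. -/

open Set

set_option linter.unusedSectionVars false

namespace Vale.Agent.P235.Vx

variable {V : Type} {Γ : SimpleGraph V} {ℓ : Sym2 V → ℝ} {d : V → V → ℝ} {h : V → ℝ} {Ω : Set V}
  {t : V → ℕ} {par rt : V → V} {z : V → ℤ} {R : ℤ → ℝ} {G : ℤ → SimpleGraph V}
  {bs nx : ℤ → V → V} {f : ℤ → V → ℝ} {β : ℝ}

/-- Zones of heights with their levels. -/
structure ZN (Γ : SimpleGraph V) (ℓ : Sym2 V → ℝ) (h : V → ℝ) (par : V → V) (z : V → ℤ)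
    (R : ℤ → ℝ) (G : ℤ → SimpleGraph V) (bs nx : ℤ → V → V) (f : ℤ → V → ℝ) : Prop where
  pos : ∀ i, 0 < R i
  dbl : ∀ i j, i < j → 2 * R i ≤ R j
  gt : ∀ x, 0 < h x → R (z x) < 4 * h x
  mono : ∀ x y, 0 < h x → h x ≤ h y → z x ≤ z y
  lv : ∀ i, Lv Γ ℓ h par {y | h y = 0 ∨ z y ≤ i} (R i) (G i)
  sp : ∀ i, SP (G i) ℓ (bs i) (f i) (nx i)

/-- The band. -/
noncomputable def bd (h : V → ℝ) (R : ℤ → ℝ) (f : ℤ → V → ℝ) (β : ℝ) (i : ℤ) (x : V) : ℤ :=
  ⌊(f i x + h x) / (2 * R i) + β⌋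

/-- The cell. -/
def cel (h : V → ℝ) (z : V → ℤ) (R : ℤ → ℝ) (f : ℤ → V → ℝ) (β : ℝ) (i j : ℤ) : Set V :=
  {w | 0 < h w ∧ z w = i ∧ bd h R f β i w = j}

/-- The cluster. -/
def cls (h : V → ℝ) (z : V → ℤ) (R : ℤ → ℝ) (f : ℤ → V → ℝ) (β : ℝ) (G : ℤ → SimpleGraph V)
    (x : V) : Set V :=
  {y | Cn (G (z x)) (cel h z R f β (z x) (bd h R f β (z x) x)) x y}

theorem Cn.mem {S : Set V} {x y : V} (p : Cn Γ S x y) (hx : x ∈ S) : y ∈ S := by
  induction p with
  | refl => exact hx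
  | tail _ k _ => exact k.2.2

theorem cls_mem {x y : V} (hx : 0 < h x) (hy : y ∈ cls h z R f β G x) :
    y ∈ cel h z R f β (z x) (bd h R f β (z x) x) := Cn.mem hy ⟨hx, rfl, rfl⟩

theorem cls_eq {x y : V} (hx : 0 < h x) (hy : y ∈ cls h z R f β G x) :
    cls h z R f β G y = cls h z R f β G x := by
  obtain ⟨-, e1, e2⟩ := cls_mem hx hy
  ext w
  simp only [cls, e1, e2, mem_setOf_eq]
  exact ⟨fun k => hy.trans k, fun k => (Cn.symm hy).trans k⟩

theorem exists_fix [Finite V] (ρ : V → ℝ) (p : V → Prop) (n : V → V)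
    (hρ : ∀ x, p x → ρ (n x) < ρ x) : ∃ π : V → V, (∀ x, ¬p x → π x = x) ∧
      (∀ x, p x → π x = π (n x)) ∧
      ∀ q : V → Prop, (∀ x, ¬p x → q x) → (∀ x, p x → q (n x) → q x) → ∀ x, q x := by
  classical
  have wf : WellFounded fun a b : V => ρ a < ρ b := Finite.wellFounded_of_trans_of_irrefl _
  refine ⟨wf.fix fun x ih => if k : p x then ih (n x) (hρ x k) else x, fun x k => ?_,
    fun x k => ?_, fun q h0 h1 x => ?_⟩
  · rw [wf.fix_eq, dif_neg k]
  · rw [wf.fix_eq, dif_pos k]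
  · induction x using wf.induction with
    | _ x ih =>
      by_cases k : p x
      exacts [h1 x k (ih _ (hρ x k)), h0 x k]

variable [Finite V] (H : RD Γ ℓ d h Ω t par rt) (Z : ZN Γ ℓ h par z R G bs nx f)
include H Z

theorem RD.cls_d {x y : V} (hx : 0 < h x) (hy : y ∈ cls h z R f β G x) :
    d x y < 33 * R (z x) := by
  refine H.diam (Z.lv (z x)) (Z.sp (z x)) (C := cel h z R f β (z x) (bd h R f β (z x) x))
    (fun w hw => .inr hw.2.1.le) (fun w hw => hw.1)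
    (lo := 2 * R (z x) * (bd h R f β (z x) x - β) - R (z x)) (fun w hw => ?_) ⟨hx, rfl, rfl⟩
    (cls_mem hx hy) hy
  have h0 := Z.pos (z x)
  have h1 := (Z.lv (z x)).lt w (.inr hw.2.1.le)
  obtain ⟨h2, h3⟩ := Int.floor_eq_iff.1 hw.2.2
  rw [← sub_le_iff_le_add, le_div_iff₀ (by linarith)] at h2
  rw [← lt_sub_iff_add_lt, div_lt_iff₀ (by linarith)] at h3
  constructor <;> nlinarith [hw.1]

theorem RD.cls_cn {x y : V} (hx : 0 < h x) (hy : y ∈ cls h z R f β G x) :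
    Cn Γ (cls h z R f β G x) x y := by
  have : ∀ y, Cn (G (z x)) (cel h z R f β (z x) (bd h R f β (z x) x)) x y →
      Cn Γ (cls h z R f β G x) x y := fun y p => by
    induction p with
    | refl => exact .refl
    | tail p k ih => exact .tail ih ⟨(((Z.lv _).adj _ _).1 k.1).1, p, .tail p k⟩
  exact this y hy

theorem RD.psi {w : V} {i : ℤ} (hw : 0 < h w) (e : z w = i) :
    f i (par w) + h (par w) ≤ f i w + h w ∧ f i w - h w ≤ f i (par w) - h (par w) := by
  have a := H.adj_par (Z.lv i) (x := w) (.inr e.le) hw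
  have h1 := (Z.sp i).lip _ _ a
  have h2 := (Z.sp i).lip _ _ a.symm
  rw [Sym2.eq_swap] at h2
  constructor <;> linarith [(H.pa w hw).2]

theorem RD.par_le {w : V} (hw : 0 < h w) : h (par w) < h w := by
  linarith [(H.pa w hw).2, H.pos _ _ (H.pa w hw).1]

/-- The cluster below a cluster is grounded. -/
theorem RD.ground {v : V} (hv : 0 < h v) (hp : 0 < h (par v)) (e : z (par v) = z v)
    (hn : par v ∉ cls h z R f β G v) :
    ∃ u ∈ cls h z R f β G (par v), h (par u) = 0 ∨ z (par u) < z u := by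
  have h0 := Z.pos (z v)
  have mono : ∀ a b, f (z v) a + h a ≤ f (z v) b + h b →
      bd h R f β (z v) a ≤ bd h R f β (z v) b := fun a b k =>
    Int.floor_mono (add_le_add_left (div_le_div_of_nonneg_right k (by linarith)) _)
  have h1 : bd h R f β (z v) (par v) < bd h R f β (z v) v :=
    (mono _ _ (H.psi Z hv rfl).1).lt_of_ne fun k => hn (.single
      ⟨H.adj_par (Z.lv _) (.inr le_rfl) hv, ⟨hv, rfl, rfl⟩, hp, e, k⟩)
  have h2 : ∀ w, 0 < h w → f (z v) w + h w ≤ f (z v) (par v) + h (par v) →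
      f (z v) v - h v ≤ f (z v) w - h w →
      bd h R f β (z v) w = bd h R f β (z v) (par v) := fun w hw k1 k2 => by
    refine le_antisymm (mono _ _ k1) ?_
    have h3 := (Z.lv (z v)).lt v (.inr le_rfl)
    have h4 : bd h R f β (z v) v ≤ bd h R f β (z v) w + 1 := by
      rw [bd, bd, ← Int.floor_add_one]
      refine Int.floor_mono ?_
      rw [add_right_comm, div_add_one (by linarith)]
      exact add_le_add_left (div_le_div_of_nonneg_right (by linarith) (by linarith)) _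
    omega
  refine H.ind (p := fun w => 0 < h w → z w = z v →
    f (z v) w + h w ≤ f (z v) (par v) + h (par v) → f (z v) v - h v ≤ f (z v) w - h w →
    ∃ u ∈ cls h z R f β G w, h (par u) = 0 ∨ z (par u) < z u) (fun w k k' => absurd k k'.ne')
    (fun w hw ih _ e1 k1 k2 => ?_) (par v) hp e le_rfl (H.psi Z hv rfl).2
  by_cases c : h (par w) = 0 ∨ z (par w) < z w
  · exact ⟨w, .refl, c⟩
  rw [not_or, not_lt] at c
  have c1 : 0 < h (par w) := (H.nn _).lt_of_ne' c.1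
  have c2 : z (par w) = z w := le_antisymm (Z.mono _ _ c1 (H.par_le Z hw).le) c.2
  obtain ⟨k3, k4⟩ := H.psi Z hw e1
  obtain ⟨u, hu, k⟩ := ih c1 (c2.trans e1) (k3.trans k1) (k2.trans k4)
  have c3 : par w ∈ cls h z R f β G w := .single ⟨H.adj_par (Z.lv _) (.inr le_rfl) hw,
    ⟨hw, rfl, rfl⟩, c1, c2, by rw [e1, h2 w hw k1 k2, h2 _ c1 (k3.trans k1) (k2.trans k4)]⟩
  exact ⟨u, cls_eq hw c3 ▸ hu, k⟩

theorem RD.det (β : ℝ) : ∃ π : V → V, (∀ x, h (π x) = 0 ∧ d x (π x) ≤ 544 * h x) ∧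
    (∀ x, ∃ p : Γ.Walk x (π x), ∀ w ∈ p.support, π w = π x) ∧
    ∀ x y, 0 < h x → y ∈ cls h z R f β G x → π y = π x := by
  classical
  rcases isEmpty_or_nonempty V with hV | ⟨⟨v₀⟩⟩
  · exact ⟨id, fun x => hV.elim x, fun x => hV.elim x, fun x => hV.elim x⟩
  let Gd : Set V → Prop := fun S => ∃ u ∈ S, h (par u) = 0 ∨ z (par u) < z u
  have ex : ∀ S : Set V, ∃ v, (∀ u ∈ S, 0 < h u) → S.Nonempty → v ∈ S ∧
      (Gd S → h (par v) = 0 ∨ z (par v) < z v) ∧ (¬Gd S → par v ∉ S) := fun S => by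
    by_cases k : Gd S
    · obtain ⟨u, hu, k'⟩ := id k
      exact ⟨u, fun _ _ => ⟨hu, fun _ => k', fun c => absurd k c⟩⟩
    by_cases hS : S.Nonempty
    · obtain ⟨u, hu, hm⟩ := exists_min_image S h (toFinite _) hS
      exact ⟨u, fun h1 _ => ⟨hu, fun c => absurd c k,
        fun _ c => (hm _ c).not_gt (H.par_le Z (h1 u hu))⟩⟩
    · exact ⟨v₀, fun _ c => absurd c hS⟩
  choose ch hch using ex
  let K := cls h z R f β G
  let nxt : V → V := fun x => par (ch (K x))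
  let ρ : V → ℝ := fun x => if h x = 0 then 0 else (if Gd (K x) then 102 else 136) * R (z x)
  have hc := fun x (hx : 0 < h x) => hch (K x) (fun u hu => (cls_mem hx hu).1) ⟨x, .refl⟩
  have ρ1 : ∀ x, ρ x ≤ 136 * R (z x) := fun x => by
    have := Z.pos (z x)
    simp only [ρ]
    split_ifs <;> linarith
  have step : ∀ x, 0 < h x → d x (nxt x) ≤ 34 * R (z x) ∧ ρ (nxt x) + 34 * R (z x) ≤ ρ x :=
    fun x hx => by
      obtain ⟨c1, c2, c3⟩ := hc x hx
      obtain ⟨m1, m2, -⟩ := cls_mem hx c1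
      have h0 := Z.pos (z x)
      refine ⟨?_, ?_⟩
      · have := (Z.lv (z x)).lt _ (.inr m2.le)
        linarith [H.tri x (ch (K x)) (nxt x), H.cls_d Z hx c1, H.edge _ _ (H.pa _ m1).1,
          (H.pa _ m1).2, H.nn (nxt x)]
      by_cases g : Gd (K x)
      · have e : ρ x = 102 * R (z x) := by simp only [ρ, if_neg hx.ne', if_pos g]
        rcases c2 g with k | k
        · have : ρ (nxt x) = 0 := if_pos k
          linarith
        · linarith [ρ1 (nxt x), Z.dbl (z (nxt x)) (z x) (m2 ▸ k)]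
      · have e : ρ x = 136 * R (z x) := by simp only [ρ, if_neg hx.ne', if_neg g]
        have g1 : ¬(h (nxt x) = 0 ∨ z (nxt x) < z (ch (K x))) := fun k => g ⟨_, c1, k⟩
        rw [not_or, not_lt] at g1
        have g2 : 0 < h (nxt x) := (H.nn _).lt_of_ne' g1.1
        have g3 : z (nxt x) = z (ch (K x)) :=
          le_antisymm (Z.mono _ _ g2 (H.par_le Z m1).le) g1.2
        have g4 : Gd (K (nxt x)) := H.ground Z m1 g2 g3 (by rw [cls_eq hx c1]; exact c3 g)
        have : ρ (nxt x) = 102 * R (z x) := by simp only [ρ, if_neg g1.1, if_pos g4, g3, m2]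
        linarith
  obtain ⟨π, π0, π1, ind⟩ := exists_fix ρ (fun x => 0 < h x) nxt fun x hx => by
    linarith [(step x hx).2, Z.pos (z x)]
  have h0 : ∀ x, ¬0 < h x → h x = 0 := fun x k => le_antisymm (not_lt.1 k) (H.nn x)
  have a1 : ∀ x, h (π x) = 0 ∧ d x (π x) ≤ ρ x :=
    ind _ (fun x k => by
      rw [π0 x k, H.self]
      exact ⟨h0 x k, (if_pos (h0 x k)).ge⟩) fun x k ih => by
      rw [π1 x k]
      exact ⟨ih.1, by linarith [ih.2, step x k, H.tri x (nxt x) (π (nxt x))]⟩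
  have a2 : ∀ x y, 0 < h x → y ∈ K x → π y = π x := fun x y hx hy => by
    rw [π1 x hx, π1 y (cls_mem hx hy).1]
    simp only [nxt, K, cls_eq hx hy]
  have a3 : ∀ x, Cn Γ {w | π w = π x} x (π x) :=
    ind _ (fun x k => by rw [π0 x k]; exact .refl) fun x k ih => by
      have c1 := (hc x k).1
      rw [← π1 x k] at ih
      exact ((H.cls_cn Z k c1).mono fun w hw => a2 x w k hw).trans
        (.head ⟨(H.pa _ (cls_mem k c1).1).1, a2 x _ k c1, (π1 x k).symm⟩ ih)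
  refine ⟨π, fun x => ⟨(a1 x).1, (a1 x).2.trans ?_⟩,
    fun x => (a3 x).walk (π0 _ (a1 x).1.not_gt), a2⟩
  by_cases k : 0 < h x
  · linarith [ρ1 x, Z.gt x k]
  · rw [h0 x k, mul_zero]
    exact (if_pos (h0 x k)).le

end Vale.Agent.P235.Vx
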