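import Vale.Agent.P235V.VD

/-! The bags of the linear vortex. -/

open Classical

namespace Vale.Agent.P235.Vx

theorem vy_ivt {n : ℕ} (f : Fin (n + 1) → ℕ) (p : Fin (n + 1)) (b : ℕ) : ∀ q : Fin (n + 1), p ≤ q →
    (∀ r : Fin (n + 1), p ≤ r → r < q → f (r + 1) = f r + 1 ∨ f r = f (r + 1) + 1) →
    (f p ≤ b ∧ b ≤ f q) ∨ (f q ≤ b ∧ b ≤ f p) → ∃ r, p ≤ r ∧ r ≤ q ∧ f r = b := by
  intro q
  induction q using Fin.induction with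
  | zero =>
    intro h _ hb
    obtain rfl : p = 0 := le_antisymm h (Fin.zero_le _)
    exact ⟨0, le_rfl, le_rfl, by omega⟩
  | succ q ih =>
    intro h hs hb
    by_cases k : f q.succ = b
    · exact ⟨_, h, le_rfl, k⟩
    rcases h.eq_or_lt with rfl | h'
    · omega
    have h1 : p ≤ q.castSucc := Fin.le_castSucc_iff.2 h'
    have h2 := hs _ h1 q.castSucc_lt_succ
    rw [Fin.coeSucc_eq_succ] at h2
    obtain ⟨r, r1, r2, r3⟩ := ih h1 (fun r a c => hs r a (c.trans q.castSucc_lt_succ)) (by omega)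
    exact ⟨r, r1, r2.trans q.castSucc_lt_succ.le, r3⟩

theorem vy_walk {V I : Type} {S : Set V} {H : SimpleGraph (S ⊕ I)} {A : Set (S ⊕ I)}
    {Γ : SimpleGraph V} (hΓ : ∀ x y, Γ.Adj x y →
      ∃ hx hy, H.Adj (.inl ⟨x, hx⟩) (.inl ⟨y, hy⟩) ∧ .inl ⟨y, hy⟩ ∉ A) {x y : V} (p : Γ.Walk x y) :
    ∀ hx hy, .inl ⟨x, hx⟩ ∉ A → ∃ p' : H.Walk (.inl ⟨x, hx⟩) (.inl ⟨y, hy⟩),
      ∀ z ∈ p'.support, z ∉ A ∧ ∃ w ∈ p.support, ∃ hw, z = .inl ⟨w, hw⟩ := by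
  induction p with
  | nil =>
    refine fun hx _ k => ⟨.nil, fun z hz => ?_⟩
    obtain rfl : z = _ := by simpa using hz
    exact ⟨k, _, by simp, hx, rfl⟩
  | cons h p ih =>
    intro hx hy k
    obtain ⟨_, hw, h1, h2⟩ := hΓ _ _ h
    obtain ⟨p', hp'⟩ := ih hw hy h2
    refine ⟨.cons h1 p', fun z hz => ?_⟩
    rcases List.mem_cons.1 hz with rfl | hz
    · exact ⟨k, _, by simp, hx, rfl⟩
    · obtain ⟨a, w, b, c⟩ := hp' z hz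
      exact ⟨a, w, by simp [b], c⟩

theorem vtop_bags {V : Type} {G : SimpleGraph V} {k c : ℕ} {S : Set V} {m : ℕ}
    {n : Fin (m + 1) → ℕ} {u : ∀ i, Fin (n i + 1) → S} {X : ∀ i, Fin (n i + 1) → Finset V}
    {H : SimpleGraph (S ⊕ Fin (m + 1))} {σ : Equiv.Perm H.Dart} (hm : m + 1 ≤ k)
    (hσ : IsRotationSystem H σ) (hu : ∀ i, Function.Injective (u i))
    (hub : ∀ i z, H.Adj (.inr i) z ↔ ∃ j, z = .inl (u i j))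
    (hnx : ∀ i j (e : H.Dart), e.fst = .inr i → e.snd = .inl (u i j) →
      (σ e).snd = .inl (u i (j + 1)))
    (hG : ∀ x y : S, H.Adj (.inl x) (.inl y) → G.Adj x y)
    (hE : ∀ x y, G.Adj x y → (∃ hx hy, H.Adj (.inl ⟨x, hx⟩) (.inl ⟨y, hy⟩)) ∨
      ∃ i j, x ∈ X i j ∧ y ∈ X i j)
    (hS : ∀ x, x ∈ S ∨ ∃ i j, x ∈ X i j) (hk : ∀ i j, (X i j).card ≤ k + 1)
    (huX : ∀ i j, (u i j : V) ∈ X i j) (hXS : ∀ i j (x : S), (x : V) ∈ X i j → ∃ j', x = u i j')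
    (hint : ∀ i a b c x, a ≤ b → b ≤ c → x ∈ X i a → x ∈ X i c → x ∈ X i b)
    (hdj : ∀ i i' j j' x, x ∈ X i j → x ∈ X i' j' → i = i')
    {A : Set (S ⊕ Fin (m + 1))} {tm : H.Dart → ℕ} {N : ℕ} {e₁ : H.Dart}
    (hA : ∀ i, .inr i ∈ A) (hc : ∀ i, {j | .inl (u i j) ∈ A}.ncard ≤ c) (t1 : ∀ e, tm e < N)
    (t2 : ∀ e e' : H.Dart, e.fst ∈ A → e.snd ∉ A → e'.fst ∈ A → e'.snd ∉ A → tm e = tm e' → e = e')
    (t3 : ∀ e : H.Dart, e.fst ∈ A → e.snd ∉ A → (σ e).snd ∉ A → e ≠ e₁ → σ e ≠ e₁ → σ e ≠ e →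
      tm (σ e) = tm e + 1 ∨ tm e = tm (σ e) + 1)
    (t4 : ∀ a b c e : H.Dart, a.fst ∈ A → b.fst ∈ A → c.fst ∈ A → e.fst ∈ A → tm a < tm b →
      tm b < tm c → tm c < tm e → ∀ (p : H.Walk a.snd c.snd) (q : H.Walk b.snd e.snd),
      (∀ z ∈ p.support, z ∉ A) → (∀ z ∈ q.support, z ∉ A) → ∃ z, z ∈ p.support ∧ z ∈ q.support)
    {ℓ : Sym2 V → ℝ} {d : V → V → ℝ} {q : ℕ} {C : ℝ}
    (geo : ∃ P : Finset (Set V × V), P.card ≤ q ∧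
      (∀ a ∈ {x | ∃ hx, .inl ⟨x, hx⟩ ∈ A}, ∃ p ∈ P, a ∈ p.1) ∧
      ∀ p ∈ P, ∀ a ∈ p.1, ∀ b ∈ p.1, d a b ≤ |d a p.2 - d b p.2|)
    (emb : ∀ Γ : SimpleGraph V, Γ ≤ G →
      (∀ x y, Γ.Adj x y → ∃ hx hy, H.Adj (.inl ⟨x, hx⟩) (.inl ⟨y, hy⟩)) →
      ∀ M : ℝ, 0 < M → ∃ d₀ : V → V → ℝ, EmbedsL1 d₀ C ∧
        (∀ x y, Γ.Adj x y → d₀ x y ≤ ℓ s(x, y)) ∧
        ∀ f : V → ℝ, (∀ x, 0 ≤ f x ∧ f x ≤ M) → (∀ x, x ∉ S → f x = 0) →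
          (∀ x y, Γ.Adj x y → f x ≤ f y + ℓ s(x, y)) → ∀ x y, f x ≤ f y + d₀ x y) :
    ∃ Γ Ω Y t v₀, VD G ℓ d q ((k * c + 3) * (k + 1)) C Γ {x | ∃ hx, .inl ⟨x, hx⟩ ∈ A} Ω S N Y t
      v₀ := by
  let D : (Σ i, Fin (n i + 1)) → H.Dart := fun s =>
    ⟨(.inr s.1, .inl (u s.1 s.2)), (hub _ _).2 ⟨s.2, rfl⟩⟩
  have inj : ∀ s s' : Σ i, Fin (n i + 1), (u s.1 s.2 : V) = u s'.1 s'.2 → s = s' := by
    rintro ⟨i, j⟩ ⟨i', j'⟩ h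
    obtain rfl : i = i' := hdj i i' j j' _ (huX i j) (h ▸ huX i' j')
    obtain rfl : j = j' := hu i (Subtype.ext h)
    rfl
  let Γ : SimpleGraph V := ⟨fun x y => ∃ hx hy, H.Adj (.inl ⟨x, hx⟩) (.inl ⟨y, hy⟩) ∧
    .inl ⟨x, hx⟩ ∉ A ∧ .inl ⟨y, hy⟩ ∉ A, ⟨fun x y ⟨a, b, h, h1, h2⟩ => ⟨b, a, h.symm, h2, h1⟩⟩,
    ⟨fun x ⟨a, b, h, _⟩ => h.ne rfl⟩⟩
  let t : V → ℕ := fun x =>
    if h : ∃ s : Σ i, Fin (n i + 1), (u s.1 s.2 : V) = x then tm (D h.choose) else 0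
  have ht : ∀ s : Σ i, Fin (n i + 1), t (u s.1 s.2) = tm (D s) := fun s => by
    have h : ∃ s' : Σ i, Fin (n i + 1), (u s'.1 s'.2 : V) = u s.1 s.2 := ⟨s, rfl⟩
    exact (dif_pos h).trans (by rw [inj _ _ h.choose_spec])
  let F : Finset (Σ i, Fin (n i + 1)) :=
    insert ⟨0, 0⟩ (Finset.univ.filter (fun s => D s = e₁) ∪ Finset.univ.filter fun s => (D s).snd ∈ A)
  let J : ℕ → Finset (Σ i, Fin (n i + 1)) := fun τ =>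
    F ∪ Finset.univ.filter fun s => (D s).snd ∉ A ∧ tm (D s) = τ
  let Y : ℕ → Finset V := fun τ => (J τ).biUnion fun s => X s.1 s.2
  have hY : ∀ τ x, x ∈ Y τ ↔ ∃ s ∈ J τ, x ∈ X s.1 s.2 := fun τ x => Finset.mem_biUnion
  have hF : ∀ s, s ∈ F ↔ s = ⟨0, 0⟩ ∨ D s = e₁ ∨ (D s).snd ∈ A := fun s => by simp [F]
  have hJ : ∀ τ s, s ∈ J τ ↔ s ∈ F ∨ (D s).snd ∉ A ∧ tm (D s) = τ := fun τ s => by
    simp only [J, Finset.mem_union, Finset.mem_filter, Finset.mem_univ, true_and]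
  have hJ' : ∀ s, s ∈ J (tm (D s)) := fun s => (hJ _ _).2 <|
    ((em' ((D s).snd ∈ A)).symm).imp (fun h => (hF _).2 (.inr (.inr h))) fun h => ⟨h, rfl⟩
  have Dinj : ∀ s s', D s = D s' → s = s' := fun s s' h =>
    inj _ _ (congrArg Subtype.val (Sum.inl.inj (congrArg (fun e : H.Dart => e.snd) h)))
  have cJ : ∀ τ, (J τ).card ≤ k * c + 3 := fun τ => by
    have c1 : (Finset.univ.filter fun s => D s = e₁).card ≤ 1 := Finset.card_le_one.2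
      fun s hs s' hs' => Dinj _ _ ((Finset.mem_filter.1 hs).2.trans (Finset.mem_filter.1 hs').2.symm)
    have c2 : (Finset.univ.filter fun s => (D s).snd ∉ A ∧ tm (D s) = τ).card ≤ 1 :=
      Finset.card_le_one.2 fun s hs s' hs' => by
        obtain ⟨a1, a2⟩ := (Finset.mem_filter.1 hs).2
        obtain ⟨b1, b2⟩ := (Finset.mem_filter.1 hs').2
        exact Dinj _ _ (t2 _ _ (hA _) a1 (hA _) b1 (a2.trans b2.symm))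
    have c3 : (Finset.univ.filter fun s => (D s).snd ∈ A).card ≤ k * c := by
      have e : (Finset.univ.filter fun s => (D s).snd ∈ A) = Finset.univ.sigma fun i =>
          Finset.univ.filter fun j => Sum.inl (u i j) ∈ A := by
        ext s
        simp [D]
      rw [e, Finset.card_sigma]
      refine (Finset.sum_le_card_nsmul _ _ c fun i _ => ?_).trans ?_
      · have := hc i
        rwa [Set.ncard_eq_toFinset_card', Set.toFinset_setOf] at this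
      · simpa using Nat.mul_le_mul_right c hm
    have c4 := Finset.card_union_le (Finset.univ.filter fun s => D s = e₁)
      (Finset.univ.filter fun s => (D s).snd ∈ A)
    have c5 : F.card ≤ _ := Finset.card_insert_le _ _
    have c6 : (J τ).card ≤ _ := Finset.card_union_le _ _
    omega
  have key : ∀ i (j j' : Fin (n i + 1)) v b, j ≤ j' → v ∈ X i j → v ∈ X i j' →
      (tm (D ⟨i, j⟩) ≤ b ∧ b ≤ tm (D ⟨i, j'⟩)) ∨ (tm (D ⟨i, j'⟩) ≤ b ∧ b ≤ tm (D ⟨i, j⟩)) →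
      v ∈ Y b := fun i j j' v b hj h1 h2 hb => by
    by_contra hv
    have nF : ∀ r, j ≤ r → r ≤ j' → D ⟨i, r⟩ ≠ e₁ ∧ (D ⟨i, r⟩).snd ∉ A := fun r r1 r2 =>
      not_or.1 fun h => hv ((hY _ _).2 ⟨⟨i, r⟩, (hJ _ _).2 (.inl ((hF _).2 (.inr h))),
        hint i _ _ _ _ r1 r2 h1 h2⟩)
    obtain ⟨r, r1, r2, r3⟩ := vy_ivt (fun r => tm (D ⟨i, r⟩)) j b j' hj (fun r r1 r2 => by
      have a1 : r < r + 1 := Fin.lt_add_one_iff.2 (r2.trans_le (Fin.le_last _))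
      have a2 : r + 1 ≤ j' := by
        rw [Fin.le_def, Fin.val_add_one_of_lt (r2.trans_le (Fin.le_last _))]
        exact r2
      have e : σ (D ⟨i, r⟩) = D ⟨i, r + 1⟩ := SimpleGraph.Dart.ext _ _ (Prod.ext
        ((hσ (D ⟨i, r⟩) (σ (D ⟨i, r⟩))).1 ⟨1, by rw [zpow_one]⟩).symm (hnx i r _ rfl rfl))
      have := t3 (D ⟨i, r⟩) (hA _) (nF r r1 r2.le).2 (e ▸ (nF _ (r1.trans a1.le) a2).2)
        (nF r r1 r2.le).1 (e ▸ (nF _ (r1.trans a1.le) a2).1) fun h => by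
          rw [e] at h
          exact a1.ne' (eq_of_heq (Sigma.mk.inj (Dinj _ _ h)).2)
      rwa [e] at this) hb
    exact hv ((hY _ _).2 ⟨⟨i, r⟩, r3 ▸ hJ' ⟨i, r⟩, hint i _ _ _ _ r1 r2 h1 h2⟩)
  have le : Γ ≤ G := fun x y ⟨a, b, h, _⟩ => hG ⟨x, a⟩ ⟨y, b⟩ h
  refine ⟨Γ, {x | ∃ s, (D s).snd ∉ A ∧ (u s.1 s.2 : V) = x}, Y, t, u 0 0, le, fun x y h => ?_,
    (Nat.zero_le _).trans_lt (t1 e₁), fun τ => ?_,
    fun v a b e h1 h2 _ ha he => ?_,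
    fun τ => (hY _ _).2 ⟨⟨0, 0⟩, (hJ _ _).2 (.inl ((hF _).2 (.inl rfl))), huX _ _⟩,
    fun x y τ ⟨a, _, _, h, _⟩ _ hx => ?_, ?_, ?_, ?_, geo, fun x y ⟨a, _⟩ => a, fun x hx => ?_,
    emb Γ le fun x y ⟨a, b, h, _⟩ => ⟨a, b, h⟩⟩
  · rcases hE x y h with ⟨a, b, h⟩ | ⟨i, j, a, b⟩
    · by_cases k1 : Sum.inl ⟨x, a⟩ ∈ A
      · exact .inl ⟨a, k1⟩
      by_cases k2 : Sum.inl ⟨y, b⟩ ∈ A
      · exact .inr (.inl ⟨b, k2⟩)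
      exact .inr (.inr (.inl ⟨a, b, h, k1, k2⟩))
    · exact .inr (.inr (.inr ⟨_, t1 _, (hY _ _).2 ⟨_, hJ' ⟨i, j⟩, a⟩,
        (hY _ _).2 ⟨_, hJ' ⟨i, j⟩, b⟩⟩))
  · exact ((Finset.card_biUnion_le_card_mul _ _ (k + 1) fun s _ => hk _ _).trans
      (Nat.mul_le_mul_right _ (cJ τ))).trans (Nat.le_succ _)
  · obtain ⟨⟨i, j⟩, s1, s2⟩ := (hY _ _).1 ha
    obtain ⟨⟨i', j'⟩, s3, s4⟩ := (hY _ _).1 he
    rcases (hJ _ _).1 s1 with s1 | ⟨-, s1⟩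
    · exact (hY _ _).2 ⟨_, (hJ _ _).2 (.inl s1), s2⟩
    rcases (hJ _ _).1 s3 with s3 | ⟨-, s3⟩
    · exact (hY _ _).2 ⟨_, (hJ _ _).2 (.inl s3), s4⟩
    obtain rfl : i = i' := hdj _ _ _ _ _ s2 s4
    rcases le_total j j' with h | h
    · exact key i j j' v b h s2 s4 (by omega)
    · exact key i j' j v b h s4 s2 (by omega)
  · obtain ⟨s, -, hs⟩ := (hY _ _).1 hx
    obtain ⟨j, hj⟩ := hXS _ _ ⟨x, a⟩ hs
    exact ⟨⟨s.1, j⟩, fun k => h (hj ▸ k), (congrArg Subtype.val hj).symm⟩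
  · rintro _ ⟨s, -, rfl⟩
    rw [ht]
    exact ⟨t1 _, (hY _ _).2 ⟨s, hJ' s, huX _ _⟩⟩
  · rintro _ ⟨s, hs, rfl⟩ _ ⟨s', hs', rfl⟩ h
    rw [ht, ht] at h
    rw [Dinj _ _ (t2 _ _ (hA _) hs (hA _) hs' h)]
  · rintro _ ⟨a, ha, rfl⟩ _ ⟨b, hb, rfl⟩ _ ⟨c, -, rfl⟩ _ ⟨e, -, rfl⟩ h1 h2 h3 p p'
    simp only [ht] at h1 h2 h3
    have hΓ : ∀ x y, Γ.Adj x y → ∃ hx hy, H.Adj (.inl ⟨x, hx⟩) (.inl ⟨y, hy⟩) ∧
        .inl ⟨y, hy⟩ ∉ A := fun x y ⟨a, b, h, _, h'⟩ => ⟨a, b, h, h'⟩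
    obtain ⟨w, hw⟩ := vy_walk hΓ p (u a.1 a.2).2 (u c.1 c.2).2 ha
    obtain ⟨w', hw'⟩ := vy_walk hΓ p' (u b.1 b.2).2 (u e.1 e.2).2 hb
    obtain ⟨z, z1, z2⟩ := t4 (D a) (D b) (D c) (D e) (hA _) (hA _) (hA _) (hA _) h1 h2 h3 w w'
      (fun z hz => (hw z hz).1) fun z hz => (hw' z hz).1
    obtain ⟨-, y, y1, _, rfl⟩ := hw z z1
    obtain ⟨-, y', y2, _, e'⟩ := hw' _ z2
    obtain rfl : y = y' := congrArg Subtype.val (Sum.inl.inj e')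
    exact ⟨y, y1, y2⟩
  · obtain ⟨i, j, h⟩ := (hS x).resolve_left hx
    exact ⟨_, t1 _, (hY _ _).2 ⟨_, hJ' ⟨i, j⟩, h⟩⟩

end Vale.Agent.P235.Vx
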